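import Crest.Agent.R95.W
import Crest.Prelude.Def_VNFactor

/-!
# Row 95: concrete von Neumann algebras give the abstract setting

PLANS.
* `exists_tr`: `‖vectorState ξ x‖ ≤ ‖x‖`, summability from `∑ ‖ξ n‖² = 1`.
* `isW_res`: `D = span {T (ξ n) | T ∈ M'}` is dense (the projection onto its closure commutes with
  `M'`, so it is in `M`, and `1 -` it kills every `ξ n`).  A bounded `‖·‖₂`-Cauchy sequence is
  pointwise Cauchy on `D`, hence on `H`; the pointwise limit is a bounded operator commuting with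
  `M'` and `N'`; `‖x n - y‖₂ → 0` (Fatou on finite partial sums).
* `sep`: the topology induced by `x ↦ (x (ξ n))_n ∈ ℕ → H` is second countable; take a countable
  dense subset of each norm ball; tails are uniformly small on balls.
* `gen_iff`: (→) `IsW.mem_of_inCl` for `res M N`.  (←) bicommutant theorem: the double centralizer
  of `adjoin S` is a `VonNeumannAlgebra`; in `lp (fun _ : ℕ => H) 2` let `K` be the closure of
  `{(a (ξ n))_n | a ∈ adjoin S}`; the orthogonal projection onto `K` commutes with the diagonal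
  operators, so its matrix entries lie in the centralizer, so it commutes with the diagonal
  operator of `x`, whence `(x (ξ n))_n ∈ K`.
-/

set_option autoImplicit false

namespace Crest.Agent.R95

open Crest.OpAlg Filter Topology
open scoped InnerProductSpace

variable {H : Type*} [NormedAddCommGroup H] [InnerProductSpace ℂ H] [CompleteSpace H]

instance vn_isClosed (M : VonNeumannAlgebra H) :
    IsClosed (M.toStarSubalgebra : Set (H →L[ℂ] H)) := by
  rw [VonNeumannAlgebra.coe_toStarSubalgebra, ← M.centralizer_centralizer]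
  exact Set.isClosed_centralizer _

/-- `N ∩ M` as a subalgebra of `M` -/
noncomputable def res (M N : VonNeumannAlgebra H) : StarSubalgebra ℂ M.toStarSubalgebra :=
  N.toStarSubalgebra.comap M.toStarSubalgebra.subtype

theorem mem_res {M N : VonNeumannAlgebra H} {x : M.toStarSubalgebra} :
    x ∈ res M N ↔ (x : H →L[ℂ] H) ∈ N := Iff.rfl

namespace Cc

theorem comm_proj {E : Type*} [NormedAddCommGroup E] [InnerProductSpace ℂ E]
    (K : Submodule ℂ E) [K.HasOrthogonalProjection] {S T : E →L[ℂ] E}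
    (h : ∀ x y, ⟪S x, y⟫_ℂ = ⟪x, T y⟫_ℂ) (hS : ∀ v ∈ K, S v ∈ K) (hT : ∀ v ∈ K, T v ∈ K) (v : E) :
    K.starProjection (T v) = T (K.starProjection v) := by
  refine Submodule.eq_starProjection_of_mem_orthogonal (hT _ (K.starProjection_apply_mem v)) ?_
  intro k hk
  rw [← map_sub, ← h]
  exact K.sub_starProjection_mem_orthogonal v _ (hS k hk)

/-- the Hilbert space of square summable sequences -/
abbrev ℓ (H : Type*) [NormedAddCommGroup H] := lp (fun _ : ℕ => H) 2

/-- amplification, linear version -/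
noncomputable def ampₗ (T : H →L[ℂ] H) : ℓ H →ₗ[ℂ] ℓ H where
  toFun v := ⟨fun n => T (v n), ((lp.memℓp v).const_smul (‖T‖ : ℂ)).mono' fun n => by
    simpa [norm_smul] using T.le_opNorm (v n)⟩
  map_add' v w := by ext1; funext n; simp
  map_smul' c v := by ext1; funext n; simp

theorem norm_ampₗ_le (T : H →L[ℂ] H) (v : ℓ H) : ‖ampₗ T v‖ ≤ ‖T‖ * ‖v‖ := by
  have : ‖ampₗ T v‖ ≤ ‖(‖T‖ : ℂ) • v‖ := lp.norm_mono two_ne_zero fun n => by
    show ‖T (v n)‖ ≤ ‖(‖T‖ : ℂ) • v n‖
    rw [norm_smul, Complex.norm_real, norm_norm]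
    exact T.le_opNorm (v n)
  rwa [norm_smul, Complex.norm_real, norm_norm] at this

/-- amplification -/
noncomputable def amp (T : H →L[ℂ] H) : ℓ H →L[ℂ] ℓ H :=
  (ampₗ T).mkContinuous ‖T‖ (norm_ampₗ_le T)

@[simp] theorem amp_apply (T : H →L[ℂ] H) (v : ℓ H) (n : ℕ) : amp T v n = T (v n) := rfl

theorem norm_amp_le (T : H →L[ℂ] H) (v : ℓ H) : ‖amp T v‖ ≤ ‖T‖ * ‖v‖ := norm_ampₗ_le T v

theorem amp_mul (S T : H →L[ℂ] H) (v : ℓ H) : amp (S * T) v = amp S (amp T v) := rfl

theorem amp_sub (S T : H →L[ℂ] H) (v : ℓ H) : amp (S - T) v = amp S v - amp T v := rfl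

theorem amp_one (v : ℓ H) : amp 1 v = v := rfl

theorem amp_inner (T : H →L[ℂ] H) (v w : ℓ H) : ⟪amp T v, w⟫_ℂ = ⟪v, amp (star T) w⟫_ℂ := by
  simp only [lp.inner_eq_tsum, amp_apply, ContinuousLinearMap.star_eq_adjoint,
    ContinuousLinearMap.adjoint_inner_right]

theorem amp_single (T : H →L[ℂ] H) (j : ℕ) (h : H) :
    amp T (lp.single 2 j h) = lp.single 2 j (T h) := by
  ext1; funext n
  simp only [amp_apply, lp.single_apply, Pi.single_apply]
  split_ifs <;> simp

/-- evaluation of the amplification at a vector -/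
noncomputable def ev (v : ℓ H) : (H →L[ℂ] H) →L[ℂ] ℓ H :=
  LinearMap.mkContinuous
    { toFun := fun T => amp T v
      map_add' := fun _ _ => rfl
      map_smul' := fun _ _ => rfl } ‖v‖ fun T => by
    rw [mul_comm]; exact norm_amp_le T v

theorem ev_apply (v : ℓ H) (T : H →L[ℂ] H) : ev v T = amp T v := rfl

theorem norm_sq_eq (v : ℓ H) : ‖v‖ ^ 2 = ∑' n, ‖v n‖ ^ 2 := by
  have := lp.norm_rpow_eq_tsum (p := 2) (by norm_num) v
  simpa using this

theorem exists_vec {ξ : ℕ → H} (h : HasSum (fun n => ‖ξ n‖ ^ 2) 1) :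
    ∃ Ξ : ℓ H, (∀ n, Ξ n = ξ n) ∧ ‖Ξ‖ = 1 := by
  let Ξ : ℓ H := ⟨ξ, memℓp_gen (by simpa using h.summable)⟩
  refine ⟨Ξ, fun _ => rfl, ?_⟩
  have := norm_sq_eq Ξ
  rw [show (∑' n, ‖Ξ n‖ ^ 2) = 1 from h.tsum_eq] at this
  exact (pow_eq_one_iff_of_nonneg (norm_nonneg _) two_ne_zero).1 this

theorem n2_eq {M : VonNeumannAlgebra H} {ξ : ℕ → H} {τ : Tr M.toStarSubalgebra}
    (hτ : ∀ x, τ.n2 x ^ 2 = traceNormSq ξ x) {Ξ : ℓ H} (hΞ : ∀ n, Ξ n = ξ n)
    (x : M.toStarSubalgebra) : τ.n2 x = ‖amp (x : H →L[ℂ] H) Ξ‖ := by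
  refine (pow_left_inj₀ (τ.n2_nonneg _) (norm_nonneg _) two_ne_zero).1 ?_
  rw [hτ, norm_sq_eq]
  simp [traceNormSq, hΞ]

theorem bicomm (B : StarSubalgebra ℂ (H →L[ℂ] H)) {x : H →L[ℂ] H}
    (hx : ∀ g, (∀ b ∈ B, b * g = g * b) → g * x = x * g) (v : ℓ H) :
    amp x v ∈ closure ((fun b => amp b v) '' (B : Set (H →L[ℂ] H))) := by
  let K : Submodule ℂ (ℓ H) :=
    (B.toSubalgebra.toSubmodule.map (ev v : (H →L[ℂ] H) →ₗ[ℂ] ℓ H)).topologicalClosure
  have hK : ∀ b ∈ B, ∀ w ∈ K, amp b w ∈ K := by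
    intro b hb w hw
    refine map_mem_closure (amp b).continuous hw ?_
    rintro _ ⟨a, ha, rfl⟩
    exact ⟨b * a, (mul_mem hb ha : _ ∈ B), rfl⟩
  have h1 : ∀ b ∈ B, ∀ w, K.starProjection (amp b w) = amp b (K.starProjection w) := fun b hb =>
    comm_proj K (S := amp (star b)) (fun x y => by rw [amp_inner, star_star])
      (hK _ (star_mem hb)) (hK b hb)
  have h2 : K.starProjection ∘L amp x = amp x ∘L K.starProjection := by
    refine lp.ext_continuousLinearMap (by simp) fun j => ?_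
    ext1 h
    ext1; funext i
    let g : H →L[ℂ] H := lp.evalCLM ℂ (fun _ : ℕ => H) 2 i ∘L K.starProjection ∘L
      lp.singleContinuousLinearMap ℂ (fun _ : ℕ => H) 2 j
    have hg : ∀ h, g h = K.starProjection (lp.single 2 j h) i := fun _ => rfl
    have := hx g fun b hb => by
      ext1 h
      rw [ContinuousLinearMap.mul_apply, ContinuousLinearMap.mul_apply, hg, hg, ← amp_single, h1 b hb,
        amp_apply]
    have := congrArg (fun T : H →L[ℂ] H => T h) this
    simp only [ContinuousLinearMap.mul_apply, hg] at this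
    simpa [amp_single] using this
  have h3 : v ∈ K := Submodule.le_topologicalClosure _ ⟨1, (one_mem B : _ ∈ B), rfl⟩
  have h4 := congrArg (fun T : ℓ H →L[ℂ] ℓ H => T v) h2
  simp only [ContinuousLinearMap.comp_apply, Submodule.starProjection_eq_self_iff.2 h3] at h4
  rw [← h4]
  exact K.starProjection_apply_mem _

end Cc

open Cc

variable {M : VonNeumannAlgebra H} {ξ : ℕ → H}

theorem exists_tr (hξ : IsFaithfulTracialVectorState M ξ) :
    ∃ τ : Tr M.toStarSubalgebra, (∀ x, τ.φ x = vectorState ξ x) ∧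
      (∀ x, τ.n2 x ^ 2 = traceNormSq ξ x) ∧ τ.Faithful := by
  obtain ⟨Ξ, hΞ, h1⟩ := exists_vec hξ.1
  let ι : M.toStarSubalgebra →L[ℂ] (H →L[ℂ] H) := M.toStarSubalgebra.toSubalgebra.toSubmodule.subtypeL
  let φ : M.toStarSubalgebra →L[ℂ] ℂ := innerSL ℂ Ξ ∘L ev Ξ ∘L ι
  have hφ : ∀ x, φ x = ⟪Ξ, amp (x : H →L[ℂ] H) Ξ⟫_ℂ := fun _ => rfl
  have hφ' : ∀ x, φ x = vectorState ξ x := fun x => by
    simp [hφ, lp.inner_eq_tsum, vectorState, hΞ]
  have hφ2 : ∀ x, φ (star x * x) = ((‖amp (x : H →L[ℂ] H) Ξ‖ ^ 2 : ℝ) : ℂ) := fun x => by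
    rw [hφ]
    show ⟪Ξ, amp (star (x : H →L[ℂ] H) * (x : H →L[ℂ] H)) Ξ⟫_ℂ = _
    rw [amp_mul, ← amp_inner, inner_self_eq_norm_sq_to_K]
    simp
  let τ : Tr M.toStarSubalgebra :=
    { φ := φ
      one := by
        rw [hφ]
        show ⟪Ξ, Ξ⟫_ℂ = 1
        rw [inner_self_eq_norm_sq_to_K, h1]; simp
      comm := fun x y => by
        rw [hφ', hφ']
        exact hξ.2.1 x x.2 y y.2
      star := fun x => by
        rw [hφ, hφ, inner_conj_symm, amp_inner]
        rfl
      pos := fun x => by rw [hφ2, Complex.ofReal_re]; positivity }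
  have hτ : ∀ x, τ.n2 x ^ 2 = traceNormSq ξ x := fun x => by
    rw [τ.n2_sq]
    show (φ (star x * x)).re = _
    rw [hφ2, Complex.ofReal_re, norm_sq_eq]
    simp [traceNormSq, hΞ]
  refine ⟨τ, hφ', hτ, fun x hx => Subtype.ext (hξ.2.2 x x.2 fun n => ?_)⟩
  rw [n2_eq hτ hΞ, norm_eq_zero] at hx
  rw [← hΞ, ← amp_apply, hx]
  rfl

theorem isW_res (hξ : IsFaithfulTracialVectorState M ξ) {τ : Tr M.toStarSubalgebra}
    (hτ : ∀ x, τ.n2 x ^ 2 = traceNormSq ξ x) (N : VonNeumannAlgebra H) : IsW τ (res M N) := by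
  obtain ⟨Ξ, hΞ, h1⟩ := exists_vec hξ.1
  intro x C hxN hC hc
  have hC0 : 0 ≤ C := (norm_nonneg _).trans (hC 0)
  have hC' : ∀ n v, ‖(x n : H →L[ℂ] H) v‖ ≤ C * ‖v‖ := fun n v =>
    (x n : H →L[ℂ] H).le_of_opNorm_le (hC n) v
  have hc' : CauchySeq fun n => amp (x n : H →L[ℂ] H) Ξ := by
    refine Metric.cauchySeq_iff.2 fun ε hε => ?_
    obtain ⟨n₀, h⟩ := hc ε hε
    refine ⟨n₀, fun m hm n hn => ?_⟩
    rw [dist_eq_norm, ← amp_sub]
    have := h m hm n hn
    rwa [n2_eq hτ hΞ] at this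
  obtain ⟨w, hw⟩ := cauchySeq_tendsto_of_complete hc'
  have hwk : ∀ k, Tendsto (fun n => (x n : H →L[ℂ] H) (ξ k)) atTop (𝓝 (w k)) := fun k => by
    have := ((lp.evalCLM ℂ (fun _ : ℕ => H) 2 k).continuous.tendsto w).comp hw
    rw [← hΞ]
    exact this
  let V : Submodule ℂ H :=
    { carrier := {v | CauchySeq fun n => (x n : H →L[ℂ] H) v}
      zero_mem' := by simpa using cauchySeq_const (0 : H)
      add_mem' := fun {a b} ha hb => by
        convert CauchySeq.add ha hb using 1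
        simp [Set.mem_setOf_eq]; rfl
      smul_mem' := fun c a ha => by
        have := (uniformContinuous_const_smul c).comp_cauchySeq ha
        simpa [Function.comp_def] using this }
  have hV : IsClosed (V : Set H) := by
    refine isClosed_of_closure_subset fun v hv => Metric.cauchySeq_iff.2 fun ε hε => ?_
    obtain ⟨u, hu, huv⟩ := Metric.mem_closure_iff.1 hv (ε / 3 / (C + 1)) (by positivity)
    obtain ⟨n₀, h⟩ := Metric.cauchySeq_iff.1 hu (ε / 3) (by positivity)
    refine ⟨n₀, fun m hm n hn => ?_⟩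
    have h2 : ∀ n, dist ((x n : H →L[ℂ] H) v) ((x n : H →L[ℂ] H) u) ≤ ε / 3 := fun n => by
      rw [dist_eq_norm, ← map_sub]
      rw [dist_eq_norm, lt_div_iff₀ (by positivity)] at huv
      refine (hC' n _).trans ?_
      nlinarith [norm_nonneg (v - u)]
    have h3 := dist_triangle4_right ((x m : H →L[ℂ] H) v) ((x n : H →L[ℂ] H) v)
      ((x m : H →L[ℂ] H) u) ((x n : H →L[ℂ] H) u)
    linarith [h m hm n hn, h2 m, h2 n]
  haveI : CompleteSpace V := hV.completeSpace_coe
  have hp : V.starProjection ∈ M := by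
    rw [VonNeumannAlgebra.IsStarProjection.mem_iff isStarProjection_starProjection,
      Submodule.range_starProjection]
    intro y hy v hv
    show CauchySeq fun n => (x n : H →L[ℂ] H) (y v)
    have := y.uniformContinuous.comp_cauchySeq hv
    convert this using 1
    funext n
    exact congrArg (fun T : H →L[ℂ] H => T v) (VonNeumannAlgebra.mem_commutant_iff.1 hy _ (x n).2)
  have hp1 : 1 - V.starProjection = 0 := hξ.2.2 _ (sub_mem (one_mem M) hp) fun k => by
    rw [ContinuousLinearMap.sub_apply, Submodule.starProjection_eq_self_iff.2 (hwk k).cauchySeq]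
    simp
  have hall : ∀ v, CauchySeq fun n => (x n : H →L[ℂ] H) v := fun v => by
    have h2 := V.starProjection_apply_mem v
    rwa [← sub_eq_zero.1 hp1] at h2
  choose f hf using fun v => cauchySeq_tendsto_of_complete (hall v)
  let y : H →L[ℂ] H := continuousLinearMapOfTendsto (fun n => (x n : H →L[ℂ] H)) (l := atTop)
    (f := f) (tendsto_pi_nhds.2 hf)
  have hy : ∀ v, Tendsto (fun n => (x n : H →L[ℂ] H) v) atTop (𝓝 (y v)) := hf
  have key : ∀ Q : VonNeumannAlgebra H, (∀ n, (x n : H →L[ℂ] H) ∈ Q) → y ∈ Q := by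
    intro Q hQ
    rw [← Q.commutant_commutant, VonNeumannAlgebra.mem_commutant_iff]
    intro g hg
    ext1 v
    refine tendsto_nhds_unique ((g.continuous.tendsto _).comp (hy v)) ((hy (g v)).congr fun n => ?_)
    exact congrArg (fun T : H →L[ℂ] H => T v) (VonNeumannAlgebra.mem_commutant_iff.1 hg _ (hQ n))
  refine ⟨⟨y, key M fun n => (x n).2⟩, key N hxN, ?_, ?_⟩
  · exact y.opNorm_le_bound hC0 fun v => le_of_tendsto' (hy v).norm fun n => hC' n v
  · have h2 : w = amp y Ξ := by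
      ext1; funext k
      rw [amp_apply, hΞ]
      exact tendsto_nhds_unique (hwk k) (hy _)
    rw [h2, tendsto_iff_norm_sub_tendsto_zero] at hw
    refine hw.congr fun n => ?_
    rw [n2_eq hτ hΞ, ← amp_sub]
    rfl

theorem sep_of_separable [TopologicalSpace.SeparableSpace H]
    (hξ : IsFaithfulTracialVectorState M ξ) {τ : Tr M.toStarSubalgebra}
    (hτ : ∀ x, τ.n2 x ^ 2 = traceNormSq ξ x) : Sep τ := by
  obtain ⟨Ξ, hΞ, h1⟩ := exists_vec hξ.1
  have hs : TopologicalSpace.IsSeparable (Set.univ : Set (ℓ H)) := by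
    have h2 : TopologicalSpace.IsSeparable
        (⋃ j : ℕ, Set.range (lp.singleContinuousLinearMap ℂ (fun _ : ℕ => H) 2 j)) :=
      TopologicalSpace.IsSeparable.iUnion fun j =>
        TopologicalSpace.isSeparable_range (ContinuousLinearMap.continuous _)
    refine (h2.span (R := ℂ)).closure.mono fun v _ => ?_
    refine mem_closure_of_tendsto (lp.hasSum_single (by simp) v) (Eventually.of_forall fun s => ?_)
    exact Submodule.sum_mem _ fun j _ => Submodule.subset_span (Set.mem_iUnion.2 ⟨j, v j, rfl⟩)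
  obtain ⟨t, ht, htc, hd⟩ := (hs.mono (Set.subset_univ
    (Set.range fun x : M.toStarSubalgebra => amp (x : H →L[ℂ] H) Ξ))).exists_countable_dense_subset
  choose! g hg using fun w (hw : w ∈ t) => ht hw
  refine ⟨g '' t, htc.image _, fun x ε hε => ?_⟩
  obtain ⟨w, hw, h⟩ := Metric.mem_closure_iff.1 (hd ⟨x, rfl⟩) ε hε
  refine ⟨g w, ⟨w, hw, rfl⟩, ?_⟩
  rw [← hg w hw, dist_eq_norm, ← amp_sub] at h
  rwa [n2_eq hτ hΞ]

theorem gen_iff (hξ : IsFaithfulTracialVectorState M ξ) {τ : Tr M.toStarSubalgebra}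
    (hτ : ∀ x, τ.n2 x ^ 2 = traceNormSq ξ x) (hf : τ.Faithful) (S : Set M.toStarSubalgebra) :
    Gen τ S ↔ ∀ N : VonNeumannAlgebra H, (∀ s ∈ S, (s : H →L[ℂ] H) ∈ N) → M ≤ N := by
  obtain ⟨Ξ, hΞ, h1⟩ := exists_vec hξ.1
  refine ⟨fun hg N hN x hx => ?_, fun h x ε hε => ?_⟩
  · have h2 : StarAlgebra.adjoin ℂ S ≤ res M N := StarAlgebra.adjoin_le hN
    exact (isW_res hξ hτ N).mem_of_inCl hf (clo_mono h2 (hg ⟨x, hx⟩))
  · let B := (StarAlgebra.adjoin ℂ S).map M.toStarSubalgebra.subtype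
    let B' : VonNeumannAlgebra H :=
      { toStarSubalgebra := StarSubalgebra.centralizer ℂ (B : Set (H →L[ℂ] H))
        centralizer_centralizer' := by simp }
    have hB' : ∀ g, g ∈ B' ↔ ∀ b ∈ B, b * g = g * b := fun g => by
      show g ∈ StarSubalgebra.centralizer ℂ (B : Set (H →L[ℂ] H)) ↔ _
      rw [StarSubalgebra.mem_centralizer_iff]
      exact ⟨fun h b hb => (h b hb).1, fun h b hb => ⟨h b hb, h _ (star_mem hb)⟩⟩
    have h2 : (x : H →L[ℂ] H) ∈ B'.commutant := h _ (fun s hs => by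
      rw [VonNeumannAlgebra.mem_commutant_iff]
      intro g hg
      exact ((hB' g).1 hg s ⟨s, StarAlgebra.subset_adjoin ℂ S hs, rfl⟩).symm) x.2
    have h3 := bicomm B (fun g hg => VonNeumannAlgebra.mem_commutant_iff.1 h2 g ((hB' g).2 hg)) Ξ
    obtain ⟨_, ⟨_, ⟨b, hb, rfl⟩, rfl⟩, h4⟩ := Metric.mem_closure_iff.1 h3 ε hε
    refine ⟨b, hb, ?_⟩
    rw [dist_eq_norm, ← amp_sub] at h4
    rwa [n2_eq hτ hΞ]

end Crest.Agent.R95
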