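import Crest.Agent.R95.Proj

/-!
# Row 95: corners, and the Dixmier averaging property

PLANS.
* `exists_corner`: `B` = subtype of the closed `NonUnitalStarSubalgebra` `{x | e x e = x}` (this has
  a `NonUnitalCStarAlgebra` instance); add `1 := e` to get a `CStarAlgebra` (on a type synonym:
  `Ring` from the non-unital ring plus `one`, `Algebra.ofModule`, ...), `σ = τ / τ e`,
  `Q = {b | b.1 ∈ P}`.  Irreducibility: if `z` commutes with `e P e`, take `v` from
  `exists_cover`; `Z = ∑ v i z (v i)⋆` commutes with `P`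
  (`y Z = ∑_{j,i} v j ((v j)⋆ y v i) z (v i)⋆ = Z y`), so `Z = c`, and
  `(v i)⋆ Z v i = z` for the `i` with `(v i)⋆ v i = e`.  Diffuse: small projection + `comparison`.
* `dixmier`: if not, `Re ∑ τ (S i⋆ z i) ≥ ε` on the convex hull `K` of the orbit
  `{(w⋆ x i w)_i}`.  A sequence in `K` minimising `∑ ‖z i‖₂²` is Cauchy (parallelogram law) and
  norm bounded; its limit `z` (by `top`) is invariant under conjugation by unitaries of `P`
  (the conjugated sequence is minimising too; interlace or use the midpoint), so `z i` commutes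
  with `P` (`exists_unitary_decomp`), is a scalar of trace `0`, i.e. `0`: contradiction.
-/

set_option autoImplicit false

namespace Crest.Agent.R95

open Filter Topology Finset
open scoped ComplexConjugate

universe u

variable {A : Type u} [CStarAlgebra A] {τ : Tr A} {P N : StarSubalgebra ℂ A}

namespace Corner

/-- a non-unital C⋆-algebra with a unit element is a unital one -/
@[reducible] noncomputable def unitize (B : Type u) [NonUnitalCStarAlgebra B] (o : B)
    (h1 : ∀ x, o * x = x) (h2 : ∀ x, x * o = x) : CStarAlgebra B :=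
  letI : Ring B := { (inferInstance : NonUnitalRing B) with one := o, one_mul := h1, mul_one := h2 }
  letI : NormedRing B := { ‹Ring B›, (inferInstance : NonUnitalNormedRing B) with }
  letI : Algebra ℂ B := Algebra.ofModule smul_mul_assoc mul_smul_comm
  { ‹NormedRing B›, ‹Algebra ℂ B›, (inferInstance : NonUnitalCStarAlgebra B) with }

/-- the corner -/
def cor {e : A} (pe : IsStarProjection e) : NonUnitalStarSubalgebra ℂ A where
  carrier := {x | e * x = x ∧ x * e = x}
  add_mem' ha hb := ⟨by rw [mul_add, ha.1, hb.1], by rw [add_mul, ha.2, hb.2]⟩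
  zero_mem' := ⟨mul_zero _, zero_mul _⟩
  mul_mem' ha hb := ⟨by rw [← mul_assoc, ha.1], by rw [mul_assoc, hb.2]⟩
  smul_mem' c x hx := ⟨by rw [mul_smul_comm, hx.1], by rw [smul_mul_assoc, hx.2]⟩
  star_mem' hx := ⟨by simpa [pe.isSelfAdjoint.star_eq] using congrArg star hx.2,
    by simpa [pe.isSelfAdjoint.star_eq] using congrArg star hx.1⟩

theorem exists_alg {e : A} (pe : IsStarProjection e) :
    ∃ (B : Type u) (_ : CStarAlgebra B) (ι : B →⋆ₙₐ[ℂ] A),
      ι 1 = e ∧ (∀ b, ‖ι b‖ = ‖b‖) ∧ ∀ x, e * x * e = x → ∃ b, ι b = x := by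
  have hc : IsClosed (cor pe : Set A) :=
    (isClosed_eq (by fun_prop) continuous_id).inter (isClosed_eq (by fun_prop) continuous_id)
  let _ : CStarAlgebra (cor pe) := unitize (cor pe)
    ⟨e, pe.isIdempotentElem.eq, pe.isIdempotentElem.eq⟩ (fun x => Subtype.ext x.2.1)
    fun x => Subtype.ext x.2.2
  refine ⟨cor pe, inferInstance,
    { toFun := Subtype.val
      map_smul' := fun _ _ => rfl
      map_zero' := rfl
      map_add' := fun _ _ => rfl
      map_mul' := fun _ _ => rfl
      map_star' := fun _ => rfl }, rfl, fun _ => rfl, fun x hx => ⟨⟨x, ?_, ?_⟩, rfl⟩⟩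
  · rw [← hx, ← mul_assoc, ← mul_assoc, pe.isIdempotentElem.eq]
  · rw [← hx, mul_assoc, pe.isIdempotentElem.eq]

theorem par (τ : Tr A) (x y : A) :
    τ.n2 (x - y) ^ 2 = 2 * τ.n2 x ^ 2 + 2 * τ.n2 y ^ 2 - 4 * τ.n2 ((2⁻¹ : ℂ) • (x + y)) ^ 2 := by
  rw [τ.n2_smul, mul_pow, τ.n2_add_sq, τ.n2_sub_sq]
  simp
  ring

theorem n2_cut {e : A} (pe : IsStarProjection e) (x : A) : τ.n2 (e * x * e) ≤ τ.n2 x :=
  (τ.n2_mul_le_right _ _).trans ((mul_le_of_le_one_right (τ.n2_nonneg _) pe.norm_le).trans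
    ((τ.n2_mul_le_left _ _).trans (mul_le_of_le_one_left (τ.n2_nonneg _) pe.norm_le)))

end Corner

theorem Irr.exists_corner (h : Irr τ P) {e : A} (he : e ∈ P) (pe : IsStarProjection e)
    (h0 : e ≠ 0) :
    ∃ (B : Type u) (_ : CStarAlgebra B) (σ : Tr B) (Q : StarSubalgebra ℂ B) (ι : B →⋆ₙₐ[ℂ] A),
      Irr σ Q ∧ ι 1 = e ∧ (∀ b, ‖ι b‖ = ‖b‖) ∧ (∀ b, τ.φ (ι b) = τ.φ e * σ.φ b) ∧
      (∀ x, e * x * e = x → ∃ b, ι b = x) ∧ (∀ b, b ∈ Q ↔ ι b ∈ P) ∧ (Sep τ → Sep σ) := by
  obtain ⟨B, _, ι, h1, hn, hs⟩ := Corner.exists_alg pe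
  have hδ := τ.proj_pos h.faithful pe h0
  set δ := (τ.φ e).re with hδ'
  have hφ : τ.φ e = δ := τ.phi_proj pe
  have hδc : (δ : ℂ) ≠ 0 := by exact_mod_cast hδ.ne'
  have inj : ∀ {a b}, ι a = ι b → a = b := fun {a b} hab => by
    rw [← sub_eq_zero, ← norm_eq_zero, ← hn, map_sub, hab, sub_self, norm_zero]
  have l1 : ∀ b, e * ι b = ι b := fun b => by rw [← h1, ← map_mul, one_mul]
  have l2 : ∀ b, ι b * e = ι b := fun b => by rw [← h1, ← map_mul, mul_one]
  let ιL : B →L[ℂ] A := LinearMap.mkContinuous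
    { toFun := ι, map_add' := map_add ι, map_smul' := map_smul ι } 1 fun b => by simp [hn]
  let σ : Tr B :=
    { φ := ((δ⁻¹ : ℝ) : ℂ) • τ.φ.comp ιL
      one := by simp [ιL, h1, hφ, hδc]
      comm := fun x y => by simp [ιL, τ.comm (ι x)]
      star := fun x => by simp [ιL, map_star, τ.star]
      pos := fun x => by
        have := τ.pos (ι x)
        simp only [ιL, smul_apply, ContinuousLinearMap.comp_apply,
          LinearMap.mkContinuous_apply, LinearMap.coe_mk, AddHom.coe_mk, map_mul, map_star,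
          smul_eq_mul, Complex.re_ofReal_mul]
        positivity }
  have hσ : ∀ b, τ.φ (ι b) = δ * σ.φ b := fun b => by simp [σ, ιL, hδc]
  have hs0 : 0 < √δ := Real.sqrt_pos.2 hδ
  have h2 : ∀ b, τ.n2 (ι b) = √δ * σ.n2 b := fun b => by
    rw [Tr.n2, Tr.n2, ← map_star, ← map_mul, hσ, Complex.re_ofReal_mul, Real.sqrt_mul hδ.le]
  have hW : ∀ (N : StarSubalgebra ℂ A) (Q : StarSubalgebra ℂ B), IsW τ N →
      (∀ b, b ∈ Q ↔ ι b ∈ N) → IsW σ Q := by
    intro N Q hN hQ x C hx hC hc
    obtain ⟨y, hy, hyC, hl⟩ := hN (fun n => ι (x n)) C (fun n => (hQ _).1 (hx n))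
      (fun n => by rw [hn]; exact hC n) fun ε hε => by
        obtain ⟨n₀, hn₀⟩ := hc (ε / √δ) (by positivity)
        refine ⟨n₀, fun m hm n hn => ?_⟩
        rw [← map_sub, h2, ← lt_div_iff₀' hs0]
        exact hn₀ m hm n hn
    obtain ⟨b, rfl⟩ := hs y (h.faithful.eq_of_tendsto (squeeze_zero (fun _ => τ.n2_nonneg _)
      (fun n => le_of_eq_of_le (by rw [mul_sub, sub_mul, l1, l2])
        (Corner.n2_cut pe (ι (x n) - y))) hl) hl)
    refine ⟨b, (hQ _).2 hy, hn b ▸ hyC, ?_⟩
    simp only [← map_sub, h2] at hl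
    simpa [hs0.ne'] using hl.const_mul (√δ)⁻¹
  let Q : StarSubalgebra ℂ B :=
    { carrier := {b | ι b ∈ P}
      mul_mem' := fun ha hb => by simpa using mul_mem ha hb
      add_mem' := fun ha hb => by simpa using add_mem ha hb
      algebraMap_mem' := fun c => by
        simpa [Algebra.algebraMap_eq_smul_one, h1] using P.smul_mem he c
      star_mem' := fun ha => by simpa [map_star] using star_mem ha }
  refine ⟨B, _, σ, Q, ι, ⟨fun b hb => ?_, hW ⊤ ⊤ h.top (by simp), hW P Q h.W fun _ => Iff.rfl,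
    fun z hz => ?_, fun ε hε => ?_⟩, h1, hn, fun b => by rw [hφ, hσ], hs, fun _ => Iff.rfl, ?_⟩
  · exact inj (by rw [map_zero]; exact h.faithful _ (by rw [h2, hb, mul_zero]))
  · obtain ⟨m, v, v1, v2, v3, ⟨i, v4⟩, v5⟩ := h.fac.exists_cover he pe h0
    have v2' : ∀ j, e * star (v j) = star (v j) := fun j => by
      simpa [pe.isSelfAdjoint.star_eq] using congrArg star (v2 j)
    have hc : ∀ y ∈ P, ∀ j k, star (v j) * y * v k * ι z = ι z * (star (v j) * y * v k) := by
      intro y hy j k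
      obtain ⟨b, hb⟩ := hs (star (v j) * y * v k)
        (by rw [mul_assoc, mul_assoc, v2, ← mul_assoc, ← mul_assoc, v2'])
      rw [← hb, ← map_mul, ← map_mul,
        hz b (show ι b ∈ P from hb ▸ mul_mem (mul_mem (star_mem (v1 j)) hy) (v1 k))]
    obtain ⟨c, hc⟩ := h.irr (∑ j, v j * ι z * star (v j)) fun y hy => by
      rw [← mul_one (_ * y), ← one_mul (y * _), ← v5]
      simp only [sum_mul, mul_sum]
      refine sum_congr rfl fun j _ => sum_congr rfl fun k _ => ?_
      have := congrArg (fun t => v k * t * star (v j)) (hc y hy k j)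
      simpa only [mul_assoc] using this.symm
    refine ⟨c, inj ?_⟩
    have := congrArg (fun t => star (v i) * t * v i) hc
    simp only [mul_sum, sum_mul, mul_smul_comm, smul_mul_assoc, mul_one, v4] at this
    rw [sum_eq_single i (fun j _ hj => by simp [← mul_assoc, v3 i j hj.symm]) (by simp)] at this
    rw [map_smul, h1, ← this, ← mul_assoc, ← mul_assoc, v4, l1, mul_assoc, v4, l2]
  · obtain ⟨p, hp, pp, p0, hpt⟩ := h.diffuse _ (lt_min hδ (mul_pos hδ hε))
    obtain ⟨v, hv, v1, v2⟩ := h.fac.comparison hp he pp pe (hpt.trans (min_le_left _ _))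
    have v2' : star v * e = star v := by
      simpa [pe.isSelfAdjoint.star_eq] using congrArg star v2
    obtain ⟨b, hb⟩ := hs (v * star v) (by rw [← mul_assoc, v2, mul_assoc, v2'])
    have t : τ.φ (ι b) = τ.φ p := by rw [hb, τ.comm, v1]
    have hvp : v * p = v := by
      have : star (v * p - v) * (v * p - v) = 0 := by
        simp only [star_sub, star_mul, pp.isSelfAdjoint.star_eq, sub_mul, mul_sub, mul_assoc, v1,
          ← mul_assoc (star v) v, pp.isIdempotentElem.eq, sub_self]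
      exact sub_eq_zero.1 ((CStarRing.star_mul_self_eq_zero_iff _).1 this)
    refine ⟨b, show ι b ∈ P from hb ▸ mul_mem hv (star_mem hv), ⟨inj ?_, inj ?_⟩, ?_, ?_⟩
    · rw [map_mul, hb, mul_assoc, ← mul_assoc (star v), v1, ← mul_assoc, hvp]
    · rw [map_star, hb, star_mul, star_star]
    · rintro rfl
      have := τ.proj_pos h.faithful pp p0
      simp [← t] at this
    · have := hpt.trans (min_le_right _ _)
      rw [← t, hσ, Complex.re_ofReal_mul] at this
      exact le_of_mul_le_mul_left this hδ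
  · rintro ⟨D, hD, hd⟩
    choose f hf using fun d : A => hs (e * d * e) (by
      simp only [mul_assoc, pe.isIdempotentElem.eq]
      rw [← mul_assoc, pe.isIdempotentElem.eq])
    refine ⟨f '' D, hD.image f, fun x ε hε => ?_⟩
    obtain ⟨d, hdD, hd⟩ := hd (ι x) (√δ * ε) (by positivity)
    refine ⟨f d, ⟨d, hdD, rfl⟩, lt_of_mul_lt_mul_left (lt_of_le_of_lt ?_ hd) hs0.le⟩
    rw [← h2, map_sub, hf]
    exact le_of_eq_of_le (by rw [mul_sub, sub_mul, l1, l2]) (Corner.n2_cut pe (ι x - d))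

theorem Irr.dixmier (h : Irr τ P) {ι : Type*} [Fintype ι] (x S : ι → A)
    (hx : ∀ i, τ.φ (x i) = 0) {ε : ℝ} (hε : 0 < ε) :
    ∃ w ∈ P, w ∈ unitary A ∧ ∑ i, (τ.φ (star (S i) * (star w * x i * w))).re ≤ ε := by
  by_contra hcon
  push Not at hcon
  let K : Set (ι → A) := {z | (∀ i, ‖z i‖ ≤ ‖x i‖) ∧ (∀ i, τ.φ (z i) = 0) ∧
    ∀ w ∈ P, w ∈ unitary A → ε ≤ ∑ i, (τ.φ (star (S i) * (star w * z i * w))).re}
  let Nn : (ι → A) → ℝ := fun z => ∑ i, τ.n2 (z i) ^ 2
  have hxK : x ∈ K := ⟨fun _ => le_rfl, hx, fun w hw hu => (hcon w hw hu).le⟩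
  have hb : BddBelow (Nn '' K) := ⟨0, by rintro _ ⟨z, -, rfl⟩; positivity⟩
  set d := sInf (Nn '' K) with hd
  have hdle : ∀ z ∈ K, d ≤ Nn z := fun z hz => csInf_le hb ⟨z, hz, rfl⟩
  have hpar : ∀ a ∈ K, ∀ b ∈ K, ∀ i, τ.n2 (a i - b i) ^ 2 ≤ 2 * Nn a + 2 * Nn b - 4 * d := by
    intro a ha b hb i
    have hm : (fun i => (2⁻¹ : ℂ) • (a i + b i)) ∈ K := by
      refine ⟨fun i => ?_, fun i => by simp [ha.2.1, hb.2.1], fun w hw hu => ?_⟩
      · rw [norm_smul]
        have := norm_add_le (a i) (b i)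
        simp only [norm_inv, Complex.norm_ofNat]
        linarith [ha.1 i, hb.1 i]
      · have e : (2⁻¹ : ℂ) = ((2⁻¹ : ℝ) : ℂ) := by simp
        simp only [mul_smul_comm, smul_mul_assoc, mul_add, add_mul, map_smul, map_add, smul_eq_mul,
          e, Complex.re_ofReal_mul, Complex.add_re, sum_add_distrib, ← mul_sum]
        linarith [ha.2.2 w hw hu, hb.2.2 w hw hu]
    refine (single_le_sum (f := fun i => τ.n2 (a i - b i) ^ 2) (fun _ _ => sq_nonneg _)
      (mem_univ i)).trans ?_
    have := hdle _ hm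
    simp only [Corner.par, sum_sub_distrib, sum_add_distrib, ← mul_sum]
    simp only [Nn] at this ⊢
    linarith
  obtain ⟨u, -, hu, huK⟩ := exists_seq_tendsto_sInf (Set.Nonempty.image Nn ⟨x, hxK⟩) hb
  choose z hz hzu using huK
  have hlim : ∀ i, ∃ y, ‖y‖ ≤ ‖x i‖ ∧ Tendsto (fun n => τ.n2 (z n i - y)) atTop (𝓝 0) := by
    intro i
    obtain ⟨y, -, hy⟩ := h.top (fun n => z n i) ‖x i‖ (fun _ => trivial) (fun n => (hz n).1 i)
      fun η hη => by
        obtain ⟨n₀, hn₀⟩ := eventually_atTop.1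
          (hu.eventually (gt_mem_nhds (show d < d + η ^ 2 / 4 by simpa using by positivity)))
        refine ⟨n₀, fun m hm n hn => lt_of_pow_lt_pow_left₀ 2 hη.le ?_⟩
        have := hpar _ (hz m) _ (hz n) i
        rw [hzu, hzu] at this
        linarith [hn₀ m hm, hn₀ n hn]
    exact ⟨y, hy⟩
  choose y hy hl using hlim
  have hyK : y ∈ K := by
    refine ⟨hy, fun i => ?_, fun w hw hu => ?_⟩
    · have := tendsto_phi (hl i)
      simp only [(hz _).2.1] at this
      exact tendsto_nhds_unique this tendsto_const_nhds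
    · refine ge_of_tendsto' (x := atTop) (tendsto_finsetSum _ fun i _ =>
        (Complex.continuous_re.tendsto _).comp (tendsto_phi ?_)) fun n => (hz n).2.2 w hw hu
      refine squeeze_zero (fun _ => τ.n2_nonneg _) (fun n => ?_)
        (by simpa using (hl i).const_mul ‖star (S i)‖)
      rw [← mul_sub, ← sub_mul, ← mul_sub]
      refine (τ.n2_mul_le_left _ _).trans (le_of_eq ?_)
      rw [τ.n2_mul_unitary hu, τ.n2_unitary_mul (Unitary.star_mem hu), norm_star]
  have hyd : Nn y ≤ d := by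
    have : Tendsto (fun n => Nn (z n)) atTop (𝓝 (Nn y)) := by
      refine tendsto_finsetSum _ fun i _ => Tendsto.pow ?_ 2
      rw [tendsto_iff_norm_sub_tendsto_zero]
      refine squeeze_zero (fun _ => norm_nonneg _) (fun n => ?_) (hl i)
      simpa only [← τ.norm_toL2, map_sub, Real.norm_eq_abs] using abs_norm_sub_norm_le _ _
    simp only [hzu] at this
    exact (tendsto_nhds_unique this hu).le
  have hinv : ∀ w ∈ P, w ∈ unitary A → ∀ i, y i * w = w * y i := by
    intro w hw hu i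
    have hK : (fun i => star w * y i * w) ∈ K := by
      refine ⟨fun i => ?_, fun i => ?_, fun w' hw' hu' => ?_⟩
      · refine norm_mul₃_le.trans ?_
        rw [norm_star, τ.norm_unitary hu, one_mul, mul_one]
        exact hy i
      · rw [τ.comm, ← mul_assoc, Unitary.mul_star_self_of_mem hu, one_mul, hyK.2.1]
      · simpa only [star_mul, mul_assoc] using hyK.2.2 (w * w') (mul_mem hw hw') (mul_mem hu hu')
    have e : Nn (fun i => star w * y i * w) = Nn y := by
      simp only [Nn, τ.n2_mul_unitary hu, τ.n2_unitary_mul (Unitary.star_mem hu)]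
    have := hpar _ hK _ hyK i
    have h0 := h.faithful _ (pow_eq_zero_iff two_ne_zero |>.1
      (le_antisymm (this.trans (by rw [e]; linarith)) (sq_nonneg _)))
    conv_rhs => rw [← sub_eq_zero.1 h0]
    rw [← mul_assoc, ← mul_assoc, Unitary.mul_star_self_of_mem hu, one_mul]
  have hy0 : ∀ i, y i = 0 := by
    intro i
    obtain ⟨c, hc⟩ := h.irr (y i) fun a ha => by
      obtain ⟨c, w, hw, rfl⟩ := exists_unitary_decomp (h.W.isClosed h.faithful) ha
      simp only [mul_sum, sum_mul, mul_smul_comm, smul_mul_assoc, hinv _ (hw _).1 (hw _).2]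
    have := hyK.2.1 i
    rw [hc, map_smul, τ.one, smul_eq_mul, mul_one] at this
    rw [hc, this, zero_smul]
  have := hyK.2.2 1 (one_mem _) (one_mem _)
  simp [hy0] at this
  linarith

/-- Dixmier property in a corner -/
theorem Irr.dixmier_corner (h : Irr τ P) {e : A} (he : e ∈ P) (pe : IsStarProjection e)
    (h0 : e ≠ 0) {ι : Type*} [Fintype ι] (x S : ι → A) (hx : ∀ i, τ.φ (x i) = 0)
    (hxe : ∀ i, e * x i * e = x i) {ε : ℝ} (hε : 0 < ε) :
    ∃ w ∈ P, star w * w = e ∧ w * star w = e ∧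
      ∑ i, (τ.φ (star (S i) * (star w * x i * w))).re ≤ ε := by
  obtain ⟨B, _, σ, Q, j, hI, h1, -, hφ, hs, hQ, -⟩ := h.exists_corner he pe h0
  have hδ := τ.proj_pos h.faithful pe h0
  have hδ' : τ.φ e ≠ 0 := fun h => by simp [h] at hδ
  choose x' hx' using fun i => hs _ (hxe i)
  choose S' hS' using fun i => hs (e * S i * e) (by
    simp only [mul_assoc, pe.isIdempotentElem.eq]
    rw [← mul_assoc, pe.isIdempotentElem.eq])
  obtain ⟨w, hw, hu, hw'⟩ := hI.dixmier x' S' (fun i => by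
    have := hφ (x' i)
    rw [hx', hx] at this
    exact (mul_eq_zero.1 this.symm).resolve_left hδ') hε
  refine ⟨j w, (hQ w).1 hw, by rw [← map_star, ← map_mul, hu.1, h1],
    by rw [← map_star, ← map_mul, hu.2, h1], ?_⟩
  have e1 : ∀ i, τ.φ (star (S i) * (star (j w) * x i * j w)) =
      τ.φ e * σ.φ (star (S' i) * (star w * x' i * w)) := fun i => by
    rw [← hφ, map_mul j, map_star j, hS', ← hx', ← map_star j, ← map_mul j, ← map_mul j, star_mul,
      star_mul, pe.isSelfAdjoint.star_eq, mul_assoc e, τ.comm e, mul_assoc (star (S i)),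
      mul_assoc (star (S i)), ← h1, ← map_mul j, ← map_mul j, one_mul, mul_one]
  simp only [e1]
  rw [τ.phi_proj pe]
  simp only [Complex.re_ofReal_mul, ← mul_sum]
  nlinarith [τ.proj_le_one pe]

end Crest.Agent.R95
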