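import Crest.Agent.R95.AF_A

/-! # Row 95: one step of the incremental patching -/

set_option autoImplicit false

namespace Crest.Agent.R95.AFaux

open Finset
open scoped ComplexConjugate

universe u

variable {A : Type u} [CStarAlgebra A]

/-- the allowed first coefficients -/
def F0 (F : Set A) : Set A := insert 1 (F ∪ Set.image2 (· * ·) F F)

/-- short words -/
def S0 (F : Set A) (r : ℕ) : Set (List (A × Bool)) := {L | L.length ≤ r ∧ ∀ p ∈ L, p.1 ∈ F0 F}

/-- the test words -/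
def Om (τ : Tr A) (F : Set A) (r : ℕ) : Set (List (A × Bool)) :=
  {L | L ∈ S0 F r ∧ L ≠ [] ∧ (∀ p ∈ L.tail, p.1 ∈ F) ∧ Adm τ L}

theorem F0_finite {F : Set A} (hF : F.Finite) : (F0 F).Finite :=
  (hF.union (hF.image2 _ hF)).insert 1

theorem S0_finite {F : Set A} (hF : F.Finite) (r : ℕ) : (S0 F r).Finite := by
  have := (F0_finite hF).to_subtype
  refine ((List.finite_length_le (F0 F × Bool) r).image
    (List.map fun p => ((p.1 : A), p.2))).subset ?_
  rintro L ⟨h1, h2⟩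
  refine ⟨L.attach.map fun p => (⟨p.1.1, h2 p.1 p.2⟩, p.1.2), by simpa using h1, ?_⟩
  simp only [List.map_map, Function.comp_def]
  exact List.attach_map_subtype_val L

theorem Om_finite (τ : Tr A) {F : Set A} (hF : F.Finite) (r : ℕ) : (Om τ F r).Finite :=
  (S0_finite hF r).subset fun _ h => h.1

theorem F0_norm [Nontrivial A] {F : Set A} (hF : ∀ x ∈ F, ‖x‖ ≤ 1) : ∀ x ∈ F0 F, ‖x‖ ≤ 1 := by
  rintro x (rfl | hx | ⟨y, hy, z, hz, rfl⟩)
  · simp
  · exact hF x hx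
  · exact (norm_mul_le _ _).trans (mul_le_one₀ (hF y hy) (norm_nonneg _) (hF z hz))

/-- `b` is a unitary of the corner `p P p` -/
structure St (P : StarSubalgebra ℂ A) (b p : A) : Prop where
  mem : b ∈ P
  proj : IsStarProjection p
  l : star b * b = p
  r : b * star b = p
  bp : b * p = b

theorem St.norm_le {P : StarSubalgebra ℂ A} {b p : A} (h : St P b p) : ‖b‖ ≤ 1 := by
  have h1 := h.proj.norm_le
  rw [← h.l, CStarRing.norm_star_mul_self] at h1
  nlinarith [norm_nonneg b]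

theorem St.mem' {P : StarSubalgebra ℂ A} {b p : A} (h : St P b p) : 1 - p ∈ P := by
  rw [← h.l]
  exact sub_mem (one_mem _) (mul_mem (star_mem h.mem) h.mem)

theorem St.add {P : StarSubalgebra ℂ A} {b p q : A} (h : St P b p) (hqP : q ∈ P)
    (hq : IsStarProjection q) (hfq : (1 - p) * q = q) {ζ : ℂ} (hζ : ‖ζ‖ = 1) :
    St P (b + ζ • q) (p + q) := by
  have pq : p * q = 0 := by
    rw [sub_mul, one_mul] at hfq
    simpa using hfq
  have sq : star q = q := hq.isSelfAdjoint.star_eq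
  have sp : star p = p := h.proj.isSelfAdjoint.star_eq
  have qq : q * q = q := hq.isIdempotentElem.eq
  have qp : q * p = 0 := by simpa [sq, sp] using congrArg star pq
  have pb : p * b = b := by rw [← h.r, mul_assoc, h.l, h.bp]
  have bq : b * q = 0 := by rw [← h.bp, mul_assoc, pq, mul_zero]
  have qb : q * b = 0 := by rw [← pb, ← mul_assoc, qp, zero_mul]
  have bq' : star b * q = 0 := by simpa [sq] using congrArg star qb
  have qb' : q * star b = 0 := by simpa [sq] using congrArg star bq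
  have z1 : conj ζ * ζ = 1 := by rw [Complex.conj_mul', hζ]; simp
  have z2 : ζ * conj ζ = 1 := by rw [mul_comm, z1]
  refine ⟨add_mem h.mem (SMulMemClass.smul_mem _ hqP), h.proj.add hq pq, ?_, ?_, ?_⟩
  · simp [add_mul, mul_add, sq, bq', qb, qq, h.l, smul_smul, z2]
  · simp [add_mul, mul_add, sq, bq, qb', qq, h.r, smul_smul, z1]
  · simp [add_mul, mul_add, bq, qp, qq, h.bp]

theorem adm_first {τ : Tr A} {p : A × Bool} {L : List (A × Bool)} (h : Adm τ (p :: L)) (y : A) :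
    Adm τ ((y, p.2) :: L) := by
  unfold Adm at h ⊢
  rw [List.isChain_cons] at h ⊢
  exact h

theorem gap {τ : Tr A} {P : StarSubalgebra ℂ A} {b p : A} (h : St P b p) {F : Set A} {r : ℕ}
    {M : ℝ} (hM0 : 0 ≤ M) (hM : ∀ L ∈ Om τ F r, ‖τ.φ (wd b L)‖ ≤ M)
    {L₁ G L₂ : List (A × Bool)} {p₁ p' : A × Bool}
    (hL : L₁ ++ p₁ :: (G ++ p' :: L₂) ∈ Om τ F r) (hp : p₁.2 ≠ p'.2) :
    ‖τ.φ ((1 - p) * (wd b G * p'.1))‖ ≤ 2 * M := by
  obtain ⟨⟨h1, -⟩, -, h3, h4⟩ := hL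
  have hF : ∀ x ∈ G ++ [p'], x.1 ∈ F := by
    intro x hx
    refine h3 x ?_
    simp only [List.mem_append, List.mem_singleton] at hx
    cases L₁ <;> rcases hx with hx | hx <;> simp [hx]
  have hA : Adm τ (p₁ :: (G ++ [p'])) := by
    unfold Adm at h4 ⊢
    have := h4.right_of_append
    rw [show p₁ :: (G ++ p' :: L₂) = (p₁ :: (G ++ [p'])) ++ L₂ by simp] at this
    exact this.left_of_append
  simp only [List.length_append, List.length_cons] at h1
  have a1 : ‖τ.φ (p * (wd b G * p'.1))‖ ≤ M := by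
    have hm : ((1 : A), p₁.2) :: (G ++ [p']) ∈ Om τ F r := by
      refine ⟨⟨by simp; omega, ?_⟩, by simp, hF, adm_first hA 1⟩
      intro x hx
      rcases List.mem_cons.mp hx with rfl | hx
      · exact Or.inl rfl
      · exact Or.inr (Or.inl (hF x hx))
    have e : τ.φ (wd b ((1, p₁.2) :: (G ++ [p']))) = τ.φ (p * (wd b G * p'.1)) := by
      rw [wd_cons, wd_append, wd_cons, wd_nil, one_mul, mul_one, ← mul_assoc (wd b G),
        ← mul_assoc, τ.comm, ← mul_assoc]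
      congr 2
      revert hp
      cases p₁.2 <;> cases p'.2 <;> simp [h.l, h.r]
    rw [← e]
    exact hM _ hm
  have a2 : ‖τ.φ (wd b G * p'.1)‖ ≤ M := by
    cases G with
    | nil =>
      unfold Adm at hA
      simp only [List.nil_append, List.isChain_cons_cons] at hA
      rw [wd_nil, one_mul, hA.1 hp]
      simpa using hM0
    | cons g G =>
      have hm : (p'.1 * g.1, g.2) :: G ∈ Om τ F r := by
        refine ⟨⟨by simp at h1 ⊢; omega, ?_⟩, by simp, fun x hx => hF x (by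
          simp only [List.tail_cons] at hx; simp [hx]), adm_first (p := g) ?_ _⟩
        · intro x hx
          rcases List.mem_cons.mp hx with rfl | hx
          · exact Or.inr (Or.inr ⟨p'.1, hF p' (by simp), g.1, hF g (by simp), rfl⟩)
          · exact Or.inr (Or.inl (hF x (by simp [hx])))
        · unfold Adm at hA ⊢
          exact hA.tail.left_of_append
      have e : τ.φ (wd b ((p'.1 * g.1, g.2) :: G)) = τ.φ (wd b (g :: G) * p'.1) := by
        rw [τ.comm _ p'.1, wd_cons, wd_cons]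
        simp only [mul_assoc]
      rw [← e]
      exact hM _ hm
  rw [sub_mul, one_mul, map_sub]
  exact (norm_sub_le _ _).trans (by linarith)

/-- changing `b` by `ζ q` changes the traces of words by at most `2 ^ r τ q` -/
theorem diff_bound (τ : Tr A) {b q : A} (hb : ‖b‖ ≤ 1) (hq : IsStarProjection q)
    (L : List (A × Bool)) (hL : ∀ p ∈ L, ‖p.1‖ ≤ 1) {r : ℕ} (hr : L.length ≤ r) {ζ : ℂ}
    (hζ : ‖ζ‖ = 1) :
    ‖τ.φ (wd (b + ζ • q) L) - τ.φ (wd b L)‖ ≤ 2 ^ r * (τ.φ q).re := by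
  obtain ⟨T, h1, h2, h3⟩ := expand b q hq.isSelfAdjoint.star_eq L
  rw [h3 ζ hζ, map_add, add_sub_cancel_left, map_list_sum, List.map_map]
  refine (list_norm_sum T _ (D := (τ.φ q).re) fun M hM => ?_).trans ?_
  · obtain ⟨e, M₁, p, M₂, rfl⟩ := h2 M hM
    simp only [Function.comp_apply, map_smul, smul_eq_mul, norm_mul, norm_zpow, hζ, one_zpow,
      one_mul]
    exact flag_bound τ hb hq _ _ _ fun m hm => hL _ (e ▸ List.mem_map_of_mem hm)
  · refine mul_le_mul_of_nonneg_right ?_ (τ.proj_nonneg hq)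
    have : T.length ≤ 2 ^ r := le_trans (by omega) (Nat.pow_le_pow_right (by norm_num) hr)
    exact_mod_cast this

theorem avg_bound {τ : Tr A} {P : StarSubalgebra ℂ A} {b p q : A} (h : St P b p) {F : Set A}
    (hF : ∀ x ∈ F, ‖x‖ ≤ 1) {r : ℕ} {M η θ : ℝ} (hM0 : 0 ≤ M)
    (hM : ∀ L ∈ Om τ F r, ‖τ.φ (wd b L)‖ ≤ M) (hη : 0 < η) (hθ : 0 ≤ θ)
    (hf : η ≤ (τ.φ (1 - p)).re) (hq : IsStarProjection q)
    (hX : ∀ G ∈ S0 F r, ∀ x ∈ F0 F, τ.n2 (q * (wd b G * x) * q -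
      (τ.φ ((1 - p) * (wd b G * x)) / τ.φ (1 - p)) • q) ≤ θ * τ.n2 q)
    {ω : ℂ} (hω : IsPrimitiveRoot ω (r + 1)) {L : List (A × Bool)} (hL : L ∈ Om τ F r) :
    ‖∑ j ∈ range (r + 1), (τ.φ (wd (b + ω ^ j • q) L) - τ.φ (wd b L))‖ ≤
      (r + 1 : ℕ) * (2 ^ r * ((θ + 2 * M / η) * (τ.φ q).re)) := by
  have := τ.nontrivial
  have hω1 : ‖ω‖ = 1 := hω.norm'_eq_one (by omega)
  have hq0 := τ.proj_nonneg hq
  obtain ⟨T, h1, h2, h3⟩ := expand b q hq.isSelfAdjoint.star_eq L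
  have e : ∀ j : ℕ, τ.φ (wd (b + ω ^ j • q) L) - τ.φ (wd b L) =
      (T.map fun M => (ω ^ j) ^ ex M * τ.φ (W b q M)).sum := by
    intro j
    rw [h3 (ω ^ j) (by simp [hω1]), map_add, add_sub_cancel_left, map_list_sum, List.map_map]
    simp [Function.comp_def]
  simp only [e]
  rw [sum_list_comm]
  refine (list_norm_sum T _ (D := (r + 1 : ℕ) * ((θ + 2 * M / η) * (τ.φ q).re))
    fun M' hM' => ?_).trans ?_
  · obtain ⟨e, N₁, p₀, N₂, e₀⟩ := h2 M' hM'
    have hlen : M'.length ≤ r := by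
      have := hL.1.1
      rwa [← e, List.length_map] at this
    have hn : ∀ m ∈ M', ‖m.1.1‖ ≤ 1 := fun m hm =>
      F0_norm hF _ (hL.1.2 _ (e ▸ List.mem_map_of_mem hm))
    rw [← Finset.sum_mul]
    by_cases h0 : ex M' = 0
    · rcases trichotomy M' with ⟨M₁, p₁, G, p', M₂, rfl, hp⟩ | ⟨G, hG⟩ | ⟨G, p', M₂, -, hp⟩
      · have hL' : M₁.map Prod.fst ++ p₁ :: (G ++ p' :: M₂.map Prod.fst) ∈ Om τ F r := by
          simpa [← e, map_unf] using hL
        have hG : G ∈ S0 F r := by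
          refine ⟨?_, fun x hx => hL'.1.2 x (by simp [hx])⟩
          have := hL'.1.1
          simp only [List.length_append, List.length_cons] at this
          omega
        have h4 := dec_bound τ h.norm_le hq M₁ p₁ G p' M₂ hn hθ
          (hX G hG p'.1 (hL'.1.2 p' (by simp)))
        have h5 := gap h hM0 hM hL' hp
        have h6 : ‖τ.φ ((1 - p) * (wd b G * p'.1)) / τ.φ (1 - p)‖ ≤ 2 * M / η := by
          rw [norm_div]
          exact div_le_div₀ (by positivity) h5 hη (hf.trans (Complex.re_le_norm _))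
        rw [h0, norm_mul]
        simp only [zpow_zero, Finset.sum_const, card_range, nsmul_eq_mul, mul_one,
          Complex.norm_natCast]
        refine mul_le_mul_of_nonneg_left (h4.trans ?_) (Nat.cast_nonneg _)
        exact mul_le_mul_of_nonneg_right (by linarith) hq0
      · exfalso
        have : (p₀, true) ∈ unf G := by rw [← hG, e₀]; simp
        simp [unf] at this
      · rw [h0] at hp
        split_ifs at hp <;> simp at hp
    · rw [root_sum hω h0 (lt_of_le_of_lt (abs_ex_le M') (by push_cast; omega)), zero_mul, norm_zero]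
      positivity
  · have : T.length ≤ 2 ^ r := le_trans (by omega) (Nat.pow_le_pow_right (by norm_num) hL.1.1)
    have h' : (T.length : ℝ) ≤ 2 ^ r := by exact_mod_cast this
    rw [mul_left_comm]
    exact mul_le_mul_of_nonneg_left (mul_le_mul_of_nonneg_right h' (by positivity))
      (Nat.cast_nonneg _)

/-- the constant in the recursion -/
noncomputable def CC (K r : ℕ) (η : ℝ) : ℝ := K * 2 ^ r * (1 + 4 / η) + K * (2 ^ r) ^ 2

theorem step {τ : Tr A} {P : StarSubalgebra ℂ A} {b p q : A} (h : St P b p) {F : Set A}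
    (hF : ∀ x ∈ F, ‖x‖ ≤ 1) {r : ℕ} (Ω : Finset (List (A × Bool)))
    (hΩ : ∀ L, L ∈ Ω ↔ L ∈ Om τ F r) {η θ : ℝ} (hη : 0 < η) (hθ : 0 ≤ θ)
    (hf : η ≤ (τ.φ (1 - p)).re) (hq : IsStarProjection q)
    (hX : ∀ G ∈ S0 F r, ∀ x ∈ F0 F, τ.n2 (q * (wd b G * x) * q -
      (τ.φ ((1 - p) * (wd b G * x)) / τ.φ (1 - p)) • q) ≤ θ * τ.n2 q) :
    ∃ ζ : ℂ, ‖ζ‖ = 1 ∧ ∑ L ∈ Ω, ‖τ.φ (wd (b + ζ • q) L)‖ ^ 2 ≤
      (1 + CC Ω.card r η * (τ.φ q).re) * ∑ L ∈ Ω, ‖τ.φ (wd b L)‖ ^ 2 +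
        CC Ω.card r η * (τ.φ q).re * (θ ^ 2 + (τ.φ q).re) := by
  have := τ.nontrivial
  have hω := Complex.isPrimitiveRoot_exp (r + 1) (by omega)
  set ω := Complex.exp (2 * ↑Real.pi * Complex.I / ↑(r + 1))
  have hω1 : ‖ω‖ = 1 := hω.norm'_eq_one (by omega)
  set Φ := ∑ L ∈ Ω, ‖τ.φ (wd b L)‖ ^ 2 with hΦ
  have hΦ0 : 0 ≤ Φ := Finset.sum_nonneg fun _ _ => by positivity
  have hM : ∀ L ∈ Om τ F r, ‖τ.φ (wd b L)‖ ≤ √Φ := fun L hL =>
    Real.le_sqrt_of_sq_le (Finset.single_le_sum (f := fun L => ‖τ.φ (wd b L)‖ ^ 2)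
      (fun _ _ => by positivity) ((hΩ L).mpr hL))
  obtain ⟨j, hj⟩ := averaging Ω (N := r + 1) (by omega) (fun L => τ.φ (wd b L))
    (fun j L => τ.φ (wd (b + ω ^ j • q) L) - τ.φ (wd b L)) (M := √Φ)
    (D := 2 ^ r * (τ.φ q).re) (E := 2 ^ r * ((θ + 2 * √Φ / η) * (τ.φ q).re))
    (fun L hL => hM L ((hΩ L).mp hL))
    (fun j L hL => diff_bound τ h.norm_le hq L
      (fun x hx => F0_norm hF _ (((hΩ L).mp hL).1.2 x hx)) ((hΩ L).mp hL).1.1 (by simp [hω1]))
    (fun L hL => avg_bound h hF (Real.sqrt_nonneg _) hM hη hθ hf hq hX hω ((hΩ L).mp hL))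
  refine ⟨ω ^ j, by simp [hω1], ?_⟩
  simp only [add_sub_cancel] at hj
  refine hj.trans ?_
  rw [← hΦ]
  have hδ := τ.proj_nonneg hq
  set δ := (τ.φ q).re
  have hs := Real.sq_sqrt hΦ0
  set M := √Φ
  unfold CC
  set K : ℝ := (Ω.card : ℝ)
  have hK : 0 ≤ K := Nat.cast_nonneg _
  have hR : (0 : ℝ) < 2 ^ r := by positivity
  set R : ℝ := 2 ^ r
  rw [← hs]
  have hi : 0 ≤ η⁻¹ := by positivity
  simp only [div_eq_mul_inv]
  set i := η⁻¹
  have e : (1 + (K * R * (1 + 4 * i) + K * R ^ 2) * δ) * M ^ 2 +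
      (K * R * (1 + 4 * i) + K * R ^ 2) * δ * (θ ^ 2 + δ) -
      (M ^ 2 + K * (2 * M * (R * ((θ + 2 * M * i) * δ)) + (R * δ) ^ 2)) =
      K * R * δ * ((M - θ) ^ 2 + R * M ^ 2 + 4 * i * θ ^ 2 + R * θ ^ 2 + (1 + 4 * i) * δ) := by
    ring
  have : 0 ≤ K * R * δ * ((M - θ) ^ 2 + R * M ^ 2 + 4 * i * θ ^ 2 + R * θ ^ 2 +
      (1 + 4 * i) * δ) := by positivity
  linarith

end Crest.Agent.R95.AFaux
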