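import Crest.Agent.R95.LQ
import Crest.Agent.R95.AF_B

/-!
# Row 95: asymptotically free Haar unitaries (Popa's incremental patching)

PLAN.  Scale so that all elements of `F` have norm `≤ 1`.  Let `F₀ = {1} ∪ F ∪ F·F`, `Ω` the finite
set of nonempty admissible words of length `≤ r` whose first coefficient is in `F₀` and whose other
coefficients are in `F`; `Φ b = ∑_{L ∈ Ω} |τ (wd b L)|²`.  States: `b ∈ P` with
`b⋆ b = b b⋆ = p` a projection; start `b = 0` (`Φ = 0`).  Fix a projection `e` with tiny trace `δ`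
(`diffuse`, `lq`).  While `τ (1 - p) ≥ η`: take `q ≤ f = 1 - p` from `lq` for the finite family of
*gaps* `wd b L' * x` (`L'` of length `≤ r` with coefficients in `F`, `x ∈ F`; index the family by a
fixed finite type) and `b' = b + ζ q`, `ζ^(r+1) = 1`... (any `N`-th roots of unity, `N > r`).
Expand `wd b' L = ∑_{flags} ζ^{e(flags)} (word with q at the flagged letters)`.
Every term with a flag has `|τ| ≤ δ` (`norm_phi_proj_mul`); the `ζ`-average of `τ (wd b' L) - τ (wd b L)`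
is the sum of the terms with `e = 0` and at least one flag; such a term has two consecutive flags
`i < j` of opposite sign, and with the gap `X` between them
`|τ| ≤ (|τ (f X)/τ f| + θ) δ`, `τ (f X) = τ X - τ (b^{ε_i} X b^{ε_j})`, where both traces are of the
form `τ (wd b L')`, `L' ∈ Ω` (or `0`).  Hence for some `ζ`:
`Φ b' ≤ (1 + C δ) Φ b + C δ (θ² + δ)`, `C = C(|Ω|, r, η)`.  After at most `1/δ` steps
`τ (1 - p) < η` and `Φ ≤ C (θ² + δ) e^C`.  Finally `b + (1 - p)` is unitary and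
`|τ (wd (b + (1-p)) L) - τ (wd b L)| ≤ r η` (telescoping, `norm_phi_proj_mul`).
-/

set_option autoImplicit false

namespace Crest.Agent.R95

open Filter Topology Finset
open scoped ComplexConjugate

universe u

variable {A : Type u} [CStarAlgebra A] {τ : Tr A} {P N : StarSubalgebra ℂ A}

namespace AFaux

theorem af_norm (h : Irr τ P) {F : Set A} (hF : F.Finite) (hF1 : ∀ x ∈ F, ‖x‖ ≤ 1) (r : ℕ)
    {ε : ℝ} (hε : 0 < ε) :
    ∃ b ∈ P, b ∈ unitary A ∧ ∀ L ∈ Om τ F r, ‖τ.φ (wd b L)‖ ≤ ε := by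
  have := τ.nontrivial
  set Ω := (Om_finite τ hF r).toFinset
  have hΩ : ∀ L, L ∈ Ω ↔ L ∈ Om τ F r := fun L => Set.Finite.mem_toFinset _
  obtain ⟨η, hη, hη'⟩ : ∃ η : ℝ, 0 < η ∧ 2 ^ r * η = ε / 2 :=
    ⟨ε / 2 / 2 ^ r, by positivity, by field_simp⟩
  set C := CC Ω.card r η with hC
  have hC0 : 0 ≤ C := by rw [hC]; unfold CC; positivity
  obtain ⟨θ, hθ, hθ'⟩ : ∃ θ : ℝ, 0 < θ ∧ Real.exp (2 * C) * (2 * θ ^ 2) ≤ (ε / 2) ^ 2 := by
    refine ⟨ε / 4 * Real.exp (-C), by positivity, ?_⟩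
    have e : Real.exp (2 * C) * Real.exp (-C) ^ 2 = 1 := by
      rw [← Real.exp_nat_mul, ← Real.exp_add]; simp
    have : Real.exp (2 * C) * (2 * (ε / 4 * Real.exp (-C)) ^ 2) =
        ε ^ 2 / 8 * (Real.exp (2 * C) * Real.exp (-C) ^ 2) := by ring
    rw [this, e]
    nlinarith [sq_nonneg ε]
  let _ := (S0_finite hF r).fintype
  let _ := (F0_finite hF).fintype
  obtain ⟨δ₀, hδ₀, hlq⟩ := h.lq (S0 F r × F0 F) hη hθ
  obtain ⟨e, heP, he, he0, hδ⟩ := h.diffuse (min δ₀ (min (θ ^ 2) 1)) (by positivity)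
  have hδp := τ.proj_pos h.faithful he he0
  set δ := (τ.φ e).re with hδe
  simp only [le_min_iff] at hδ
  have iter : ∀ n : ℕ, ∃ b p, St P b p ∧ ((τ.φ (1 - p)).re < η ∨ n * δ ≤ (τ.φ p).re) ∧
      ∑ L ∈ Ω, ‖τ.φ (wd b L)‖ ^ 2 ≤ ((1 + C * δ) ^ n - 1) * (θ ^ 2 + δ) := by
    intro n
    induction n with
    | zero =>
      refine ⟨0, 0, ⟨zero_mem _, IsStarProjection.zero A, by simp, by simp, by simp⟩,
        Or.inr (by simp), le_of_eq ?_⟩
      rw [pow_zero, sub_self, zero_mul]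
      refine Finset.sum_eq_zero fun L hL => ?_
      obtain ⟨x, L', rfl⟩ := List.exists_cons_of_ne_nil ((hΩ L).mp hL).2.1
      simp [wd_cons]
    | succ n ih =>
      obtain ⟨b, p, hst, hor, hΦ⟩ := ih
      have hCδ : 0 ≤ C * δ := by positivity
      by_cases hf : (τ.φ (1 - p)).re < η
      · refine ⟨b, p, hst, Or.inl hf, hΦ.trans ?_⟩
        refine mul_le_mul_of_nonneg_right ?_ (by positivity)
        exact sub_le_sub_right
          (pow_le_pow_right₀ (show 1 ≤ 1 + C * δ by linarith) (Nat.le_succ n)) 1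
      · have hf' := not_lt.mp hf
        obtain ⟨q, hqP, hq, hfq, htq, hX⟩ := hlq e heP he he0 hδ.1 (1 - p) hst.mem' hst.proj.one_sub
          hf' (fun i => wd b i.1.1 * i.2.1) (fun i => (norm_mul_le _ _).trans (mul_le_one₀
            (norm_wd hst.norm_le _ fun x hx => F0_norm hF1 _ (i.1.2.2 x hx)) (norm_nonneg _)
            (F0_norm hF1 _ i.2.2)))
        obtain ⟨ζ, hζ, hs⟩ := step hst hF1 Ω hΩ hη hθ.le hf' hq
          (fun G hG x hx => hX (⟨G, hG⟩, ⟨x, hx⟩))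
        refine ⟨b + ζ • q, p + q, hst.add hqP hq hfq hζ, Or.inr ?_, hs.trans ?_⟩
        · rw [map_add, Complex.add_re, htq]
          have := hor.resolve_left hf
          push_cast
          linarith
        · rw [htq, ← hδe, ← hC]
          have := mul_le_mul_of_nonneg_left hΦ (show 0 ≤ 1 + C * δ by linarith)
          rw [pow_succ (1 + C * δ)]
          linarith
  obtain ⟨b, p, hst, hor, hΦ⟩ := iter ⌈1 / δ⌉₊
  have n1 : 1 ≤ (⌈1 / δ⌉₊ : ℝ) * δ := by
    rw [← div_le_iff₀ hδp]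
    exact Nat.le_ceil _
  have n2 : (⌈1 / δ⌉₊ : ℝ) * δ ≤ 2 := by
    have h1 := mul_le_mul_of_nonneg_right
      (Nat.ceil_lt_add_one (show 0 ≤ 1 / δ by positivity)).le hδp.le
    rw [add_mul, one_div_mul_cancel hδp.ne'] at h1
    linarith [hδ.2.2]
  have hf : (τ.φ (1 - p)).re < η := by
    rcases hor with h1 | h1
    · exact h1
    · rw [map_sub, τ.one, Complex.sub_re, Complex.one_re]
      linarith
  have hΦ' : ∑ L ∈ Ω, ‖τ.φ (wd b L)‖ ^ 2 ≤ (ε / 2) ^ 2 := by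
    refine hΦ.trans (le_trans ?_ hθ')
    refine mul_le_mul ?_ (by linarith [hδ.2.1]) (by positivity) (Real.exp_pos _).le
    have h1 : (1 + C * δ) ^ ⌈1 / δ⌉₊ ≤ Real.exp (C * δ) ^ ⌈1 / δ⌉₊ :=
      pow_le_pow_left₀ (by positivity) (by linarith [Real.add_one_le_exp (C * δ)]) _
    rw [← Real.exp_nat_mul] at h1
    have h2 : Real.exp (⌈1 / δ⌉₊ * (C * δ)) ≤ Real.exp (2 * C) := by
      refine Real.exp_le_exp.mpr ?_
      nlinarith [mul_le_mul_of_nonneg_left n2 hC0]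
    linarith
  have hq := hst.proj.one_sub
  have hu := hst.add hst.mem' hq hq.isIdempotentElem.eq (ζ := 1) (by simp)
  refine ⟨b + (1 : ℂ) • (1 - p), hu.mem, Unitary.mem_iff.mpr
    ⟨by rw [hu.l]; simp, by rw [hu.r]; simp⟩, fun L hL => ?_⟩
  have h1 := diff_bound τ hst.norm_le hq L (fun x hx => F0_norm hF1 _ (hL.1.2 x hx)) hL.1.1
    (ζ := 1) (by simp)
  have h2 : ‖τ.φ (wd b L)‖ ≤ ε / 2 :=
    le_of_sq_le_sq ((Finset.single_le_sum (f := fun L => ‖τ.φ (wd b L)‖ ^ 2)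
      (fun _ _ => by positivity) ((hΩ L).mpr hL)).trans hΦ') (by positivity)
  have h3 := mul_le_mul_of_nonneg_left hf.le (show (0 : ℝ) ≤ 2 ^ r by positivity)
  have h4 := norm_add_le (τ.φ (wd (b + (1 : ℂ) • (1 - p)) L) - τ.φ (wd b L)) (τ.φ (wd b L))
  rw [sub_add_cancel] at h4
  linarith

theorem wd_smul (b : A) (c : ℂ) (L : List (A × Bool)) :
    wd b (L.map fun p => (c • p.1, p.2)) = c ^ L.length • wd b L := by
  induction L with
  | nil => simp [wd]
  | cons p L ih =>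
    rw [List.map_cons, wd_cons, wd_cons, ih]
    simp only [smul_mul_assoc, mul_smul_comm, smul_smul, List.length_cons, pow_succ]

end AFaux

theorem Irr.af (h : Irr τ P) {F : Set A} (hF : F.Finite) (r : ℕ) {ε : ℝ} (hε : 0 < ε) :
    ∃ b ∈ P, b ∈ unitary A ∧ ∀ L : List (A × Bool), L ≠ [] → L.length ≤ r →
      (∀ p ∈ L, p.1 ∈ F) → Adm τ L → ‖τ.φ (wd b L)‖ ≤ ε := by
  obtain ⟨R₀, hR₀⟩ := (hF.image fun x => ‖x‖).bddAbove
  obtain ⟨R, hR1, hR⟩ : ∃ R : ℝ, 1 ≤ R ∧ ∀ x ∈ F, ‖x‖ ≤ R :=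
    ⟨max 1 R₀, le_max_left _ _, fun x hx => (hR₀ ⟨x, hx, rfl⟩).trans (le_max_right _ _)⟩
  have hR0 : 0 < R := by linarith
  obtain ⟨b, hbP, hb, H⟩ := AFaux.af_norm h (hF.image fun x => ((R⁻¹ : ℝ) : ℂ) • x) (by
    rintro _ ⟨x, hx, rfl⟩
    rw [norm_smul, Complex.norm_real, Real.norm_eq_abs, abs_of_pos (by positivity),
      inv_mul_le_iff₀ hR0, mul_one]
    exact hR x hx) r (show 0 < ε / R ^ r by positivity)
  refine ⟨b, hbP, hb, fun L h0 hr hL hA => ?_⟩
  have hm : ∀ p ∈ L.map fun p => (((R⁻¹ : ℝ) : ℂ) • p.1, p.2),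
      p.1 ∈ (fun x => ((R⁻¹ : ℝ) : ℂ) • x) '' F := by
    intro p hp
    obtain ⟨p', hp', rfl⟩ := List.mem_map.mp hp
    exact ⟨p'.1, hL p' hp', rfl⟩
  have h1 := H (L.map fun p => (((R⁻¹ : ℝ) : ℂ) • p.1, p.2))
    ⟨⟨by simpa using hr, fun p hp => Or.inr (Or.inl (hm p hp))⟩, by simpa using h0,
      fun p hp => hm p (List.mem_of_mem_tail hp), by
        unfold Adm at hA ⊢
        rw [List.isChain_map]
        exact hA.imp fun p p' hpp' hne => by simp [hpp' hne]⟩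
  rw [AFaux.wd_smul, map_smul, norm_smul, norm_pow, Complex.norm_real, Real.norm_eq_abs,
    abs_of_pos (by positivity), inv_pow, inv_mul_le_iff₀ (by positivity)] at h1
  refine h1.trans ?_
  rw [← mul_div_assoc, div_le_iff₀ (by positivity), mul_comm]
  exact mul_le_mul_of_nonneg_left (pow_le_pow_right₀ hR1 hr) hε.le

end Crest.Agent.R95
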