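import Crest.Agent.R95.Tr

/-! # Row 95: flagged words (combinatorics for `Irr.af`) -/

set_option autoImplicit false

namespace Crest.Agent.R95.AFaux

open Finset
open scoped ComplexConjugate

universe u

variable {A : Type u} [CStarAlgebra A]

/-- a flagged letter -/
def lt (b q : A) (m : (A × Bool) × Bool) : A :=
  m.1.1 * (if m.2 then q else if m.1.2 then b else star b)

/-- a flagged word -/
def W (b q : A) (M : List ((A × Bool) × Bool)) : A := (M.map (lt b q)).prod

/-- the exponent of a flagged word -/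
def ex (M : List ((A × Bool) × Bool)) : ℤ :=
  (M.map fun m => if m.2 then (if m.1.2 then (1 : ℤ) else -1) else 0).sum

/-- the unflagged word -/
def unf (G : List (A × Bool)) : List ((A × Bool) × Bool) := G.map fun p => (p, false)

theorem wd_nil (b : A) : wd b [] = 1 := rfl

theorem wd_cons (b : A) (p : A × Bool) (L : List (A × Bool)) :
    wd b (p :: L) = p.1 * (if p.2 then b else star b) * wd b L := by simp [wd]

theorem wd_append (b : A) (L L' : List (A × Bool)) : wd b (L ++ L') = wd b L * wd b L' := by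
  simp [wd]

theorem W_cons (b q : A) (m : (A × Bool) × Bool) (M : List ((A × Bool) × Bool)) :
    W b q (m :: M) = lt b q m * W b q M := by simp [W]

theorem W_append (b q : A) (M M' : List ((A × Bool) × Bool)) :
    W b q (M ++ M') = W b q M * W b q M' := by simp [W]

theorem W_unf (b q : A) (G : List (A × Bool)) : W b q (unf G) = wd b G := by
  simp [W, unf, wd, lt, Function.comp_def]

omit [CStarAlgebra A] in
theorem ex_cons (m : (A × Bool) × Bool) (M : List ((A × Bool) × Bool)) :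
    ex (m :: M) = (if m.2 then (if m.1.2 then (1 : ℤ) else -1) else 0) + ex M := by simp [ex]

omit [CStarAlgebra A] in
theorem ex_unf (G : List (A × Bool)) : ex (unf G) = 0 := by
  simp [ex, unf, Function.comp_def]

omit [CStarAlgebra A] in
theorem map_unf (G : List (A × Bool)) : (unf G).map Prod.fst = G := by
  simp [unf, Function.comp_def]

omit [CStarAlgebra A] in
theorem abs_ex_le (M : List ((A × Bool) × Bool)) : |ex M| ≤ M.length := by
  induction M with
  | nil => simp [ex]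
  | cons m M ih =>
    rw [ex_cons, List.length_cons]
    rw [abs_le] at ih ⊢
    push_cast
    split_ifs <;> omega

omit [CStarAlgebra A] in
theorem trichotomy (M : List ((A × Bool) × Bool)) :
    (∃ M₁ p G p' M₂, M = M₁ ++ (p, true) :: (unf G ++ (p', true) :: M₂) ∧ p.2 ≠ p'.2) ∨
    (∃ G, M = unf G) ∨
    ∃ G p' M₂, M = unf G ++ (p', true) :: M₂ ∧ (if p'.2 then 0 < ex M else ex M < 0) := by
  induction M with
  | nil => exact Or.inr (Or.inl ⟨[], rfl⟩)
  | cons m M ih =>
    obtain ⟨p, fl⟩ := m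
    rcases ih with ⟨M₁, p₁, G, p', M₂, h, hp⟩ | ⟨G, h⟩ | ⟨G, p', M₂, h, hp⟩
    · exact Or.inl ⟨(p, fl) :: M₁, p₁, G, p', M₂, by simp [h], hp⟩
    · cases fl
      · exact Or.inr (Or.inl ⟨p :: G, by simp [h, unf]⟩)
      · refine Or.inr (Or.inr ⟨[], p, M, by simp [unf], ?_⟩)
        rw [ex_cons, h, ex_unf]
        split_ifs <;> simp_all
    · cases fl
      · refine Or.inr (Or.inr ⟨p :: G, p', M₂, by simp [h, unf], ?_⟩)
        rw [ex_cons]
        simpa using hp
      · by_cases e : p.2 = p'.2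
        · refine Or.inr (Or.inr ⟨[], p, M, by simp [unf], ?_⟩)
          rw [ex_cons, e]
          split_ifs at hp ⊢ <;> simp_all <;> omega
        · exact Or.inl ⟨[], p, G, p', M₂, by simp [h], e⟩

theorem expand (b q : A) (hq : star q = q) (L : List (A × Bool)) :
    ∃ T : List (List ((A × Bool) × Bool)), T.length + 1 ≤ 2 ^ L.length ∧
      (∀ M ∈ T, M.map Prod.fst = L ∧ ∃ M₁ p M₂, M = M₁ ++ (p, true) :: M₂) ∧
      ∀ ζ : ℂ, ‖ζ‖ = 1 →
        wd (b + ζ • q) L = wd b L + (T.map fun M => ζ ^ ex M • W b q M).sum := by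
  induction L with
  | nil => exact ⟨[], by simp, by simp, fun ζ _ => by simp [wd]⟩
  | cons p L ih =>
    obtain ⟨T, h1, h2, h3⟩ := ih
    refine ⟨T.map (fun M => (p, false) :: M) ++ ((p, true) :: unf L) ::
      T.map (fun M => (p, true) :: M), ?_, ?_, ?_⟩
    · simp only [List.length_append, List.length_map, List.length_cons, pow_succ]
      omega
    · intro M hM
      simp only [List.mem_append, List.mem_map, List.mem_cons] at hM
      rcases hM with ⟨M', hM', rfl⟩ | rfl | ⟨M', hM', rfl⟩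
      · obtain ⟨e, M₁, p', M₂, e'⟩ := h2 M' hM'
        exact ⟨by simp [e], (p, false) :: M₁, p', M₂, by simp [e']⟩
      · exact ⟨by simp [map_unf], [], p, unf L, rfl⟩
      · exact ⟨by simp [(h2 M' hM').1], [], p, M', rfl⟩
    · intro ζ hζ
      have hζ0 : ζ ≠ 0 := by rintro rfl; simp at hζ
      have e : (if p.2 then b + ζ • q else star (b + ζ • q)) =
          (if p.2 then b else star b) + ζ ^ (if p.2 then (1 : ℤ) else -1) • q := by
        split_ifs
        · simp
        · simp [hq, Complex.inv_eq_conj hζ]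
      rw [wd_cons, wd_cons, e, h3 ζ hζ]
      simp only [List.map_append, List.map_cons, List.map_map, List.sum_append, List.sum_cons,
        Function.comp_def, W_cons, ex_cons, ex_unf, W_unf, lt, zpow_add₀ hζ0, if_true,
        Bool.false_eq_true, if_false, zpow_zero, one_mul, mul_one]
      have s1 : (T.map fun M => ζ ^ ex M • (p.1 * (if p.2 then b else star b) * W b q M)).sum =
          p.1 * (if p.2 then b else star b) * (T.map fun M => ζ ^ ex M • W b q M).sum := by
        rw [← List.sum_map_mul_left]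
        simp only [mul_smul_comm]
      have s2 : (T.map fun M => (ζ ^ (if p.2 then (1 : ℤ) else -1) * ζ ^ ex M) •
          (p.1 * q * W b q M)).sum = ζ ^ (if p.2 then (1 : ℤ) else -1) •
          (p.1 * q * (T.map fun M => ζ ^ ex M • W b q M).sum) := by
        rw [← List.sum_map_mul_left, List.smul_sum, List.map_map]
        simp only [mul_smul_comm, Function.comp_def, smul_smul]
      rw [s1, s2]
      simp only [mul_add, add_mul, mul_smul_comm, smul_mul_assoc]
      abel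

theorem norm_W [Nontrivial A] {b q : A} (hb : ‖b‖ ≤ 1) (hq : ‖q‖ ≤ 1)
    (M : List ((A × Bool) × Bool)) (hM : ∀ m ∈ M, ‖m.1.1‖ ≤ 1) : ‖W b q M‖ ≤ 1 := by
  induction M with
  | nil => simp [W]
  | cons m M ih =>
    rw [W_cons]
    have h1 : ‖lt b q m‖ ≤ 1 := by
      unfold lt
      refine (norm_mul_le _ _).trans (mul_le_one₀ (hM m (by simp)) (norm_nonneg _) ?_)
      split_ifs
      · exact hq
      · exact hb
      · simpa using hb
    exact (norm_mul_le _ _).trans (mul_le_one₀ h1 (norm_nonneg _)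
      (ih fun m hm => hM m (by simp [hm])))

theorem norm_wd [Nontrivial A] {b : A} (hb : ‖b‖ ≤ 1) (G : List (A × Bool))
    (hG : ∀ p ∈ G, ‖p.1‖ ≤ 1) : ‖wd b G‖ ≤ 1 := by
  rw [← W_unf b b]
  refine norm_W hb hb _ fun m hm => ?_
  obtain ⟨p, hp, rfl⟩ := List.mem_map.mp hm
  exact hG p hp

theorem norm3 {x y z : A} (hx : ‖x‖ ≤ 1) (hy : ‖y‖ ≤ 1) (hz : ‖z‖ ≤ 1) : ‖x * y * z‖ ≤ 1 :=
  (norm_mul_le _ _).trans (mul_le_one₀ ((norm_mul_le _ _).trans
    (mul_le_one₀ hx (norm_nonneg _) hy)) (norm_nonneg _) hz)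

theorem flag_bound (τ : Tr A) {b q : A} (hb : ‖b‖ ≤ 1) (hq : IsStarProjection q)
    (M₁ : List ((A × Bool) × Bool)) (p : A × Bool) (M₂ : List ((A × Bool) × Bool))
    (hM : ∀ m ∈ M₁ ++ (p, true) :: M₂, ‖m.1.1‖ ≤ 1) :
    ‖τ.φ (W b q (M₁ ++ (p, true) :: M₂))‖ ≤ (τ.φ q).re := by
  have := τ.nontrivial
  have e : τ.φ (W b q (M₁ ++ (p, true) :: M₂)) = τ.φ (q * (W b q M₂ * W b q M₁ * p.1)) := by
    rw [W_append, W_cons]
    simp only [lt, if_true]
    rw [show W b q M₁ * (p.1 * q * W b q M₂) = (W b q M₁ * p.1) * (q * W b q M₂) by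
      simp only [mul_assoc], τ.comm]
    simp only [mul_assoc]
  rw [e]
  refine (τ.norm_phi_proj_mul hq _).trans (mul_le_of_le_one_right (τ.proj_nonneg hq) ?_)
  exact norm3 (norm_W hb hq.norm_le _ fun m hm => hM m (by simp [hm]))
    (norm_W hb hq.norm_le _ fun m hm => hM m (by simp [hm])) (hM (p, true) (by simp))

theorem dec_bound (τ : Tr A) {b q : A} (hb : ‖b‖ ≤ 1) (hq : IsStarProjection q)
    (M₁ : List ((A × Bool) × Bool)) (p : A × Bool) (G : List (A × Bool)) (p' : A × Bool)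
    (M₂ : List ((A × Bool) × Bool))
    (hM : ∀ m ∈ M₁ ++ (p, true) :: (unf G ++ (p', true) :: M₂), ‖m.1.1‖ ≤ 1) {c : ℂ} {θ : ℝ}
    (hθ : 0 ≤ θ) (hc : τ.n2 (q * (wd b G * p'.1) * q - c • q) ≤ θ * τ.n2 q) :
    ‖τ.φ (W b q (M₁ ++ (p, true) :: (unf G ++ (p', true) :: M₂)))‖ ≤ (θ + ‖c‖) * (τ.φ q).re := by
  have := τ.nontrivial
  set Y := W b q M₂ * W b q M₁ * p.1 with hY
  have nY : ‖Y‖ ≤ 1 := norm3 (norm_W hb hq.norm_le _ fun m hm => hM m (by simp [hm]))
    (norm_W hb hq.norm_le _ fun m hm => hM m (by simp [hm])) (hM (p, true) (by simp))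
  have qq : q * q = q := hq.isIdempotentElem.eq
  have e : τ.φ (W b q (M₁ ++ (p, true) :: (unf G ++ (p', true) :: M₂))) =
      τ.φ ((q * (wd b G * p'.1) * q - c • q) * (q * Y)) + c * τ.φ (q * Y) := by
    rw [W_append, W_cons, W_append, W_cons, W_unf]
    simp only [lt, if_true]
    rw [show W b q M₁ * (p.1 * q * (wd b G * (p'.1 * q * W b q M₂))) =
      (W b q M₁ * p.1) * (q * (wd b G * p'.1) * q * W b q M₂) by simp only [mul_assoc], τ.comm,
      sub_mul, map_sub, smul_mul_assoc, map_smul, ← mul_assoc q q Y, qq, smul_eq_mul,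
      sub_add_cancel, mul_assoc _ q (q * Y), ← mul_assoc q q Y, qq, hY]
    simp only [mul_assoc]
  rw [e, add_mul]
  refine (norm_add_le _ _).trans (add_le_add ?_ ?_)
  · refine (τ.cs' _ _).trans ?_
    have h1 : τ.n2 (q * Y) ≤ τ.n2 q :=
      (τ.n2_mul_le_right _ _).trans (mul_le_of_le_one_right (τ.n2_nonneg _) nY)
    rw [← τ.n2_proj_sq hq, sq, ← mul_assoc θ]
    exact mul_le_mul hc h1 (τ.n2_nonneg _) (mul_nonneg hθ (τ.n2_nonneg _))
  · rw [norm_mul]
    exact mul_le_mul_of_nonneg_left ((τ.norm_phi_proj_mul hq _).trans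
      (mul_le_of_le_one_right (τ.proj_nonneg hq) nY)) (norm_nonneg _)

theorem list_norm_sum {α : Type*} (T : List α) (f : α → ℂ) {D : ℝ} (h : ∀ a ∈ T, ‖f a‖ ≤ D) :
    ‖(T.map f).sum‖ ≤ T.length * D := by
  induction T with
  | nil => simp
  | cons a T ih =>
    simp only [List.map_cons, List.sum_cons, List.length_cons]
    have := ih fun a ha => h a (by simp [ha])
    have h2 := h a (by simp)
    refine (norm_add_le _ _).trans ?_
    push_cast
    linarith

theorem sum_list_comm {α : Type*} (T : List α) (N : ℕ) (f : ℕ → α → ℂ) :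
    ∑ j ∈ range N, (T.map (f j)).sum = (T.map fun a => ∑ j ∈ range N, f j a).sum := by
  induction T with
  | nil => simp
  | cons a T ih => simp [Finset.sum_add_distrib, ih]

theorem root_sum {N : ℕ} {ω : ℂ} (hω : IsPrimitiveRoot ω N) {e : ℤ} (h0 : e ≠ 0)
    (he : |e| < N) : ∑ j ∈ range N, (ω ^ j) ^ e = 0 := by
  have h1 : ω ^ e ≠ 1 := fun h =>
    h0 (Int.eq_zero_of_abs_lt_dvd ((hω.zpow_eq_one_iff_dvd e).mp h) he)
  have h2 := mul_geom_sum (ω ^ e) N
  have h3 : (ω ^ e) ^ N = 1 := by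
    rw [← zpow_natCast, ← zpow_mul, mul_comm, zpow_mul, zpow_natCast, hω.pow_eq_one, one_zpow]
  rw [h3, sub_self, mul_eq_zero, sub_eq_zero] at h2
  rw [← h2.resolve_left h1]
  refine Finset.sum_congr rfl fun j _ => ?_
  rw [← zpow_natCast, ← zpow_natCast, ← zpow_mul, ← zpow_mul, mul_comm]

theorem averaging {ι : Type*} (Ω : Finset ι) {N : ℕ} (hN : 0 < N) (a : ι → ℂ) (d : ℕ → ι → ℂ)
    {M D E : ℝ} (ha : ∀ L ∈ Ω, ‖a L‖ ≤ M) (hd : ∀ j, ∀ L ∈ Ω, ‖d j L‖ ≤ D)
    (hE : ∀ L ∈ Ω, ‖∑ j ∈ range N, d j L‖ ≤ N * E) :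
    ∃ j, ∑ L ∈ Ω, ‖a L + d j L‖ ^ 2 ≤ ∑ L ∈ Ω, ‖a L‖ ^ 2 + Ω.card * (2 * M * E + D ^ 2) := by
  have key : ∑ j ∈ range N, ∑ L ∈ Ω, ‖a L + d j L‖ ^ 2 ≤
      ∑ _j ∈ range N, (∑ L ∈ Ω, ‖a L‖ ^ 2 + Ω.card * (2 * M * E + D ^ 2)) := by
    rw [Finset.sum_comm, Finset.sum_const, card_range, nsmul_eq_mul, ← nsmul_eq_mul Ω.card,
      ← Finset.sum_const, ← Finset.sum_add_distrib, Finset.mul_sum]
    refine Finset.sum_le_sum fun L hL => ?_
    have e : ∀ j, ‖a L + d j L‖ ^ 2 = ‖a L‖ ^ 2 + 2 * (conj (a L) * d j L).re + ‖d j L‖ ^ 2 := by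
      intro j
      simp only [Complex.sq_norm, Complex.normSq_apply, Complex.add_re, Complex.add_im,
        Complex.mul_re, Complex.conj_re, Complex.conj_im]
      ring
    simp only [e, Finset.sum_add_distrib, ← Finset.mul_sum, ← Complex.re_sum, Finset.sum_const,
      card_range, nsmul_eq_mul]
    have h1 : (conj (a L) * ∑ j ∈ range N, d j L).re ≤ M * (N * E) := by
      refine (Complex.re_le_norm _).trans ?_
      rw [norm_mul, Complex.norm_conj]
      exact mul_le_mul (ha L hL) (hE L hL) (norm_nonneg _) ((norm_nonneg _).trans (ha L hL))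
    have h2 : ∑ j ∈ range N, ‖d j L‖ ^ 2 ≤ N * D ^ 2 := by
      refine (Finset.sum_le_card_nsmul _ _ (D ^ 2) fun j _ =>
        pow_le_pow_left₀ (norm_nonneg _) (hd j L hL) 2).trans ?_
      simp
    linarith
  obtain ⟨j, -, hj⟩ := Finset.exists_le_of_sum_le ⟨0, Finset.mem_range.mpr hN⟩ key
  exact ⟨j, hj⟩

end Crest.Agent.R95.AFaux
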