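import Crest.Agent.R95.Tr

/-!
# Row 95: the universal computation

`δ = κ/k`, `c₀ = c none`, `D γ = (c γ)⋆ - c γ`, `H i = δ Y i`, `Y i = ∑_j D (lab i j)`,
`μ = 1 - δ² k`, `m = μ + δ D none`.
* For a label `γ` let `SS c γ` be the closed ⋆-algebra generated by the `c γ'`, `γ' ≠ γ`.
  A functional killing all words of nonzero degree kills `B g B'` for `B, B' ∈ SS c γ` and
  `g ∈ {D γ, D γ ^ 2 + 2}`.
* `‖Y‖₂ ≤ 2 √k`, `‖Y²‖₂ ≤ 12 k` by orthogonality.
* `exp H = 1 + H + H²/2 + H³ ψ` with `‖ψ‖ ≤ 2`.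
* Telescoping from `m ^ k` to `∏ exp (H i)`.
-/

set_option autoImplicit false

namespace Crest.Agent.R95

universe u

variable {A : Type u} [CStarAlgebra A]

namespace Univ

section Gauge

variable {Γ : Type*} (c : Γ → A)

/-- the closed algebra generated by the letters other than `γ` -/
noncomputable def SS (γ : Γ) : StarSubalgebra ℂ A :=
  (StarAlgebra.adjoin ℂ {x | ∃ γ', γ' ≠ γ ∧ x = c γ'}).topologicalClosure

theorem SS_closed (γ : Γ) : IsClosed (SS c γ : Set A) :=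
  StarSubalgebra.isClosed_topologicalClosure _

theorem mem_SS {γ γ' : Γ} (h : γ' ≠ γ) : c γ' ∈ SS c γ :=
  StarSubalgebra.le_topologicalClosure _ (StarAlgebra.subset_adjoin ℂ _ ⟨γ', h, rfl⟩)

theorem gw_append (L L' : List (Γ × Bool)) : gw c (L ++ L') = gw c L * gw c L' := by
  simp [gw]

theorem expo_append (γ : Γ) (L L' : List (Γ × Bool)) :
    expo γ (L ++ L') = expo γ L + expo γ L' := by
  simp [expo]

theorem expo_zero {γ : Γ} {L : List (Γ × Bool)} (h : ∀ p ∈ L, p.1 ≠ γ) : expo γ L = 0 := by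
  unfold expo
  refine List.sum_eq_zero fun x hx => ?_
  obtain ⟨p, hp, rfl⟩ := List.mem_map.1 hx
  rw [if_neg (h p hp)]

theorem SS_ind {γ : Γ} (f : A →L[ℂ] ℂ) (hf : ∀ L, (∀ p ∈ L, p.1 ≠ γ) → f (gw c L) = 0) :
    ∀ B ∈ SS c γ, f B = 0 := by
  have h1 : ∀ B ∈ StarAlgebra.adjoin ℂ {x | ∃ γ', γ' ≠ γ ∧ x = c γ'}, f B = 0 := by
    intro B hB
    have hB' : B ∈ Subalgebra.toSubmodule (Algebra.adjoin ℂ
        ({x | ∃ γ', γ' ≠ γ ∧ x = c γ'} ∪ star {x | ∃ γ', γ' ≠ γ ∧ x = c γ'})) := hB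
    rw [Algebra.adjoin_eq_span] at hB'
    have hle : Submodule.span ℂ (Submonoid.closure
        ({x | ∃ γ', γ' ≠ γ ∧ x = c γ'} ∪ star {x | ∃ γ', γ' ≠ γ ∧ x = c γ'}) : Set A) ≤
        LinearMap.ker (f : A →ₗ[ℂ] ℂ) := by
      refine Submodule.span_le.2 fun x hx => ?_
      have : ∃ L : List (Γ × Bool), (∀ p ∈ L, p.1 ≠ γ) ∧ x = gw c L := by
        induction hx using Submonoid.closure_induction with
        | mem x hx =>
          rcases hx with ⟨γ', h, rfl⟩ | hx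
          · exact ⟨[(γ', true)], by simpa using h, by simp [gw]⟩
          · obtain ⟨γ', h, hx⟩ := Set.mem_star.1 hx
            exact ⟨[(γ', false)], by simpa using h, by simp [gw, ← hx]⟩
        | one => exact ⟨[], by simp, by simp [gw]⟩
        | mul x y _ _ hx hy =>
          obtain ⟨L, hL, rfl⟩ := hx
          obtain ⟨L', hL', rfl⟩ := hy
          refine ⟨L ++ L', fun p hp => ?_, (gw_append c L L').symm⟩
          rcases List.mem_append.1 hp with h | h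
          exacts [hL p h, hL' p h]
      obtain ⟨L, hL, rfl⟩ := this
      exact hf L hL
    exact hle hB'
  intro B hB
  exact closure_minimal (s := (StarAlgebra.adjoin ℂ {x | ∃ γ', γ' ≠ γ ∧ x = c γ'} : Set A))
    (t := {x | f x = 0}) h1 (isClosed_eq f.continuous continuous_const) hB

/-- the functional kills words of nonzero degree -/
def Gauge (ψ : A →L[ℂ] ℂ) : Prop := ∀ L γ, expo γ L ≠ 0 → ψ (gw c L) = 0

variable {c}

theorem nul_word {ψ : A →L[ℂ] ℂ} (hψ : Gauge c ψ) {γ : Γ} {G : List (Γ × Bool)}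
    (hG : expo γ G ≠ 0) {B B' : A} (hB : B ∈ SS c γ) (hB' : B' ∈ SS c γ) :
    ψ (B * gw c G * B') = 0 := by
  have h1 : ∀ L, (∀ p ∈ L, p.1 ≠ γ) → ψ (gw c L * gw c G * B') = 0 := by
    intro L hL
    refine SS_ind c (ψ.comp (ContinuousLinearMap.mul ℂ A (gw c L * gw c G))) ?_ B' hB'
    intro L' hL'
    have := hψ (L ++ G ++ L') γ (by
      rw [expo_append, expo_append, expo_zero hL, expo_zero hL']; simpa using hG)
    simpa [gw_append, mul_assoc] using this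
  have := SS_ind c (ψ.comp ((ContinuousLinearMap.mul ℂ A).flip (gw c G * B')))
    (fun L hL => by simpa [mul_assoc] using h1 L hL) B hB
  simpa [mul_assoc] using this

variable (c) in
/-- the skew-adjoint letters -/
def DD (γ : Γ) : A := star (c γ) - c γ

theorem DD_mem {γ γ' : Γ} (h : γ' ≠ γ) : DD c γ' ∈ SS c γ :=
  sub_mem (star_mem (mem_SS c h)) (mem_SS c h)

theorem star_DD (γ : Γ) : star (DD c γ) = -DD c γ := by simp [DD]

theorem nul_D {ψ : A →L[ℂ] ℂ} (hψ : Gauge c ψ) {γ : Γ} {B B' : A} (hB : B ∈ SS c γ)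
    (hB' : B' ∈ SS c γ) : ψ (B * DD c γ * B') = 0 := by
  have h1 := nul_word hψ (G := [(γ, true)]) (by simp [expo]) hB hB'
  have h2 := nul_word hψ (G := [(γ, false)]) (by simp [expo]) hB hB'
  simp only [gw, List.map_cons, List.map_nil, List.prod_cons, List.prod_nil, mul_one, if_true,
    Bool.false_eq_true, if_false] at h1 h2
  rw [DD, mul_sub, sub_mul, map_sub, h1, h2, sub_zero]

theorem DD_sq {γ : Γ} (hc : c γ ∈ unitary A) :
    DD c γ * DD c γ + 2 = star (c γ) * star (c γ) + c γ * c γ := by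
  simp only [DD, mul_sub, sub_mul, Unitary.star_mul_self_of_mem hc, Unitary.mul_star_self_of_mem hc]
  rw [← one_add_one_eq_two]; abel

theorem nul_D2 {ψ : A →L[ℂ] ℂ} (hψ : Gauge c ψ) {γ : Γ} (hc : c γ ∈ unitary A) {B B' : A}
    (hB : B ∈ SS c γ) (hB' : B' ∈ SS c γ) : ψ (B * (DD c γ * DD c γ + 2) * B') = 0 := by
  have h1 := nul_word hψ (G := [(γ, true), (γ, true)]) (by simp [expo]) hB hB'
  have h2 := nul_word hψ (G := [(γ, false), (γ, false)]) (by simp [expo]) hB hB'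
  simp only [gw, List.map_cons, List.map_nil, List.prod_cons, List.prod_nil, mul_one, if_true,
    Bool.false_eq_true, if_false] at h1 h2
  rw [DD_sq hc, mul_add, add_mul, map_add, h1, h2, add_zero]

theorem norm_DD (τ : Tr A) {γ : Γ} (hc : c γ ∈ unitary A) : ‖DD c γ‖ ≤ 2 := by
  have := norm_sub_le (star (c γ)) (c γ)
  rw [norm_star, τ.norm_unitary hc] at this
  unfold DD; linarith

theorem norm_DD_sq (τ : Tr A) {γ : Γ} (hc : c γ ∈ unitary A) : ‖DD c γ * DD c γ + 2‖ ≤ 2 := by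
  rw [DD_sq hc]
  have h1 := τ.norm_unitary (mul_mem (Unitary.star_mem hc) (Unitary.star_mem hc))
  have h2 := τ.norm_unitary (mul_mem hc hc)
  have := norm_add_le (star (c γ) * star (c γ)) (c γ * c γ)
  linarith

/-- the `2`-norms of a sum of distinct letters and of its square -/
theorem norms (τ : Tr A) (hτ : Gauge c τ.φ) (hc : ∀ γ, c γ ∈ unitary A) {ι : Type*}
    (ℓ : ι → Γ) (hℓ : Function.Injective ℓ) (s : Finset ι) :
    τ.n2 (∑ j ∈ s, DD c (ℓ j)) ^ 2 ≤ 4 * s.card ∧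
    τ.n2 ((∑ j ∈ s, DD c (ℓ j)) * (∑ j ∈ s, DD c (ℓ j)) - ∑ j ∈ s, DD c (ℓ j) * DD c (ℓ j)) ^ 2
      ≤ 64 * (s.card : ℝ) ^ 2 := by
  classical
  induction s using Finset.induction_on with
  | empty => simp [τ.n2_zero]
  | insert a s ha ih =>
    obtain ⟨ih1, ih2⟩ := ih
    have hd : ∀ j ∈ s, DD c (ℓ j) ∈ SS c (ℓ a) := fun j hj =>
      DD_mem fun h => ha (hℓ h ▸ hj)
    rw [Finset.sum_insert ha, Finset.sum_insert ha, Finset.card_insert_of_notMem ha]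
    obtain ⟨Y, hY⟩ : ∃ Y, Y = ∑ j ∈ s, DD c (ℓ j) := ⟨_, rfl⟩
    obtain ⟨Q, hQ⟩ : ∃ Q, Q = ∑ j ∈ s, DD c (ℓ j) * DD c (ℓ j) := ⟨_, rfl⟩
    have hYm : Y ∈ SS c (ℓ a) := hY ▸ sum_mem hd
    have hQm : Q ∈ SS c (ℓ a) := hQ ▸ sum_mem fun j hj => mul_mem (hd j hj) (hd j hj)
    rw [← hY] at ih1 ih2 ⊢
    rw [← hQ] at ih2 ⊢
    have hZm : star (Y * Y - Q) ∈ SS c (ℓ a) := star_mem (sub_mem (mul_mem hYm hYm) hQm)
    have hn := norm_DD τ (hc (ℓ a))
    have hn2 := (τ.n2_le_norm _).trans hn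
    have hn0 := τ.n2_nonneg (DD c (ℓ a))
    have hY0 := τ.n2_nonneg Y
    constructor
    · rw [add_comm (DD c (ℓ a)), τ.n2_add_sq]
      have := nul_D hτ (star_mem hYm) (one_mem (SS c (ℓ a)))
      rw [mul_one] at this
      rw [this]
      push_cast
      simp only [Complex.zero_re]
      nlinarith
    · have e : (DD c (ℓ a) + Y) * (DD c (ℓ a) + Y) - (DD c (ℓ a) * DD c (ℓ a) + Q) =
          (Y * Y - Q) + (DD c (ℓ a) * Y + Y * DD c (ℓ a)) := by noncomm_ring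
      rw [e, τ.n2_add_sq]
      have h1 := nul_D hτ hZm hYm
      have h2 := nul_D hτ (mul_mem hZm hYm) (one_mem (SS c (ℓ a)))
      rw [mul_one] at h2
      rw [mul_add, ← mul_assoc, ← mul_assoc, map_add, h1, h2]
      have h3 : τ.n2 (DD c (ℓ a) * Y + Y * DD c (ℓ a)) ≤ 4 * τ.n2 Y := by
        have := τ.n2_add_le (DD c (ℓ a) * Y) (Y * DD c (ℓ a))
        have := τ.n2_mul_le_left (DD c (ℓ a)) Y
        have := τ.n2_mul_le_right Y (DD c (ℓ a))
        nlinarith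
      have h4 := pow_le_pow_left₀ (τ.n2_nonneg _) h3 2
      have h5 : (0 : ℝ) ≤ s.card := Nat.cast_nonneg _
      push_cast
      simp only [add_zero, Complex.zero_re]
      nlinarith

theorem norms' (τ : Tr A) (hτ : Gauge c τ.φ) (hc : ∀ γ, c γ ∈ unitary A) {k : ℕ}
    (ℓ : Fin k → Γ) (hℓ : Function.Injective ℓ) :
    τ.n2 (∑ j, DD c (ℓ j)) ≤ 2 * √k ∧
    τ.n2 ((∑ j, DD c (ℓ j)) * (∑ j, DD c (ℓ j))) ≤ 12 * k := by
  obtain ⟨h1, h2⟩ := norms τ hτ hc ℓ hℓ Finset.univ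
  rw [Finset.card_univ, Fintype.card_fin] at h1 h2
  have hk : (0 : ℝ) ≤ k := Nat.cast_nonneg _
  constructor
  · refine le_of_sq_le_sq ?_ (by positivity)
    rw [mul_pow, Real.sq_sqrt hk]; linarith
  · have h3 : τ.n2 ((∑ j, DD c (ℓ j)) * (∑ j, DD c (ℓ j)) - ∑ j, DD c (ℓ j) * DD c (ℓ j))
        ≤ 8 * k := le_of_sq_le_sq (by rw [mul_pow]; linarith) (by positivity)
    have h4 : τ.n2 (∑ j, DD c (ℓ j) * DD c (ℓ j)) ≤ 4 * k := by
      refine (τ.n2_sum_le _ _).trans ?_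
      refine (Finset.sum_le_card_nsmul _ _ 4 fun j _ => ?_).trans ?_
      · have := norm_DD τ (hc (ℓ j))
        have h0 := norm_nonneg (DD c (ℓ j))
        have := (τ.n2_le_norm _).trans (norm_mul_le (DD c (ℓ j)) (DD c (ℓ j)))
        nlinarith
      · simp [mul_comm]
    have := τ.n2_add_le ((∑ j, DD c (ℓ j)) * (∑ j, DD c (ℓ j)) - ∑ j, DD c (ℓ j) * DD c (ℓ j))
      (∑ j, DD c (ℓ j) * DD c (ℓ j))
    rw [sub_add_cancel] at this
    linarith

/-- the first and second order terms -/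
theorem moments {ψ : A →L[ℂ] ℂ} (hψ : Gauge c ψ) (hc : ∀ γ, c γ ∈ unitary A) {k : ℕ}
    (ℓ : Fin k → Γ) (hℓ : Function.Injective ℓ) (i : Fin k) {B B' : A}
    (hB : ∀ j, j ≠ i → B ∈ SS c (ℓ j)) (hB' : ∀ j, j ≠ i → B' ∈ SS c (ℓ j)) :
    ψ (B * (∑ j, DD c (ℓ j)) * B') = ψ (B * DD c (ℓ i) * B') ∧
    ψ (B * ((∑ j, DD c (ℓ j)) * (∑ j, DD c (ℓ j)) + (2 * k : ℂ) • 1) * B') =
      ψ (B * (DD c (ℓ i) * DD c (ℓ i) + 2) * B') := by
  constructor
  · rw [Finset.mul_sum, Finset.sum_mul, map_sum, Finset.sum_eq_single i]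
    · exact fun j _ hj => nul_D hψ (hB j hj) (hB' j hj)
    · simp
  · have e : (∑ j, DD c (ℓ j)) * (∑ j, DD c (ℓ j)) + (2 * k : ℂ) • (1 : A) =
        ∑ j, (DD c (ℓ j) * (∑ j', DD c (ℓ j')) + 2) := by
      rw [Finset.sum_add_distrib, ← Finset.sum_mul]
      congr 1
      rw [Finset.sum_const, Finset.card_univ, Fintype.card_fin, mul_comm, mul_smul,
        Nat.cast_smul_eq_nsmul, two_smul, one_add_one_eq_two]
    have h1 : ∀ j, ψ (B * (DD c (ℓ j) * (∑ j', DD c (ℓ j')) + 2) * B') =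
        ψ (B * (DD c (ℓ j) * DD c (ℓ j) + 2) * B') := by
      intro j
      simp only [mul_add, add_mul, map_add]
      congr 1
      rw [Finset.mul_sum, Finset.mul_sum, Finset.sum_mul, map_sum, Finset.sum_eq_single j]
      · intro j' _ hj'
        by_cases hj : j = i
        · subst hj
          have := nul_D hψ (mul_mem (hB j' hj') (DD_mem (c := c) (hℓ.ne hj'.symm))) (hB' j' hj')
          simpa [mul_assoc] using this
        · have := nul_D hψ (hB j hj) (mul_mem (DD_mem (c := c) (hℓ.ne hj')) (hB' j hj))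
          simpa [mul_assoc] using this
      · simp
    rw [e, Finset.mul_sum, Finset.sum_mul, map_sum, Finset.sum_eq_single i, h1]
    · intro j _ hj
      rw [h1]; exact nul_D2 hψ (hc _) (hB j hj) (hB' j hj)
    · simp

end Gauge

theorem exp_rem [Nontrivial A] {H : A} (hH : ‖H‖ ≤ 1) :
    ∃ ψ : A, ‖ψ‖ ≤ 2 ∧
      NormedSpace.exp H = 1 + H + (1 / 2 : ℂ) • (H * H) + H * (H * H) * ψ := by
  have hb : ∀ n : ℕ, ‖(((n + 3).factorial : ℂ)⁻¹) • H ^ n‖ ≤ (1 / 2 : ℝ) ^ n := by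
    intro n
    have h1 : ‖H ^ n‖ ≤ 1 := (norm_pow_le H n).trans (pow_le_one₀ (norm_nonneg _) hH)
    have h2 : 2 ^ n ≤ (n + 3).factorial := by
      have := Nat.factorial_mul_pow_le_factorial (m := 3) (n := n)
      have h3 : 2 ^ n ≤ (3 + 1) ^ n := Nat.pow_le_pow_left (by norm_num) n
      rw [add_comm n 3]
      have h4 : (3 : ℕ).factorial = 6 := rfl
      rw [h4] at this
      omega
    have h2' : (2 : ℝ) ^ n ≤ (n + 3).factorial := by exact_mod_cast h2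
    rw [norm_smul, norm_inv, Complex.norm_natCast, one_div, inv_pow]
    calc _ ≤ ((n + 3).factorial : ℝ)⁻¹ * 1 := by gcongr
      _ ≤ _ := by rw [mul_one]; exact inv_anti₀ (by positivity) h2'
  have hs : Summable fun n : ℕ => (((n + 3).factorial : ℂ)⁻¹) • H ^ n :=
    Summable.of_norm_bounded hasSum_geometric_two.summable hb
  refine ⟨∑' n : ℕ, (((n + 3).factorial : ℂ)⁻¹) • H ^ n,
    tsum_of_norm_bounded hasSum_geometric_two hb, ?_⟩
  have h1 := (hasSum_nat_add_iff' 3).2 (NormedSpace.exp_series_hasSum_exp' (𝕂 := ℂ) H)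
  have h2 := hs.hasSum.mul_left (H * (H * H))
  have e : (fun n : ℕ => H * (H * H) * ((((n + 3).factorial : ℂ)⁻¹) • H ^ n)) =
      fun n : ℕ => (((n + 3).factorial : ℂ)⁻¹) • H ^ (n + 3) := by
    ext n
    rw [mul_smul_comm, add_comm n 3, pow_add H 3, pow_three]
  rw [e] at h2
  rw [← h1.unique h2]
  simp [Finset.sum_range_succ, sq]

theorem pow_rem [Nontrivial A] {μ t : ℝ} (hμ0 : 0 ≤ μ) (hμ1 : μ ≤ 1) {y : A} (hy : ‖y‖ ≤ t)
    (n : ℕ) :
    ‖((μ : ℂ) • (1 : A) + y) ^ (n + 1) - ((μ ^ (n + 1) : ℝ) : ℂ) • (1 : A) -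
      (((n + 1) * μ ^ n : ℝ) : ℂ) • y‖ ≤ (n + 1) ^ 2 * t ^ 2 * (1 + t) ^ (n + 1) / 2 := by
  have ht : 0 ≤ t := (norm_nonneg _).trans hy
  have hm : ‖(μ : ℂ) • (1 : A) + y‖ ≤ 1 + t := by
    refine (norm_add_le _ _).trans (add_le_add ?_ hy)
    rw [norm_smul, norm_one, Complex.norm_real, Real.norm_of_nonneg hμ0]; linarith
  induction n with
  | zero => simp; positivity
  | succ n ih =>
    obtain ⟨r, hr⟩ : ∃ r, r = ((μ : ℂ) • (1 : A) + y) ^ (n + 1) -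
      ((μ ^ (n + 1) : ℝ) : ℂ) • (1 : A) - (((n + 1) * μ ^ n : ℝ) : ℂ) • y := ⟨_, rfl⟩
    have e0 : ((μ : ℂ) • (1 : A) + y) ^ (n + 1) =
        r + ((μ ^ (n + 1) : ℝ) : ℂ) • (1 : A) + (((n + 1) * μ ^ n : ℝ) : ℂ) • y := by
      rw [hr]; abel
    have e : ((μ : ℂ) • (1 : A) + y) ^ (n + 1 + 1) - ((μ ^ (n + 1 + 1) : ℝ) : ℂ) • (1 : A) -
        ((((n + 1 : ℕ) + 1) * μ ^ (n + 1) : ℝ) : ℂ) • y =
        ((μ : ℂ) • (1 : A) + y) * r + (((n + 1) * μ ^ n : ℝ) : ℂ) • (y * y) := by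
      rw [pow_succ' _ (n + 1), e0]
      simp only [mul_add, add_mul, smul_mul_assoc, mul_smul_comm, one_mul, mul_one]
      push_cast
      module
    rw [e]
    rw [← hr] at ih
    have h1 : ‖((μ : ℂ) • (1 : A) + y) * r‖ ≤
        (1 + t) * ((n + 1) ^ 2 * t ^ 2 * (1 + t) ^ (n + 1) / 2) :=
      (norm_mul_le _ _).trans (mul_le_mul hm ih (norm_nonneg _) (by positivity))
    have h2 : ‖(((n + 1) * μ ^ n : ℝ) : ℂ) • (y * y)‖ ≤ (n + 1) * t ^ 2 := by
      rw [norm_smul, Complex.norm_real, Real.norm_of_nonneg (by positivity)]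
      have h3 : ‖y * y‖ ≤ t ^ 2 := (norm_mul_le _ _).trans
        (by rw [sq]; exact mul_le_mul hy hy (norm_nonneg _) ht)
      have h4 : μ ^ n ≤ 1 := pow_le_one₀ hμ0 hμ1
      calc _ ≤ ((n + 1) * 1) * t ^ 2 := by gcongr
        _ = _ := by ring
    have h5 : 1 ≤ (1 + t) ^ (n + 1 + 1) := one_le_pow₀ (by linarith)
    have h6 : (n + 1) * t ^ 2 ≤ (n + 1) * t ^ 2 * (1 + t) ^ (n + 1 + 1) :=
      le_mul_of_one_le_right (by positivity) h5
    have h7 : 0 ≤ t ^ 2 * (1 + t) ^ (n + 1 + 1) := by positivity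
    refine ((norm_add_le _ _).trans (add_le_add h1 h2)).trans ?_
    push_cast
    have e2 : (1 + t) * ((n + 1) ^ 2 * t ^ 2 * (1 + t) ^ (n + 1) / 2) =
      (n + 1) ^ 2 * (t ^ 2 * (1 + t) ^ (n + 1 + 1)) / 2 := by ring
    nlinarith

theorem lab_inj {k : ℕ} (i : Fin k) : Function.Injective (lab i) := by
  intro j j' h
  unfold lab at h
  split_ifs at h with h1 h2 h2
  · exact h1.symm.trans h2
  · simpa using h

theorem lab_self {k : ℕ} (i : Fin k) : lab i i = none := by simp [lab]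

theorem lab_ne {k : ℕ} {i j i' j' : Fin k} (hj : j ≠ i) (hi : i' ≠ i) : lab i' j' ≠ lab i j := by
  unfold lab
  rw [dif_neg hj.symm]
  split_ifs with h
  · simp
  · simp [hi]

theorem none_ne {k : ℕ} {i j : Fin k} (hj : j ≠ i) : none ≠ lab i j := by
  unfold lab
  rw [dif_neg hj.symm]
  simp

/-- one step of the telescoping sum -/
theorem step (τ : Tr A) {k : ℕ} {δ : ℝ} (hδ : 0 ≤ δ) (hδk : δ * k ≤ 1 / 2)
    {c : Lab k → A} (hc : ∀ γ, c γ ∈ unitary A) (w : A) (hτ : Gauge c τ.φ)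
    (hψ : Gauge c (τ.φ.comp ((ContinuousLinearMap.mul ℂ A).flip w))) (i : Fin k) {U V : A}
    (hU : U ∈ unitary A) (hV : ‖V‖ ≤ 3) (hUm : ∀ j, j ≠ i → U ∈ SS c (lab i j))
    (hVm : ∀ j, j ≠ i → V ∈ SS c (lab i j)) :
    ‖τ.φ (U * (NormedSpace.exp ((δ : ℂ) • ∑ j, DD c (lab i j)) -
      (((1 - δ ^ 2 * k : ℝ) : ℂ) • 1 + (δ : ℂ) • DD c none)) * V * w)‖ ≤
      (3 * δ ^ 2 + 144 * δ ^ 3 * k * √k) * ‖w‖ := by
  have := τ.nontrivial
  obtain ⟨n1, n2⟩ := norms' τ hτ hc (lab i) (lab_inj i)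
  obtain ⟨m1, m2⟩ := moments hψ hc (lab i) (lab_inj i) i hUm hVm
  rw [lab_self] at m1 m2
  have hY : ‖∑ j, DD c (lab i j)‖ ≤ 2 * k := by
    refine (norm_sum_le _ _).trans
      ((Finset.sum_le_card_nsmul _ _ 2 fun j _ => norm_DD τ (hc _)).trans ?_)
    simp [mul_comm]
  obtain ⟨Y, hYe⟩ : ∃ Y, Y = ∑ j, DD c (lab i j) := ⟨_, rfl⟩
  rw [← hYe] at n1 n2 m1 m2 hY ⊢
  have hδn : ‖(δ : ℂ)‖ = δ := by rw [Complex.norm_real, Real.norm_of_nonneg hδ]
  have hH : ‖(δ : ℂ) • Y‖ ≤ 1 := by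
    rw [norm_smul, hδn]
    nlinarith [mul_le_mul_of_nonneg_left hY hδ]
  obtain ⟨ρ, hρ, he⟩ := exp_rem hH
  simp only [ContinuousLinearMap.comp_apply, ContinuousLinearMap.flip_apply,
    ContinuousLinearMap.mul_apply'] at m1 m2
  have e : U * (NormedSpace.exp ((δ : ℂ) • Y) -
      (((1 - δ ^ 2 * k : ℝ) : ℂ) • 1 + (δ : ℂ) • DD c none)) * V * w =
      (δ : ℂ) • (U * Y * V * w - U * DD c none * V * w) +
      (δ ^ 2 / 2 : ℂ) • (U * (Y * Y + (2 * k : ℂ) • 1) * V * w) +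
      (δ ^ 3 : ℂ) • ((U * Y) * ((Y * Y) * (ρ * V * w))) := by
    rw [he]
    simp only [mul_add, add_mul, mul_sub, sub_mul, smul_mul_assoc, mul_smul_comm, mul_one,
      mul_assoc]
    push_cast
    module
  rw [e, map_add, map_add, map_smul, map_smul, map_smul, map_sub, m1, m2, sub_self, smul_zero,
    zero_add]
  have hw := norm_nonneg w
  have h1 : ‖τ.φ (U * (DD c none * DD c none + 2) * V * w)‖ ≤ 6 * ‖w‖ := by
    refine (τ.norm_phi_le _).trans ?_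
    have h := norm_DD_sq τ (hc none)
    calc _ ≤ ‖U‖ * ‖DD c none * DD c none + 2‖ * ‖V‖ * ‖w‖ :=
          (norm_mul_le _ _).trans (mul_le_mul_of_nonneg_right norm_mul₃_le hw)
      _ ≤ 1 * 2 * 3 * ‖w‖ := by rw [τ.norm_unitary hU]; gcongr
      _ = _ := by ring
  have h2 : ‖τ.φ ((U * Y) * ((Y * Y) * (ρ * V * w)))‖ ≤ 144 * k * √k * ‖w‖ := by
    refine (τ.cs' _ _).trans ?_
    rw [τ.n2_unitary_mul hU]
    have h3 : ‖ρ * V * w‖ ≤ 2 * 3 * ‖w‖ := norm_mul₃_le.trans (by gcongr)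
    have h4 := τ.n2_mul_le_right (Y * Y) (ρ * V * w)
    have h5 : τ.n2 (Y * Y * (ρ * V * w)) ≤ 12 * k * (2 * 3 * ‖w‖) :=
      h4.trans (mul_le_mul n2 h3 (norm_nonneg _) (by positivity))
    calc _ ≤ 2 * √k * (12 * k * (2 * 3 * ‖w‖)) :=
          mul_le_mul n1 h5 (τ.n2_nonneg _) (by positivity)
      _ = _ := by ring
  refine (norm_add_le _ _).trans ?_
  rw [norm_smul, norm_smul, norm_div, norm_pow, norm_pow, hδn, Complex.norm_two]
  calc _ ≤ δ ^ 2 / 2 * (6 * ‖w‖) + δ ^ 3 * (144 * k * √k * ‖w‖) := by gcongr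
    _ = _ := by ring

end Univ

open Univ in
theorem univ_corr (τ : Tr A) {k : ℕ} (hk : 0 < k) {κ : ℝ} (hκ : 0 < κ) (hκ' : κ ≤ 1 / 2)
    (c : Lab k → A) (hc : ∀ γ, c γ ∈ unitary A) (w : A)
    (hg : ∀ (L : List (Lab k × Bool)) (γ : Lab k), expo γ L ≠ 0 →
      τ.φ (gw c L * w) = 0 ∧ τ.φ (gw c L) = 0) :
    κ / 2 * ‖τ.φ w‖ - 10 * κ ^ 2 * τ.n2 w - 1000 * ‖w‖ / √k ≤
      ‖τ.φ ((List.ofFn fun i => NormedSpace.exp (HH κ c i)).prod * c none * w)‖ ∧
    ∀ i, τ.n2 (NormedSpace.exp (HH κ c i) - 1) ≤ 10 / √k := by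
  have := τ.nontrivial
  let _ : NormedAlgebra ℚ A := .restrictScalars ℚ ℂ A
  have : IsScalarTower ℚ ℂ A := IsScalarTower.restrictScalars ℚ ℂ A
  have hτ : Gauge c τ.φ := fun L γ h => (hg L γ h).2
  have hψ : Gauge c (τ.φ.comp ((ContinuousLinearMap.mul ℂ A).flip w)) := fun L γ h => (hg L γ h).1
  have hk0 : (0 : ℝ) < k := by exact_mod_cast hk
  have hk1 : (1 : ℝ) ≤ k := by exact_mod_cast hk
  obtain ⟨δ, hδe⟩ : ∃ δ : ℝ, δ = κ / k := ⟨_, rfl⟩
  have hδ : 0 < δ := hδe ▸ div_pos hκ hk0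
  have hδk : δ * k = κ := by rw [hδe]; field_simp
  have hH : ∀ i, HH κ c i = (δ : ℂ) • ∑ j, DD c (lab i j) := fun i => by rw [hδe]; rfl
  have hs0 : 0 < √(k : ℝ) := Real.sqrt_pos.2 hk0
  have hs : √(k : ℝ) * √k = k := Real.mul_self_sqrt hk0.le
  have hs1 : 1 ≤ √(k : ℝ) := Real.one_le_sqrt.2 hk1
  have hδn : ‖(δ : ℂ)‖ = δ := by rw [Complex.norm_real, Real.norm_of_nonneg hδ.le]
  have hw := norm_nonneg w
  refine ⟨?_, fun i => ?_⟩
  swap
  · obtain ⟨n1, -⟩ := norms' τ hτ hc (lab i) (lab_inj i)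
    have hY : ‖∑ j, DD c (lab i j)‖ ≤ 2 * k := by
      refine (norm_sum_le _ _).trans
        ((Finset.sum_le_card_nsmul _ _ 2 fun j _ => norm_DD τ (hc _)).trans ?_)
      simp [mul_comm]
    have hH1 : ‖HH κ c i‖ ≤ 1 := by
      rw [hH, norm_smul, hδn]
      nlinarith [mul_le_mul_of_nonneg_left hY hδ.le]
    have hH2 : τ.n2 (HH κ c i) ≤ 1 / √k := by
      rw [hH, τ.n2_smul, hδn, le_div_iff₀ hs0]
      nlinarith [mul_le_mul_of_nonneg_left n1 (mul_nonneg hδ.le hs0.le)]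
    obtain ⟨H, hHe⟩ : ∃ H, H = HH κ c i := ⟨_, rfl⟩
    rw [← hHe] at hH1 hH2 ⊢
    obtain ⟨ρ, hρ, he⟩ := exp_rem hH1
    have e : NormedSpace.exp H - 1 = H * (1 + (1 / 2 : ℂ) • H + H * H * ρ) := by
      rw [he]
      simp only [mul_add, mul_smul_comm, mul_one, mul_assoc]
      abel
    have h1 : ‖1 + (1 / 2 : ℂ) • H + H * H * ρ‖ ≤ 10 := by
      have h2 : ‖H * H * ρ‖ ≤ 1 * 1 * 2 := norm_mul₃_le.trans (by gcongr)
      have h3 : ‖(1 / 2 : ℂ) • H‖ ≤ 1 := by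
        rw [norm_smul]; simp; linarith
      have h4 := norm_add₃_le (a := (1 : A)) (b := (1 / 2 : ℂ) • H) (c := H * H * ρ)
      rw [norm_one] at h4
      linarith
    rw [e]
    calc _ ≤ τ.n2 H * ‖1 + (1 / 2 : ℂ) • H + H * H * ρ‖ := τ.n2_mul_le_right _ _
      _ ≤ 1 / √k * 10 := mul_le_mul hH2 h1 (norm_nonneg _) (by positivity)
      _ = _ := by ring
  obtain ⟨μ, hμ⟩ : ∃ μ : ℝ, μ = 1 - δ ^ 2 * k := ⟨_, rfl⟩
  have hδ1 : δ ≤ 1 / 2 := by nlinarith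
  have hμ0 : 0 ≤ μ := by rw [hμ]; nlinarith
  have hμ1 : μ ≤ 1 := by rw [hμ]; nlinarith [mul_nonneg (sq_nonneg δ) hk0.le]
  obtain ⟨m, hm⟩ : ∃ m : A, m = (μ : ℂ) • 1 + (δ : ℂ) • DD c none := ⟨_, rfl⟩
  have hy : ‖(δ : ℂ) • DD c none‖ ≤ 2 * δ := by
    rw [norm_smul, hδn, mul_comm]
    exact mul_le_mul_of_nonneg_right (norm_DD τ (hc none)) hδ.le
  have hmn : ‖m‖ ≤ 1 + 2 * δ := by
    rw [hm]
    refine (norm_add_le _ _).trans (add_le_add ?_ hy)
    rw [norm_smul, norm_one, Complex.norm_real, Real.norm_of_nonneg hμ0]; linarith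
  have hpow : (1 + 2 * δ) ^ k ≤ 3 := by
    calc (1 + 2 * δ) ^ k ≤ Real.exp (2 * δ) ^ k := by
          gcongr; rw [add_comm]; exact Real.add_one_le_exp _
      _ = Real.exp (2 * κ) := by rw [← Real.exp_nat_mul, ← hδk]; congr 1; ring
      _ ≤ Real.exp 1 := Real.exp_le_exp.2 (by linarith)
      _ ≤ 3 := by linarith [Real.exp_one_lt_d9]
  have hmp : ∀ n ≤ k, ‖m ^ n * c none‖ ≤ 3 := by
    intro n hn
    calc _ ≤ ‖m ^ n‖ * ‖c none‖ := norm_mul_le _ _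
      _ ≤ ‖m‖ ^ n := by rw [τ.norm_unitary (hc none), mul_one]; exact norm_pow_le _ _
      _ ≤ (1 + 2 * δ) ^ n := by gcongr
      _ ≤ (1 + 2 * δ) ^ k := pow_le_pow_right₀ (by linarith) hn
      _ ≤ 3 := hpow
  obtain ⟨L, hL⟩ : ∃ L, L = List.ofFn fun i => NormedSpace.exp (HH κ c i) := ⟨_, rfl⟩
  have hlen : L.length = k := by simp [hL]
  have hget : ∀ (n : ℕ) (h : n < k), L[n]'(hlen ▸ h) = NormedSpace.exp (HH κ c ⟨n, h⟩) := by
    intro n h; simp [hL]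
  have hP : ∀ n ≤ k, (L.take n).prod ∈ unitary A ∧
      ∀ i : Fin k, n ≤ i → ∀ j, j ≠ i → (L.take n).prod ∈ SS c (lab i j) := by
    intro n
    induction n with
    | zero => exact fun _ => ⟨by simp, fun i _ j _ => by simp⟩
    | succ n ih =>
      intro hn
      obtain ⟨ih1, ih2⟩ := ih (by omega)
      rw [List.prod_take_succ _ _ (by omega), hget n hn]
      refine ⟨mul_mem ih1 (NormedSpace.exp_mem_unitary_of_mem_skewAdjoint ?_), fun i hi j hj =>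
        mul_mem (ih2 i (by omega) j hj) (NormedSpace.exp_mem (R := ℂ) (SS_closed c _) ?_)⟩
      · rw [skewAdjoint.mem_iff, hH, star_smul, star_sum]
        simp [star_DD]
      · rw [hH]
        refine SMulMemClass.smul_mem _ (sum_mem fun j' _ => DD_mem (lab_ne hj ?_))
        intro h
        have := congrArg Fin.val h
        simp only at this
        omega
  have hT : ∀ n ≤ k, ‖τ.φ ((L.take n).prod * m ^ (k - n) * c none * w) - τ.φ (m ^ k * c none * w)‖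
      ≤ n * ((3 * δ ^ 2 + 144 * δ ^ 3 * k * √k) * ‖w‖) := by
    intro n
    induction n with
    | zero => intro _; simp
    | succ n ih =>
      intro hn
      have hst := step τ hδ.le (by linarith) hc w hτ hψ ⟨n, hn⟩ (hP n (by omega)).1
        (hmp (k - (n + 1)) (by omega)) (fun j hj => (hP n (by omega)).2 ⟨n, hn⟩ le_rfl j hj)
        (fun j hj => mul_mem (pow_mem (hm ▸ add_mem (SMulMemClass.smul_mem _ (one_mem _))
          (SMulMemClass.smul_mem _ (DD_mem (none_ne hj)))) _) (mem_SS c (none_ne hj)))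
      rw [← hμ, ← hm, ← hH] at hst
      have e : τ.φ ((L.take (n + 1)).prod * m ^ (k - (n + 1)) * c none * w) -
          τ.φ (m ^ k * c none * w) =
          τ.φ ((L.take n).prod * (NormedSpace.exp (HH κ c ⟨n, hn⟩) - m) *
            (m ^ (k - (n + 1)) * c none) * w) +
          (τ.φ ((L.take n).prod * m ^ (k - n) * c none * w) - τ.φ (m ^ k * c none * w)) := by
        rw [List.prod_take_succ _ _ (by omega), hget n hn,
          show k - n = (k - (n + 1)) + 1 by omega, pow_succ']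
        simp only [mul_sub, sub_mul, map_sub, mul_assoc]
        ring
      rw [e]
      refine (norm_add_le _ _).trans ((add_le_add hst (ih (by omega))).trans (le_of_eq ?_))
      push_cast; ring
  have hTk := hT k le_rfl
  rw [Nat.sub_self, pow_zero, mul_one, List.take_of_length_le hlen.le] at hTk
  rw [← hL]
  have hE : k * ((3 * δ ^ 2 + 144 * δ ^ 3 * k * √k) * ‖w‖) ≤ 1000 * ‖w‖ / √k := by
    rw [le_div_iff₀ hs0]
    have h1 : k * (3 * δ ^ 2 + 144 * δ ^ 3 * k * √k) * √k ≤ 1000 := by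
      have e : k * (3 * δ ^ 2 + 144 * δ ^ 3 * k * √k) * √k =
          3 * (δ * k) * (δ * √k) + 144 * (δ * k) ^ 2 * (δ * (√k * √k)) := by ring
      have h2 : δ * √k ≤ 1 / 2 := by nlinarith
      have h3 : 0 ≤ δ * √k := by positivity
      rw [e, hs, hδk]
      have : κ ^ 2 * κ ≤ (1 / 2) ^ 2 * (1 / 2) := by gcongr
      nlinarith
    nlinarith [mul_le_mul_of_nonneg_right h1 hw]
  obtain ⟨n, rfl⟩ : ∃ n, k = n + 1 := ⟨k - 1, by omega⟩
  have hr := pow_rem hμ0 hμ1 hy n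
  rw [← hm] at hr
  obtain ⟨r, hre⟩ : ∃ r, r = m ^ (n + 1) - ((μ ^ (n + 1) : ℝ) : ℂ) • (1 : A) -
      (((n + 1) * μ ^ n : ℝ) : ℂ) • (δ : ℂ) • DD c none := ⟨_, rfl⟩
  rw [← hre] at hr
  push_cast at hδk
  have hr' : ‖r‖ ≤ 10 * κ ^ 2 := by
    refine hr.trans ?_
    have e : ((n : ℝ) + 1) ^ 2 * (2 * δ) ^ 2 = 4 * κ ^ 2 := by rw [← hδk]; ring
    rw [e]
    nlinarith [mul_le_mul_of_nonneg_left hpow (sq_nonneg κ)]
  have h1 : τ.φ (c none * w) = 0 := by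
    simpa [gw] using (hg [(none, true)] none (by simp [expo])).1
  have h2 : τ.φ (c none * c none * w) = 0 := by
    simpa [gw] using (hg [(none, true), (none, true)] none (by simp [expo])).1
  have e : τ.φ (m ^ (n + 1) * c none * w) =
      ((κ * μ ^ n : ℝ) : ℂ) * τ.φ w + τ.φ (r * (c none * w)) := by
    have e1 : m ^ (n + 1) = r + ((μ ^ (n + 1) : ℝ) : ℂ) • (1 : A) +
      (((n + 1) * μ ^ n : ℝ) : ℂ) • (δ : ℂ) • DD c none := by rw [hre]; abel
    rw [e1, DD]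
    simp only [add_mul, smul_mul_assoc, one_mul, sub_mul, Unitary.star_mul_self_of_mem (hc none),
      map_add, map_smul, map_sub, h1, h2, smul_eq_mul, ← hδk, mul_assoc r]
    push_cast; ring
  have h3 : ‖τ.φ (r * (c none * w))‖ ≤ 10 * κ ^ 2 * τ.n2 w := by
    refine (τ.norm_phi_le_n2 _).trans ((τ.n2_mul_le_left _ _).trans ?_)
    rw [τ.n2_unitary_mul (hc none)]
    exact mul_le_mul_of_nonneg_right hr' (τ.n2_nonneg _)
  have h4 : 1 / 2 ≤ μ ^ n := by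
    have h5 := one_add_mul_le_pow (a := -(δ ^ 2 * ((n + 1 : ℕ) : ℝ))) (by linarith) n
    rw [← sub_eq_add_neg, ← hμ] at h5
    refine le_trans ?_ h5
    push_cast
    have : (n : ℝ) * (δ ^ 2 * (n + 1)) ≤ κ ^ 2 := by
      rw [← hδk]; nlinarith [mul_nonneg (sq_nonneg δ) (show (0 : ℝ) ≤ n + 1 by positivity)]
    nlinarith
  have h5 : κ / 2 * ‖τ.φ w‖ ≤ ‖((κ * μ ^ n : ℝ) : ℂ) * τ.φ w‖ := by
    rw [norm_mul, Complex.norm_real, Real.norm_of_nonneg (by positivity)]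
    exact mul_le_mul_of_nonneg_right (by nlinarith) (norm_nonneg _)
  have h6 := norm_sub_norm_le (((κ * μ ^ n : ℝ) : ℂ) * τ.φ w) (-τ.φ (r * (c none * w)))
  rw [sub_neg_eq_add, ← e, norm_neg] at h6
  have h7 := norm_sub_norm_le (τ.φ (m ^ (n + 1) * c none * w)) (τ.φ (L.prod * c none * w))
  rw [norm_sub_rev] at h7
  linarith

end Crest.Agent.R95
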