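import Crest.Agent.R95.AF
import Crest.Agent.R95.Univ

/-!
# Row 95: the correlation lemma

We work in the C⋆-algebra `ℕ →ᵇ A` with the trace `z ↦ lim_𝒰 τ (z n)`, where the asymptotic
freeness given by `af` becomes exact (`Free`).  Unitaries `a j` are chosen successively, each free
from everything before; `α (j+1) = α j u a j`, `c₀ = α k x⋆`,
`c (lab i j) = α i (α j)⋆ c₀ α j (α i)⋆`.  These satisfy the hypothesis of `univ_corr`, and with
`h = (κ/k) ∑_j (α j)⋆ (c₀⋆ - c₀) α j`, `v = exp h u` one has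
`(v a 0) ⋯ (v a (k-1)) = (∏_i exp (HH κ c i)) c₀ x`.
-/

set_option autoImplicit false

namespace Crest.Agent.R95

open Filter Topology Finset
open scoped ComplexConjugate BoundedContinuousFunction

universe u

namespace Corr

section Abs

variable {B : Type u} [CStarAlgebra B] {σ : Tr B}

/-- `b` is free from the monoid `M` -/
def Free (σ : Tr B) (M : Submonoid B) (b : B) : Prop :=
  ∀ L : List (B × Bool), L ≠ [] → (∀ p ∈ L, p.1 ∈ M) → Adm σ L → σ.φ (wd b L) = 0

theorem wd_cons (b : B) (p : B × Bool) (L : List (B × Bool)) :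
    wd b (p :: L) = p.1 * (if p.2 then b else star b) * wd b L := by
  simp [wd]

theorem gw_cons {Γ : Type*} (c : Γ → B) (p : Γ × Bool) (L : List (Γ × Bool)) :
    gw c (p :: L) = (if p.2 then c p.1 else star (c p.1)) * gw c L := by
  simp [gw]

section conv

variable {Γ : Type*} (l r : Γ × Bool → B)

/-- conversion of a word in the conjugates into a word in `b` -/
def conv : B → List (Γ × Bool) → List (B × Bool)
  | _, [] => []
  | z, p :: L => (z * l p, p.2) :: conv (r p) L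

/-- the last coefficient -/
def lst : B → List (Γ × Bool) → B
  | z, [] => z
  | _, p :: L => lst (r p) L

theorem conv_eq {b : B} {c : Γ → B}
    (hc : ∀ p : Γ × Bool, (if p.2 then c p.1 else star (c p.1)) =
      l p * (if p.2 then b else star b) * r p) (L : List (Γ × Bool)) (z : B) :
    z * gw c L = wd b (conv l r z L) * lst r z L := by
  induction L generalizing z with
  | nil => simp [gw, wd, conv, lst]
  | cons p L ih =>
    rw [gw_cons, hc, conv, lst, wd_cons]
    simp only [mul_assoc]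
    rw [ih]

theorem conv_mem {M : Submonoid B} (hl : ∀ p, l p ∈ M) (hr : ∀ p, r p ∈ M)
    (L : List (Γ × Bool)) {z : B} (hz : z ∈ M) :
    (∀ p ∈ conv l r z L, p.1 ∈ M) ∧ lst r z L ∈ M := by
  induction L generalizing z with
  | nil => simpa [conv, lst] using hz
  | cons p L ih =>
    refine ⟨fun q hq => ?_, (ih (hr p)).2⟩
    rcases List.mem_cons.1 hq with rfl | hq
    exacts [mul_mem hz (hl p), (ih (hr p)).1 q hq]

theorem conv_adm (hlr : ∀ p p' : Γ × Bool, p.1 ≠ p'.1 → p.2 ≠ p'.2 → σ.φ (r p * l p') = 0)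
    (L : List (Γ × Bool)) (hL : L.IsChain fun p p' => p.2 ≠ p'.2 → p.1 ≠ p'.1) (z : B) :
    Adm σ (conv l r z L) := by
  induction L generalizing z with
  | nil => simp [conv, Adm]
  | cons p L ih =>
    cases L with
    | nil => simp [conv, Adm]
    | cons p' L =>
      rw [List.isChain_cons_cons] at hL
      have := ih hL.2 (r p)
      unfold Adm at this ⊢
      rw [conv] at this
      rw [conv, conv, List.isChain_cons_cons]
      exact ⟨fun h => hlr p p' (hL.1 h) h, this⟩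

end conv

theorem gauge {Γ : Type*} {M : Submonoid B} {b : B} (hb : Free σ M b) {c : Γ → B}
    (hcu : ∀ γ, c γ ∈ unitary B) (l r : Γ × Bool → B)
    (hc : ∀ p : Γ × Bool, (if p.2 then c p.1 else star (c p.1)) =
      l p * (if p.2 then b else star b) * r p)
    (hl : ∀ p, l p ∈ M) (hr : ∀ p, r p ∈ M)
    (hlr : ∀ p p' : Γ × Bool, p.1 ≠ p'.1 → p.2 ≠ p'.2 → σ.φ (r p * l p') = 0)
    {w : B} (hw : w ∈ M) (L : List (Γ × Bool)) (γ : Γ) (hL : expo γ L ≠ 0) :
    σ.φ (gw c L * w) = 0 := by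
  induction hn : L.length using Nat.strong_induction_on generalizing L with
  | _ n ih =>
    by_cases hch : L.IsChain fun p p' => p.2 ≠ p'.2 → p.1 ≠ p'.1
    · cases L with
      | nil => simp [expo] at hL
      | cons p L =>
        have he := (conv_mem l r hl hr L (hr p)).2
        have h := hb (conv l r (lst r (r p) L * w) (p :: L)) (by simp [conv])
          (conv_mem l r hl hr _ (mul_mem he hw)).1 (conv_adm l r hlr _ hch _)
        rw [σ.comm, conv_eq l r hc, lst, σ.comm, ← h, conv, conv, wd_cons, wd_cons]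
        simp only [mul_assoc]
    · rw [List.isChain_iff_forall_rel_of_append_cons_cons] at hch
      push Not at hch
      obtain ⟨⟨γ₁, ε₁⟩, ⟨γ₂, ε₂⟩, L₁, L₂, rfl, h1, h2⟩ := hch
      simp only at h1 h2
      subst h2
      have e1 : gw c (L₁ ++ (γ₁, ε₁) :: (γ₁, ε₂) :: L₂) = gw c (L₁ ++ L₂) := by
        rw [Univ.gw_append, Univ.gw_append, gw_cons, gw_cons, ← mul_assoc (ite _ _ _)]
        cases ε₁ <;> cases ε₂ <;> first | exact absurd rfl h1 |
          simp [Unitary.star_mul_self_of_mem (hcu γ₁), Unitary.mul_star_self_of_mem (hcu γ₁)]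
      have e2 : expo γ (L₁ ++ (γ₁, ε₁) :: (γ₁, ε₂) :: L₂) = expo γ (L₁ ++ L₂) := by
        cases ε₁ <;> cases ε₂ <;> first | exact absurd rfl h1 |
          (simp only [expo, List.map_append, List.map_cons, List.sum_append, List.sum_cons]
           split_ifs <;> simp_all)
      rw [e1]
      exact ih _ (by simp at hn ⊢; omega) _ (e2 ▸ hL) rfl

/-- the products `u a 0 u a 1 ⋯` -/
def al (u : B) (a : ℕ → B) : ℕ → B
  | 0 => 1
  | j + 1 => al u a j * u * a j

theorem al_unitary {u : B} (hu : u ∈ unitary B) {a : ℕ → B} (ha : ∀ j, a j ∈ unitary B) (j : ℕ) :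
    al u a j ∈ unitary B := by
  induction j with
  | zero => exact one_mem _
  | succ j ih => exact mul_mem (mul_mem ih hu) (ha j)

theorem al_mem {u : B} {a : ℕ → B} {M : ℕ → Submonoid B} (hM : Monotone M) (hu : u ∈ M 0)
    (hu' : star u ∈ M 0) (ha : ∀ j, a j ∈ M (j + 1) ∧ star (a j) ∈ M (j + 1)) {j m : ℕ}
    (h : j ≤ m) : al u a j ∈ M m ∧ star (al u a j) ∈ M m := by
  suffices al u a j ∈ M j ∧ star (al u a j) ∈ M j from ⟨hM h this.1, hM h this.2⟩
  clear h
  induction j with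
  | zero => simp [al]
  | succ j ih =>
    rw [al, star_mul, star_mul]
    exact ⟨mul_mem (mul_mem (hM j.le_succ ih.1) (hM (Nat.zero_le _) hu)) (ha j).1,
      mul_mem (ha j).2 (mul_mem (hM (Nat.zero_le _) hu') (hM j.le_succ ih.2))⟩

theorem al_key {u : B} {a : ℕ → B} {M : ℕ → Submonoid B} (hM : Monotone M) (hu : u ∈ M 0)
    (hu' : star u ∈ M 0) (ha : ∀ j, a j ∈ M (j + 1) ∧ star (a j) ∈ M (j + 1))
    (hf : ∀ j, Free σ (M j) (a j)) {i₁ i₂ i₃ i₄ : ℕ} (h2 : i₂ < i₁) (h4 : i₄ < i₁)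
    (h3 : i₃ ≤ i₁) :
    σ.φ (al u a i₁ * star (al u a i₂) * al u a i₃ * star (al u a i₄)) = 0 := by
  obtain ⟨m, rfl⟩ : ∃ m, i₁ = m + 1 := ⟨i₁ - 1, by omega⟩
  have hβ : al u a m * u ∈ M m :=
    mul_mem (al_mem hM hu hu' ha le_rfl).1 (hM (Nat.zero_le _) hu)
  have m2 := (al_mem hM hu hu' ha (show i₂ ≤ m by omega)).2
  have m4 := (al_mem hM hu hu' ha (show i₄ ≤ m by omega)).2
  rcases h3.lt_or_eq with h3 | rfl
  · have m3 := (al_mem hM hu hu' ha (show i₃ ≤ m by omega)).1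
    have := hf m [(star (al u a i₂) * al u a i₃ * star (al u a i₄) * (al u a m * u), true)]
      (by simp) (by simpa using mul_mem (mul_mem (mul_mem m2 m3) m4) hβ) (by simp [Adm])
    rw [← this, al, mul_assoc (_ * a m), mul_assoc (_ * a m), σ.comm]
    simp [wd, mul_assoc]
  · have := hf m [(star (al u a i₄) * (al u a m * u), true), (star (al u a i₂) * (al u a m * u), true)]
      (by simp) (by simpa using ⟨mul_mem m4 hβ, mul_mem m2 hβ⟩) (by simp [Adm])
    rw [← this, al, σ.comm]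
    simp [wd, mul_assoc]

theorem al_orth {u : B} {a : ℕ → B} {M : ℕ → Submonoid B} (hM : Monotone M) (hu : u ∈ M 0)
    (hu' : star u ∈ M 0) (ha : ∀ j, a j ∈ M (j + 1) ∧ star (a j) ∈ M (j + 1))
    (hf : ∀ j, Free σ (M j) (a j)) (huu : u ∈ unitary B) (hau : ∀ j, a j ∈ unitary B)
    {i j i' j' : ℕ} (h : ¬ ((i = j ∧ i' = j') ∨ (i = i' ∧ j = j'))) :
    σ.φ (al u a j * star (al u a i) * al u a i' * star (al u a j')) = 0 := by
  obtain ⟨α, hα⟩ : ∃ α, α = al u a := ⟨_, rfl⟩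
  have key : ∀ {i₁ i₂ i₃ i₄ : ℕ}, i₂ < i₁ → i₄ < i₁ → i₃ ≤ i₁ →
      σ.φ (α i₁ * star (α i₂) * α i₃ * star (α i₄)) = 0 := hα ▸ al_key hM hu hu' ha hf
  have h1 : ∀ j, α j * star (α j) = 1 := fun j =>
    Unitary.mul_star_self_of_mem (hα ▸ al_unitary huu hau j)
  have h2 : ∀ j, star (α j) * α j = 1 := fun j =>
    Unitary.star_mul_self_of_mem (hα ▸ al_unitary huu hau j)
  rw [← hα]
  have sh : ∀ i₁ i₂ i₃ i₄, σ.φ (α i₁ * star (α i₂) * α i₃ * star (α i₄)) =
      σ.φ (α i₃ * star (α i₄) * α i₁ * star (α i₂)) := fun i₁ i₂ i₃ i₄ => by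
    rw [mul_assoc (α i₁ * _), σ.comm, ← mul_assoc]
  have rv : ∀ i₁ i₂ i₃ i₄, σ.φ (α i₄ * star (α i₃) * α i₂ * star (α i₁)) = 0 →
      σ.φ (α i₁ * star (α i₂) * α i₃ * star (α i₄)) = 0 := fun i₁ i₂ i₃ i₄ h => by
    have := σ.star (α i₄ * star (α i₃) * α i₂ * star (α i₁))
    rw [h, map_zero] at this
    simpa [mul_assoc] using this
  have t2 : ∀ i j, i ≠ j → σ.φ (α i * star (α j)) = 0 := by
    have : ∀ i j, j < i → σ.φ (α i * star (α j)) = 0 := fun i j h => by
      have := key h h h.le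
      rwa [mul_assoc (α i * _), h1, mul_one] at this
    intro i j h
    rcases lt_or_gt_of_ne h with h | h
    · have h' := σ.star (α j * star (α i))
      rw [this j i h, map_zero] at h'
      simpa using h'
    · exact this i j h
  by_cases e1 : i = j
  · subst e1; rw [h1, one_mul]; exact t2 _ _ (by tauto)
  by_cases e2 : i = i'
  · subst e2; rw [mul_assoc (α j), h2, mul_one]; exact t2 _ _ (by tauto)
  by_cases e3 : i' = j'
  · subst e3; rw [mul_assoc (α j * _), h1, mul_one]; exact t2 _ _ (Ne.symm e1)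
  by_cases e4 : j = j'
  · subst e4; rw [sh, mul_assoc (α i'), h2, mul_one]; exact t2 _ _ (Ne.symm e2)
  rcases (by omega : (i < j ∧ j' < j ∧ i' ≤ j) ∨ (j' < i' ∧ i < i' ∧ j ≤ i') ∨
    (i' < j' ∧ j < j' ∧ i ≤ j') ∨ (j < i ∧ i' < i ∧ j' ≤ i)) with h | h | h | h
  · exact key h.1 h.2.1 h.2.2
  · rw [sh]; exact key h.1 h.2.1 h.2.2
  · exact rv _ _ _ _ (key h.1 h.2.1 h.2.2)
  · rw [sh]; exact rv _ _ _ _ (key h.1 h.2.1 h.2.2)

/-- the pair of indices of a label -/
def pr {k : ℕ} : Lab k → ℕ × ℕ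
  | none => (0, 0)
  | some p => (p.1.1, p.1.2)

theorem pr_le {m : ℕ} (γ : Lab (m + 1)) : (pr γ).1 ≤ m ∧ (pr γ).2 ≤ m := by
  rcases γ with _ | ⟨⟨i, j⟩, h⟩
  · simp [pr]
  · exact ⟨Nat.lt_succ_iff.1 i.2, Nat.lt_succ_iff.1 j.2⟩

theorem pr_ne {k : ℕ} {γ γ' : Lab k} (h : γ ≠ γ') :
    ¬ (((pr γ).1 = (pr γ).2 ∧ (pr γ').1 = (pr γ').2) ∨
      ((pr γ).1 = (pr γ').1 ∧ (pr γ).2 = (pr γ').2)) := by
  rcases γ with _ | ⟨⟨i, j⟩, hij⟩ <;> rcases γ' with _ | ⟨⟨i', j'⟩, hij'⟩
  · exact absurd rfl h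
  · have : (i' : ℕ) ≠ j' := fun h => hij' (Fin.ext h)
    simp only [pr]; omega
  · have : (i : ℕ) ≠ j := fun h => hij (Fin.ext h)
    simp only [pr]; omega
  · have : (i : ℕ) ≠ j := fun h => hij (Fin.ext h)
    have h' : ¬ ((i : ℕ) = i' ∧ (j : ℕ) = j') := fun h' =>
      h (by simp [Fin.ext h'.1, Fin.ext h'.2])
    simp only [pr]; omega

/-- the abstract correlation estimate -/
theorem abs_corr {u x : B} (y : B) {a : ℕ → B} {M : ℕ → Submonoid B} (hM : Monotone M)
    (hu : u ∈ M 0) (hu' : star u ∈ M 0) (hx : x ∈ M 0) (hx' : star x ∈ M 0) (hy : star y ∈ M 0)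
    (ha : ∀ j, a j ∈ M (j + 1) ∧ star (a j) ∈ M (j + 1))
    (hf : ∀ j, Free σ (M j) (a j)) (huu : u ∈ unitary B) (hxu : x ∈ unitary B)
    (hau : ∀ j, a j ∈ unitary B) {k : ℕ} (hk : 0 < k) {κ : ℝ} (hκ : 0 < κ) (hκ' : κ ≤ 1 / 2) :
    ∃ v ∈ unitary B, σ.n2 (v - u) ≤ 10 / √k ∧
      κ / 2 * ‖σ.φ (x * star y)‖ - 10 * κ ^ 2 * σ.n2 y - 1000 * ‖y‖ / √k ≤
        ‖σ.φ (((List.range k).map fun i => v * a i).prod * star y)‖ := by
  let _ : NormedAlgebra ℚ B := .restrictScalars ℚ ℂ B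
  obtain ⟨m, rfl⟩ : ∃ m, k = m + 1 := ⟨k - 1, by omega⟩
  have horth := fun i j i' j' => al_orth hM hu hu' ha hf huu hau (i := i) (j := j) (i' := i')
    (j' := j')
  have hmem := fun j (h : j ≤ m) => al_mem hM hu hu' ha h
  have hαu := al_unitary huu hau
  have hα0 : al u a 0 = 1 := rfl
  have hαs : ∀ j, al u a (j + 1) = al u a j * u * a j := fun _ => rfl
  generalize al u a = α at horth hmem hαu hα0 hαs
  have h1 : ∀ j, α j * star (α j) = 1 := fun j => Unitary.mul_star_self_of_mem (hαu j)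
  have h2 : ∀ j, star (α j) * α j = 1 := fun j => Unitary.star_mul_self_of_mem (hαu j)
  have h2' : ∀ j z, star (α j) * (α j * z) = z := fun j z => by rw [← mul_assoc, h2, one_mul]
  obtain ⟨g, hg⟩ : ∃ g : Lab (m + 1) → B, g = fun γ => α (pr γ).2 * star (α (pr γ).1) := ⟨_, rfl⟩
  have hgu : ∀ γ, g γ ∈ unitary B := fun γ => hg ▸ mul_mem (hαu _) (Unitary.star_mem (hαu _))
  have hgm : ∀ γ, g γ ∈ M m ∧ star (g γ) ∈ M m := fun γ => by
    rw [hg]
    simp only [star_mul, star_star]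
    exact ⟨mul_mem (hmem _ (pr_le γ).2).1 (hmem _ (pr_le γ).1).2,
      mul_mem (hmem _ (pr_le γ).1).1 (hmem _ (pr_le γ).2).2⟩
  have hgo : ∀ γ γ', γ ≠ γ' → σ.φ (g γ * star (g γ')) = 0 := fun γ γ' h => by
    have := horth _ _ _ _ (pr_ne h)
    rw [hg]
    simpa [mul_assoc] using this
  have hgl : ∀ i j : Fin (m + 1), g (lab i j) = α j * star (α i) := fun i j => by
    rw [hg]; unfold lab
    split_ifs with h
    · subst h; simp [pr, h1]
    · rfl
  have hg0 : g none = 1 := by rw [hg]; simp [pr, h1]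
  obtain ⟨β, hβ⟩ : ∃ β, β = α m * u := ⟨_, rfl⟩
  have hβu : β ∈ unitary B := hβ ▸ mul_mem (hαu m) huu
  have hβm : β ∈ M m := hβ ▸ mul_mem (hmem m le_rfl).1 (hM (Nat.zero_le _) hu)
  have hβm' : star β ∈ M m := by
    rw [hβ, star_mul]; exact mul_mem (hM (Nat.zero_le _) hu') (hmem m le_rfl).2
  obtain ⟨c₀, hc₀⟩ : ∃ c₀, c₀ = β * a m * star x := ⟨_, rfl⟩
  have hc₀u : c₀ ∈ unitary B := hc₀ ▸ mul_mem (mul_mem hβu (hau m)) (Unitary.star_mem hxu)
  obtain ⟨c, hc⟩ : ∃ c : Lab (m + 1) → B, c = fun γ => star (g γ) * c₀ * g γ := ⟨_, rfl⟩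
  have hcu : ∀ γ, c γ ∈ unitary B := fun γ =>
    hc ▸ mul_mem (mul_mem (Unitary.star_mem (hgu γ)) hc₀u) (hgu γ)
  have hG := fun {w : B} (hw : w ∈ M m) => gauge (hf m) hcu
    (fun p => star (g p.1) * if p.2 then β else x) (fun p => (if p.2 then star x else star β) * g p.1)
    (by rintro ⟨γ, _ | _⟩ <;> simp [hc, hc₀, mul_assoc])
    (fun p => mul_mem (hgm _).2 (by split_ifs; exacts [hβm, hM (Nat.zero_le _) hx]))
    (fun p => mul_mem (by split_ifs; exacts [hM (Nat.zero_le _) hx', hβm']) (hgm _).1)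
    (by
      rintro ⟨γ, ε⟩ ⟨γ', ε'⟩ h h'
      rw [mul_assoc, σ.comm, ← hgo γ γ' h]
      cases ε <;> cases ε' <;> first | exact absurd rfl h' |
        simp [mul_assoc, Unitary.mul_star_self_of_mem hβu, Unitary.mul_star_self_of_mem hxu])
    hw
  obtain ⟨U1, U2⟩ := univ_corr σ hk hκ hκ' c hcu (x * star y) fun L γ hL =>
    ⟨hG (hM (Nat.zero_le _) (mul_mem hx hy)) L γ hL, by simpa using hG (one_mem _) L γ hL⟩
  obtain ⟨h, hh⟩ : ∃ h : B, h = ((κ / (m + 1 : ℕ) : ℝ) : ℂ) •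
    ∑ j : Fin (m + 1), star (α j) * (star c₀ - c₀) * α j := ⟨_, rfl⟩
  have hexp : ∀ i : Fin (m + 1),
      NormedSpace.exp (HH κ c i) = α i * NormedSpace.exp h * star (α i) := fun i => by
    have : SemiconjBy (α i) h (HH κ c i) := by
      rw [SemiconjBy, hh, HH, mul_smul_comm, smul_mul_assoc, Finset.mul_sum, Finset.sum_mul]
      congr 1
      refine Finset.sum_congr rfl fun j _ => ?_
      simp [hc, hgl, mul_assoc, h2, mul_sub, sub_mul]
    rw [this.exp_right.eq, mul_assoc, h1, mul_one]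
  have he0 : NormedSpace.exp (HH κ c 0) = NormedSpace.exp h := by
    rw [hexp]; simp [hα0]
  have heu : NormedSpace.exp h ∈ unitary B := by
    refine NormedSpace.exp_mem_unitary_of_mem_skewAdjoint ?_
    rw [skewAdjoint.mem_iff, hh, star_smul, star_sum, ← smul_neg, ← Finset.sum_neg_distrib]
    congr 1
    · simp
    · refine Finset.sum_congr rfl fun j _ => ?_
      simp [mul_assoc, mul_sub, sub_mul]
  generalize NormedSpace.exp h = e at hexp he0 heu
  refine ⟨e * u, mul_mem heu huu, ?_, ?_⟩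
  · have := U2 0
    rwa [he0, ← σ.n2_mul_unitary huu, sub_mul, one_mul] at this
  · have hZ : ∀ n, ((List.range n).map fun i => e * u * a i).prod =
        ((List.range n).map fun i => α i * e * star (α i)).prod * α n := by
      intro n
      induction n with
      | zero => simp [hα0]
      | succ n ih =>
        rw [List.prod_range_succ, List.prod_range_succ, ih, hαs]
        simp only [mul_assoc, h2']
    have hL : (List.ofFn fun i => NormedSpace.exp (HH κ c i)) =
        (List.range (m + 1)).map fun i => α i * e * star (α i) := by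
      refine List.ext_getElem (by simp) fun n h₁ h₂ => ?_
      simp only [List.getElem_ofFn, hexp, List.getElem_map, List.getElem_range]
    have hcx : c none * (x * star y) = α (m + 1) * star y := by
      simp [hc, hg0, hc₀, hαs, hβ, mul_assoc, ← mul_assoc (star x), Unitary.star_mul_self_of_mem hxu]
    rw [hL, mul_assoc _ (c none), hcx, ← mul_assoc _ (α (m + 1)), ← hZ, σ.n2_unitary_mul hxu, σ.n2_star] at U1
    have : ‖x * star y‖ = ‖y‖ := by rw [CStarRing.norm_mem_unitary_mul _ hxu, norm_star]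
    rwa [this] at U1

end Abs

section Ultra

variable {A : Type u} [CStarAlgebra A] (τ : Tr A)

theorem exists_lim (z : ℕ →ᵇ A) :
    ∃ c : ℂ, Tendsto (fun n => τ.φ (z n)) (hyperfilter ℕ) (𝓝 c) := by
  obtain ⟨c, -, hc⟩ := (isCompact_closedBall (0 : ℂ) ‖z‖).ultrafilter_le_nhds
    ((hyperfilter ℕ).map fun n => τ.φ (z n)) (by
      rw [le_principal_iff, Ultrafilter.coe_map, Filter.mem_map]
      exact Eventually.of_forall fun n => by
        simpa using (τ.norm_phi_le _).trans (z.norm_coe_le_norm n))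
  exact ⟨c, hc⟩

/-- the ultralimit of the trace -/
noncomputable def ul (z : ℕ →ᵇ A) : ℂ := (exists_lim τ z).choose

theorem tendsto_ul (z : ℕ →ᵇ A) : Tendsto (fun n => τ.φ (z n)) (hyperfilter ℕ) (𝓝 (ul τ z)) :=
  (exists_lim τ z).choose_spec

theorem ul_eq {z : ℕ →ᵇ A} {c : ℂ} (h : Tendsto (fun n => τ.φ (z n)) (hyperfilter ℕ) (𝓝 c)) :
    ul τ z = c := tendsto_nhds_unique (tendsto_ul τ z) h

/-- the ultralimit trace -/
noncomputable def ult : Tr (ℕ →ᵇ A) where
  φ := LinearMap.mkContinuous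
    { toFun := ul τ
      map_add' := fun z z' => ul_eq τ (by simpa using (tendsto_ul τ z).add (tendsto_ul τ z'))
      map_smul' := fun c z => ul_eq τ (by simpa using (tendsto_ul τ z).const_mul c) } 1
    fun z => le_of_tendsto' (tendsto_ul τ z).norm fun n => by
      simpa using (τ.norm_phi_le _).trans (z.norm_coe_le_norm n)
  one := ul_eq τ (by simp [τ.one])
  comm z z' := ul_eq τ (by simpa [τ.comm (z _)] using tendsto_ul τ (z' * z))
  star z := ul_eq τ (by
    simpa [τ.star, Function.comp_def] using (Complex.continuous_conj.tendsto _).comp (tendsto_ul τ z))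
  pos z := ge_of_tendsto' ((Complex.continuous_re.tendsto _).comp (tendsto_ul τ (star z * z)))
    fun n => τ.pos (z n)

theorem tendsto_ult (z : ℕ →ᵇ A) :
    Tendsto (fun n => τ.φ (z n)) (hyperfilter ℕ) (𝓝 ((ult τ).φ z)) := tendsto_ul τ z

theorem tendsto_n2 (z : ℕ →ᵇ A) :
    Tendsto (fun n => τ.n2 (z n)) (hyperfilter ℕ) (𝓝 ((ult τ).n2 z)) :=
  ((Real.continuous_sqrt.comp Complex.continuous_re).tendsto _).comp (tendsto_ult τ (star z * z))

theorem ult_const (x : A) : (ult τ).φ (BoundedContinuousFunction.const ℕ x) = τ.φ x :=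
  tendsto_nhds_unique (tendsto_ult τ _) tendsto_const_nhds

theorem ult_n2_const (x : A) : (ult τ).n2 (BoundedContinuousFunction.const ℕ x) = τ.n2 x :=
  tendsto_nhds_unique (tendsto_n2 τ _) tendsto_const_nhds

theorem unitary_iff {z : ℕ →ᵇ A} : z ∈ unitary (ℕ →ᵇ A) ↔ ∀ n, z n ∈ unitary A := by
  simp only [Unitary.mem_iff, BoundedContinuousFunction.ext_iff, forall_and]
  rfl

theorem lprod_apply (L : List (ℕ →ᵇ A)) (n : ℕ) : L.prod n = (L.map fun z => z n).prod := by
  induction L with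
  | nil => rfl
  | cons z L ih => simp [ih]

theorem wd_apply (b : ℕ →ᵇ A) (L : List ((ℕ →ᵇ A) × Bool)) (n : ℕ) :
    wd b L n = wd (b n) (L.map fun p => (p.1 n, p.2)) := by
  induction L with
  | nil => rfl
  | cons p L ih =>
    rw [wd_cons, List.map_cons, wd_cons, ← ih]
    cases p.2 <;> rfl

/-- pointwise centering -/
noncomputable def cen (z : ℕ →ᵇ A) : ℕ →ᵇ A :=
  BoundedContinuousFunction.ofNormedAddCommGroupDiscrete (fun n => z n - τ.φ (z n) • 1)
    (‖z‖ + ‖z‖ * ‖(1 : A)‖) fun n => by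
      refine (norm_sub_le _ _).trans (add_le_add (z.norm_coe_le_norm n) ?_)
      rw [norm_smul]
      exact mul_le_mul_of_nonneg_right ((τ.norm_phi_le _).trans (z.norm_coe_le_norm n))
        (norm_nonneg _)

theorem cen_apply (z : ℕ →ᵇ A) (n : ℕ) : cen τ z n = z n - τ.φ (z n) • 1 := rfl

theorem n2_sub_cen {z : ℕ →ᵇ A} (hz : (ult τ).φ z = 0) : (ult τ).n2 (z - cen τ z) = 0 := by
  refine tendsto_nhds_unique (tendsto_n2 τ _) ?_
  have := (tendsto_ult τ z).norm
  rw [hz, norm_zero] at this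
  refine this.congr fun n => ?_
  simp [cen_apply, τ.n2_smul, τ.n2_one]

theorem n2_wd_congr {B : Type u} [CStarAlgebra B] (σ : Tr B) (b : B) (f : B → B)
    (hf : ∀ z, σ.n2 (z - f z) = 0) (L : List (B × Bool)) :
    σ.n2 (wd b L - wd b (L.map fun p => (f p.1, p.2))) = 0 := by
  induction L with
  | nil => simp [σ.n2_zero]
  | cons p L ih =>
    rw [List.map_cons, wd_cons, wd_cons]
    refine le_antisymm ?_ (σ.n2_nonneg _)
    refine (σ.n2_triangle _ (f p.1 * (if p.2 then b else star b) * wd b L) _).trans ?_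
    rw [← sub_mul, ← sub_mul, ← mul_sub, mul_assoc]
    have h1 := σ.n2_mul_le_right (p.1 - f p.1) ((if p.2 then b else star b) * wd b L)
    have h2 := σ.n2_mul_le_left (f p.1 * (if p.2 then b else star b))
      (wd b L - wd b (L.map fun p => (f p.1, p.2)))
    rw [hf, zero_mul] at h1
    rw [ih, mul_zero] at h2
    linarith

variable {τ} {P : StarSubalgebra ℂ A}

theorem exists_free (h : Irr τ P) {S : Set (ℕ →ᵇ A)} (hS : S.Countable) :
    ∃ b : ℕ →ᵇ A, (∀ n, b n ∈ P ∧ b n ∈ unitary A) ∧ Free (ult τ) (Submonoid.closure S) b := by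
  classical
  have hM : (Submonoid.closure S : Set (ℕ →ᵇ A)).Countable := by
    have := hS.to_subtype
    refine (Set.countable_range fun l : List S => (l.map (↑)).prod).mono fun z hz => ?_
    obtain ⟨l, hl, rfl⟩ := Submonoid.exists_list_of_mem_closure hz
    exact ⟨l.attach.map fun y => ⟨y.1, hl y.1 y.2⟩, by simp [Function.comp_def]⟩
  obtain ⟨e, he⟩ := hM.exists_eq_range ⟨1, one_mem _⟩
  have hF : ∀ n : ℕ, ((fun i => e i n) '' Set.Iic n ∪ (fun i => cen τ (e i) n) '' Set.Iic n).Finite :=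
    fun n => ((Set.finite_Iic n).image _).union ((Set.finite_Iic n).image _)
  choose b hbP hbu hb using fun n : ℕ => h.af (hF n) n (Nat.one_div_pos_of_nat (n := n))
  refine ⟨BoundedContinuousFunction.ofNormedAddCommGroupDiscrete b 1
    fun n => (τ.norm_unitary (hbu n)).le, fun n => ⟨hbP n, hbu n⟩, fun L hL hLM hadm => ?_⟩
  obtain ⟨b', hb'⟩ : ∃ b', b' = BoundedContinuousFunction.ofNormedAddCommGroupDiscrete b 1
    fun n => (τ.norm_unitary (hbu n)).le := ⟨_, rfl⟩
  have hbb : ∀ n, b' n = b n := fun n => by rw [hb']; rfl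
  rw [← hb']
  obtain ⟨f, hf⟩ : ∃ f : (ℕ →ᵇ A) → (ℕ →ᵇ A),
    f = fun z => if (ult τ).φ z = 0 then cen τ z else z := ⟨_, rfl⟩
  have h1 := n2_wd_congr (ult τ) b' f (fun z => by
    rw [hf]; dsimp only
    split_ifs with hz
    exacts [n2_sub_cen τ hz, by simp [Tr.n2_zero]]) L
  have h2 := (ult τ).norm_phi_le_n2 (wd b' L - wd b' (L.map fun p => (f p.1, p.2)))
  rw [h1, map_sub, norm_le_zero_iff, sub_eq_zero] at h2
  rw [h2]
  refine tendsto_nhds_unique (tendsto_ult τ _) (Tendsto.mono_left ?_ (Nat.hyperfilter_le_atTop))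
  have hev : ∀ᶠ n in atTop, ∀ p ∈ L, ∃ i ≤ n, p.1 = e i := by
    refine (eventually_all_finite L.finite_toSet).2 fun p hp => ?_
    obtain ⟨i, hi⟩ : p.1 ∈ Set.range e := he ▸ hLM p hp
    exact (eventually_ge_atTop i).mono fun n hn => ⟨i, hn, hi.symm⟩
  refine squeeze_zero_norm' ?_ tendsto_one_div_add_atTop_nhds_zero_nat
  filter_upwards [hev, eventually_ge_atTop L.length] with n hn hn'
  rw [wd_apply, hbb, List.map_map]
  refine hb n _ (by simpa using hL) (by simpa using hn') ?_ ?_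
  · intro q hq
    obtain ⟨p, hp, rfl⟩ := List.mem_map.1 hq
    obtain ⟨i, hi, hpi⟩ := hn p hp
    simp only [Function.comp_apply, hf, hpi]
    split_ifs
    exacts [Or.inr ⟨i, hi, rfl⟩, Or.inl ⟨i, hi, rfl⟩]
  · unfold Adm at hadm ⊢
    rw [List.isChain_map]
    refine hadm.imp fun p p' hpp hne => ?_
    simp [hf, hpp hne, cen_apply, τ.one]

end Ultra

end Corr

variable {A : Type u} [CStarAlgebra A] {τ : Tr A} {P N : StarSubalgebra ℂ A}

open Corr in
theorem Irr.corr (h : Irr τ P) {u x : A} (hu : u ∈ unitary A) (hx : x ∈ unitary A) (y : A)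
    {κ ρ : ℝ} (hκ : 0 < κ) (hκ' : κ ≤ 1 / 2) (hρ : 0 < ρ) :
    ∃ v ∈ unitary A, τ.n2 (v - u) < ρ ∧ ∃ Z ∈ StarAlgebra.adjoin ℂ ((P : Set A) ∪ {v}),
      Z ∈ unitary A ∧
      κ / 2 * ‖τ.φ (x * star y)‖ - 10 * κ ^ 2 * τ.n2 y - ρ ≤ ‖τ.φ (Z * star y)‖ := by
  choose! f hf using fun (S : Set (ℕ →ᵇ A)) (hS : S.Countable) => exists_free h hS
  obtain ⟨ι, hι⟩ : ∃ ι : A → (ℕ →ᵇ A), ι = BoundedContinuousFunction.const ℕ := ⟨_, rfl⟩
  let T : ℕ → Set (ℕ →ᵇ A) := fun j => Nat.rec {ι u, star (ι u), ι x, star (ι x), star (ι y)}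
    (fun _ S => S ∪ {f S, star (f S)}) j
  have hT : ∀ j, T (j + 1) = T j ∪ {f (T j), star (f (T j))} := fun _ => rfl
  have hTc : ∀ j, (T j).Countable := fun j => by
    induction j with
    | zero => exact Set.Finite.countable (by simp [T])
    | succ j ih => exact ih.union (Set.Finite.countable (by simp))
  have hM : Monotone fun j => Submonoid.closure (T j) :=
    monotone_nat_of_le_succ fun j => Submonoid.closure_mono Set.subset_union_left
  have hk : ∀ᶠ k : ℕ in atTop, (10 + 1000 * ‖y‖) / √k < ρ := by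
    refine Tendsto.eventually_lt_const hρ (Tendsto.const_div_atTop ?_ _)
    exact Real.tendsto_sqrt_atTop.comp tendsto_natCast_atTop_atTop
  obtain ⟨k, hk, hk0⟩ := (hk.and (eventually_gt_atTop 0)).exists
  have hιu : ∀ {z}, z ∈ unitary A → ι z ∈ unitary (ℕ →ᵇ A) := fun hz =>
    unitary_iff.2 fun n => by simpa [hι] using hz
  obtain ⟨v, hv, h1, h2⟩ := abs_corr (σ := ult τ) (u := ι u) (x := ι x) (ι y)
    (a := fun j => f (T j)) hM (Submonoid.subset_closure (by simp [T]))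
    (Submonoid.subset_closure (by simp [T])) (Submonoid.subset_closure (by simp [T]))
    (Submonoid.subset_closure (by simp [T])) (Submonoid.subset_closure (by simp [T]))
    (fun j => ⟨Submonoid.subset_closure (by simp [hT]), Submonoid.subset_closure (by simp [hT])⟩)
    (fun j => (hf _ (hTc j)).2) (hιu hu) (hιu hx)
    (fun j => unitary_iff.2 fun n => ((hf _ (hTc j)).1 n).2) hk0 hκ hκ'
  have e1 : (ult τ).φ (ι x * star (ι y)) = τ.φ (x * star y) := by
    rw [← ult_const τ, hι]; rfl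
  have e2 : (ult τ).n2 (ι y) = τ.n2 y := by rw [← ult_n2_const τ, hι]
  have e3 : ‖ι y‖ = ‖y‖ := by rw [hι, BoundedContinuousFunction.norm_const_eq]
  rw [e1, e2, e3] at h2
  have hs : 0 < √(k : ℝ) := Real.sqrt_pos.2 (by exact_mod_cast hk0)
  rw [add_div] at hk
  have h3 : 0 < 10 / √(k : ℝ) := by positivity
  have h4 : 0 ≤ 1000 * ‖y‖ / √(k : ℝ) := by positivity
  have ev1 := (tendsto_n2 τ (v - ι u)).eventually_lt_const (u := ρ) (by linarith)
  have ev2 := (tendsto_ult τ (((List.range k).map fun i => v * f (T i)).prod *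
    star (ι y))).norm.eventually_const_lt
    (u := κ / 2 * ‖τ.φ (x * star y)‖ - 10 * κ ^ 2 * τ.n2 y - ρ) (by linarith)
  obtain ⟨n, g1, g2⟩ := (ev1.and ev2).exists
  have hvn := unitary_iff.1 hv n
  refine ⟨v n, hvn, by simpa [hι] using g1, ((List.range k).map fun i => v n * f (T i) n).prod,
    list_prod_mem fun z hz => ?_, list_prod_mem fun z hz => ?_, ?_⟩
  · obtain ⟨i, -, rfl⟩ := List.mem_map.1 hz
    exact mul_mem (StarAlgebra.subset_adjoin ℂ _ (Or.inr rfl))
      (StarAlgebra.subset_adjoin ℂ _ (Or.inl ((hf _ (hTc i)).1 n).1))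
  · obtain ⟨i, -, rfl⟩ := List.mem_map.1 hz
    exact mul_mem hvn ((hf _ (hTc i)).1 n).2
  · refine g2.le.trans (le_of_eq ?_)
    simp [lprod_apply, hι, Function.comp_def]

end Crest.Agent.R95
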