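import Crest.Agent.R95.Corr

/-!
# Row 95: generating unitaries are dense

PLANS.
* `approx_open`: `StarAlgebra.adjoin_induction` with the stronger statement
  `∃ C, ∀ ε > 0, ∃ δ > 0, ∀ v, ... ∃ p', ‖p'‖ ≤ C ∧ ‖p - p'‖₂ < ε`.
* `approx_dense`: let `δ⋆ = inf {‖x - p‖₂ | v ∈ B(u, ε), p ∈ alg (P, v)}` and suppose `δ⋆ > 0`.  Take
  a near-minimiser `(v₀, p₀)`, `y = x - p₀`.  Since `‖y - t p₀‖₂ ≥ δ⋆` for all `t`,
  `|τ (p₀ y⋆)|² ≤ ‖p₀‖₂² (‖y‖₂² - δ⋆²)` is small, so `|τ (x y⋆)| ≥ δ⋆² - small`.  `corr` (with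
  `κ = min (1/2) (δ⋆/100)`) and `approx_open` give `v ∈ B(u, ε)`, `p', Z ∈ alg (P, v)` with
  `‖x - p' - t Z‖₂ ≤ small + √(‖y‖₂² - |τ (Z y⋆)|²) < δ⋆`.
* `dense_gen`: countably many unitaries `x j` (from `Sep`, `exists_unitary_decomp`); construct
  `v n` with summable steps, staying inside the neighbourhoods given by `approx_open`; the limit
  exists by `top` and is unitary.
-/

set_option autoImplicit false
set_option maxHeartbeats 400000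

namespace Crest.Agent.R95

open Filter Topology Finset
open scoped ComplexConjugate

universe u

variable {A : Type u} [CStarAlgebra A] {τ : Tr A} {P N : StarSubalgebra ℂ A}

theorem approx_open_aux (τ : Tr A) (S : Set A) {u : A} (hu : u ∈ unitary A) {p : A}
    (hp : p ∈ StarAlgebra.adjoin ℂ (S ∪ {u})) :
    ∃ C : ℝ, ∀ ε > 0, ∃ δ > 0, ∀ v ∈ unitary A, τ.n2 (v - u) < δ →
      ∃ p' ∈ StarAlgebra.adjoin ℂ (S ∪ {v}), ‖p'‖ ≤ C ∧ τ.n2 (p - p') < ε := by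
  induction hp using StarAlgebra.adjoin_induction with
  | mem x hx =>
    rcases hx with hx | hx
    · refine ⟨‖x‖, fun ε hε => ⟨1, one_pos, fun v _ _ => ⟨x, ?_, le_rfl, ?_⟩⟩⟩
      · exact StarAlgebra.subset_adjoin ℂ _ (Or.inl hx)
      · rwa [sub_self, τ.n2_zero]
    · rw [Set.mem_singleton_iff] at hx
      subst hx
      refine ⟨1, fun ε hε => ⟨ε, hε, fun v hv h => ⟨v, ?_, (τ.norm_unitary hv).le, ?_⟩⟩⟩
      · exact StarAlgebra.subset_adjoin ℂ _ (Or.inr rfl)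
      · rwa [τ.n2_sub_comm]
  | algebraMap c =>
    refine ⟨‖algebraMap ℂ A c‖, fun ε hε => ⟨1, one_pos, fun v _ _ => ⟨_, ?_, le_rfl, ?_⟩⟩⟩
    · exact StarSubalgebra.algebraMap_mem _ c
    · rwa [sub_self, τ.n2_zero]
  | add x y _ _ hx hy =>
    obtain ⟨C, hC⟩ := hx
    obtain ⟨C', hC'⟩ := hy
    refine ⟨C + C', fun ε hε => ?_⟩
    obtain ⟨δ, hδ, h⟩ := hC (ε / 2) (by positivity)
    obtain ⟨δ', hδ', h'⟩ := hC' (ε / 2) (by positivity)
    refine ⟨min δ δ', lt_min hδ hδ', fun v hv hvu => ?_⟩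
    obtain ⟨a, ha, ha1, ha2⟩ := h v hv (hvu.trans_le (min_le_left _ _))
    obtain ⟨b, hb, hb1, hb2⟩ := h' v hv (hvu.trans_le (min_le_right _ _))
    refine ⟨a + b, add_mem ha hb, (norm_add_le _ _).trans (add_le_add ha1 hb1), ?_⟩
    rw [add_sub_add_comm]
    exact (τ.n2_add_le _ _).trans_lt (by linarith)
  | mul x y _ _ hx hy =>
    obtain ⟨C, hC⟩ := hx
    obtain ⟨C', hC'⟩ := hy
    refine ⟨C * C', fun ε hε => ?_⟩
    obtain ⟨δ, hδ, h⟩ := hC (ε / 2 / (|C'| + 1)) (by positivity)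
    obtain ⟨δ', hδ', h'⟩ := hC' (ε / 2 / (‖x‖ + 1)) (by positivity)
    refine ⟨min δ δ', lt_min hδ hδ', fun v hv hvu => ?_⟩
    obtain ⟨a, ha, ha1, ha2⟩ := h v hv (hvu.trans_le (min_le_left _ _))
    obtain ⟨b, hb, hb1, hb2⟩ := h' v hv (hvu.trans_le (min_le_right _ _))
    refine ⟨a * b, mul_mem ha hb, (norm_mul_le _ _).trans
      (mul_le_mul ha1 hb1 (norm_nonneg _) ((norm_nonneg _).trans ha1)), ?_⟩
    have e : x * y - a * b = x * (y - b) + (x - a) * b := by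
      rw [mul_sub, sub_mul]; abel
    rw [lt_div_iff₀ (by positivity)] at ha2 hb2
    have h1 := τ.n2_mul_le_left x (y - b)
    have h2 := τ.n2_mul_le_right (x - a) b
    have h3 := τ.n2_nonneg (y - b)
    have h4 := τ.n2_nonneg (x - a)
    have h5 : τ.n2 (x - a) * ‖b‖ ≤ τ.n2 (x - a) * |C'| :=
      mul_le_mul_of_nonneg_left (hb1.trans (le_abs_self _)) h4
    rw [e]
    refine (τ.n2_add_le _ _).trans_lt ?_
    nlinarith
  | star x _ hx =>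
    obtain ⟨C, hC⟩ := hx
    refine ⟨C, fun ε hε => ?_⟩
    obtain ⟨δ, hδ, h⟩ := hC ε hε
    refine ⟨δ, hδ, fun v hv hvu => ?_⟩
    obtain ⟨a, ha, ha1, ha2⟩ := h v hv hvu
    exact ⟨star a, star_mem ha, by rwa [norm_star], by rwa [← star_sub, τ.n2_star]⟩

theorem approx_open (τ : Tr A) (S : Set A) {u : A} (hu : u ∈ unitary A) {p : A}
    (hp : p ∈ StarAlgebra.adjoin ℂ (S ∪ {u})) {ε : ℝ} (hε : 0 < ε) :
    ∃ δ > 0, ∀ v ∈ unitary A, τ.n2 (v - u) < δ →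
      ∃ p' ∈ StarAlgebra.adjoin ℂ (S ∪ {v}), τ.n2 (p - p') < ε := by
  obtain ⟨C, hC⟩ := approx_open_aux τ S hu hp
  obtain ⟨δ, hδ, h⟩ := hC ε hε
  refine ⟨δ, hδ, fun v hv hvu => ?_⟩
  obtain ⟨a, ha, -, ha2⟩ := h v hv hvu
  exact ⟨a, ha, ha2⟩

/-- orthogonal projection onto a line -/
theorem exists_orth_line (τ : Tr A) (x p : A) :
    ∃ c : ℂ, τ.φ (star p * (x - c • p)) = 0 ∧ τ.n2 (x - c • p) ≤ τ.n2 (x - p) := by
  have key : ∃ c : ℂ, τ.φ (star p * (x - c • p)) = 0 := by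
    by_cases h0 : τ.n2 p = 0
    · refine ⟨0, ?_⟩
      have := τ.cs p (x - (0 : ℂ) • p)
      rw [h0, zero_mul] at this
      exact norm_le_zero_iff.1 this
    · refine ⟨τ.φ (star p * x) / ((τ.n2 p ^ 2 : ℝ) : ℂ), ?_⟩
      have h1 : ((τ.n2 p ^ 2 : ℝ) : ℂ) ≠ 0 := by exact_mod_cast pow_ne_zero 2 h0
      rw [mul_sub, mul_smul_comm, map_sub, map_smul, τ.phi_star_mul_self, smul_eq_mul,
        div_mul_cancel₀ _ h1, sub_self]
  obtain ⟨c, hc⟩ := key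
  refine ⟨c, hc, ?_⟩
  have e : x - p = (c - 1) • p + (x - c • p) := by rw [sub_smul, one_smul]; abel
  have h := τ.n2_add_sq ((c - 1) • p) (x - c • p)
  rw [← e, star_smul, smul_mul_assoc, map_smul, hc, smul_zero, Complex.zero_re] at h
  refine le_of_sq_le_sq ?_ (τ.n2_nonneg _)
  nlinarith [sq_nonneg (τ.n2 ((c - 1) • p))]

theorem n2_sub_proj_line (τ : Tr A) {Z : A} (hZ : Z ∈ unitary A) (y : A) :
    τ.n2 (y - τ.φ (star Z * y) • Z) ^ 2 = τ.n2 y ^ 2 - ‖τ.φ (Z * star y)‖ ^ 2 := by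
  have e1 : τ.φ (star y * Z) = conj (τ.φ (star Z * y)) := by
    rw [← τ.star, star_mul, star_star]
  have e2 : ‖τ.φ (Z * star y)‖ = ‖τ.φ (star Z * y)‖ := by
    rw [τ.comm, e1, Complex.norm_conj]
  rw [τ.n2_sub_sq, τ.n2_smul, τ.n2_unitary hZ, mul_one, mul_smul_comm, map_smul, e1, e2,
    smul_eq_mul, Complex.mul_conj, Complex.ofReal_re, Complex.normSq_eq_norm_sq]
  ring

theorem Irr.approx_dense (h : Irr τ P) {u x : A} (hu : u ∈ unitary A) (hx : x ∈ unitary A)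
    {ε δ : ℝ} (hε : 0 < ε) (hδ : 0 < δ) :
    ∃ v ∈ unitary A, τ.n2 (v - u) < ε ∧
      ∃ p ∈ StarAlgebra.adjoin ℂ ((P : Set A) ∪ {v}), τ.n2 (x - p) < δ := by
  by_contra hcon
  push Not at hcon
  set E : Set ℝ := {t | ∃ v ∈ unitary A, τ.n2 (v - u) < ε ∧
    ∃ p ∈ StarAlgebra.adjoin ℂ ((P : Set A) ∪ {v}), t = τ.n2 (x - p)} with hE
  have h1E : (1 : ℝ) ∈ E := ⟨u, hu, by rwa [sub_self, τ.n2_zero], 0, zero_mem _, by
    rw [sub_zero, τ.n2_unitary hx]⟩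
  have hlow : δ ∈ lowerBounds E := by
    rintro _ ⟨v, hv, hvu, p, hp, rfl⟩
    exact hcon v hv hvu p hp
  have hbdd : BddBelow E := ⟨δ, hlow⟩
  set s := sInf E with hs
  have hs0 : 0 < s := hδ.trans_le (le_csInf ⟨1, h1E⟩ hlow)
  have hs1 : s ≤ 1 := csInf_le hbdd h1E
  have hsle : ∀ v ∈ unitary A, τ.n2 (v - u) < ε →
      ∀ p ∈ StarAlgebra.adjoin ℂ ((P : Set A) ∪ {v}), s ≤ τ.n2 (x - p) :=
    fun v hv hvu p hp => csInf_le hbdd ⟨v, hv, hvu, p, hp, rfl⟩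
  set γ := s ^ 3 / 500 with hγ
  have hγ0 : 0 < γ := by positivity
  have hlt : s < √(s ^ 2 + γ ^ 2 / 2) := Real.lt_sqrt_of_sq_lt (by linarith [pow_pos hγ0 2])
  obtain ⟨_, ⟨v₀, hv₀, hv₀u, p₀, hp₀, rfl⟩, hp₀lt⟩ := exists_lt_of_csInf_lt ⟨1, h1E⟩ hlt
  obtain ⟨c, hc1, hc2⟩ := exists_orth_line τ x p₀
  set y := x - c • p₀ with hy
  have hp₁ : c • p₀ ∈ StarAlgebra.adjoin ℂ ((P : Set A) ∪ {v₀}) := SMulMemClass.smul_mem c hp₀
  have hsa : s ≤ τ.n2 y := hsle v₀ hv₀ hv₀u _ hp₁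
  have ha2 : τ.n2 y ^ 2 < s ^ 2 + γ ^ 2 / 2 := by
    have := hc2.trans_lt hp₀lt
    exact (Real.lt_sqrt (τ.n2_nonneg _)).1 this
  have hxy : ‖τ.φ (x * star y)‖ = τ.n2 y ^ 2 := by
    have e : x = y + c • p₀ := by rw [hy]; abel
    have e1 : τ.φ (star y * p₀) = 0 := by
      have := τ.star (star p₀ * y)
      rw [star_mul, star_star, hc1, map_zero] at this
      exact this
    rw [τ.comm]
    conv_lhs => rw [e]
    rw [mul_add, mul_smul_comm, map_add, map_smul, e1, smul_zero, add_zero,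
      τ.phi_star_mul_self, Complex.norm_real, Real.norm_of_nonneg (sq_nonneg _)]
  set s' := √(s ^ 2 - γ ^ 2 / 2) with hs'
  have hs's : s' < s := (Real.sqrt_lt' hs0).2 (by linarith [pow_pos hγ0 2])
  obtain ⟨δ₁, hδ₁, hop⟩ := approx_open τ (P : Set A) hv₀ hp₁ (sub_pos.2 hs's)
  obtain ⟨v, hv, hvv, Z, hZ, hZu, hcorr⟩ := h.corr hv₀ hx y (κ := s / 100)
    (ρ := min γ (min δ₁ (ε - τ.n2 (v₀ - u)))) (by positivity) (by linarith)
    (lt_min hγ0 (lt_min hδ₁ (sub_pos.2 hv₀u)))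
  obtain ⟨p', hp', hpp⟩ := hop v hv (hvv.trans_le ((min_le_right _ _).trans (min_le_left _ _)))
  have hvu : τ.n2 (v - u) < ε := by
    have h1 := τ.n2_triangle v v₀ u
    have h2 := hvv.trans_le ((min_le_right _ _).trans (min_le_right _ _))
    linarith
  have hγle : γ ≤ ‖τ.φ (Z * star y)‖ := by
    refine le_trans ?_ hcorr
    rw [hxy]
    have h1 : min γ (min δ₁ (ε - τ.n2 (v₀ - u))) ≤ γ := min_le_left _ _
    have h2 : 2 * γ ≤ s / 100 / 2 * τ.n2 y ^ 2 - 10 * (s / 100) ^ 2 * τ.n2 y := by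
      have e : s / 100 / 2 * τ.n2 y ^ 2 - 10 * (s / 100) ^ 2 * τ.n2 y =
          s / 100 * (τ.n2 y * (τ.n2 y / 2 - s / 10)) := by ring
      have h3 : s * (s / 2 - s / 10) ≤ τ.n2 y * (τ.n2 y / 2 - s / 10) :=
        mul_le_mul hsa (by linarith) (by linarith) (τ.n2_nonneg _)
      have h4 := mul_le_mul_of_nonneg_left h3 (by positivity : 0 ≤ s / 100)
      rw [e, hγ]
      nlinarith
    linarith
  have hfin : τ.n2 (y - τ.φ (star Z * y) • Z) ≤ s' := by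
    apply Real.le_sqrt_of_sq_le
    rw [n2_sub_proj_line τ hZu]
    have := pow_le_pow_left₀ hγ0.le hγle 2
    linarith
  have hle := hsle v hv hvu (p' + τ.φ (star Z * y) • Z) (add_mem hp' (SMulMemClass.smul_mem _ hZ))
  have e : x - (p' + τ.φ (star Z * y) • Z) = (c • p₀ - p') + (y - τ.φ (star Z * y) • Z) := by
    rw [hy]; abel
  rw [e] at hle
  have := τ.n2_add_le (c • p₀ - p') (y - τ.φ (star Z * y) • Z)
  linarith

theorem Irr.exists_limit (h : Irr τ P) {u : A} (hu : u ∈ unitary A) {ε : ℝ} (hε : 0 < ε)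
    (x : ℕ → A) (hx : ∀ n, x n ∈ unitary A) (tol : ℕ → ℝ) (htol : ∀ n, 0 < tol n) :
    ∃ v ∈ unitary A, τ.n2 (v - u) < ε ∧
      ∀ n, ∃ p ∈ StarAlgebra.adjoin ℂ ((P : Set A) ∪ {v}), τ.n2 (x n - p) < tol n := by
  have step : ∀ (n : ℕ) (q : {q : A × ℝ // q.1 ∈ unitary A ∧ 0 < q.2}),
      ∃ q' : {q : A × ℝ // q.1 ∈ unitary A ∧ 0 < q.2},
        τ.n2 (q'.1.1 - q.1.1) ≤ q.1.2 / 2 ∧ q'.1.2 ≤ q.1.2 / 2 ∧
        ∀ w ∈ unitary A, τ.n2 (w - q'.1.1) ≤ q'.1.2 →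
          ∃ p ∈ StarAlgebra.adjoin ℂ ((P : Set A) ∪ {w}), τ.n2 (x n - p) < tol n := by
    intro n q
    obtain ⟨v, hv, hvq, p, hp, hxp⟩ := h.approx_dense q.2.1 (hx n) (half_pos q.2.2)
      (half_pos (htol n))
    obtain ⟨δ, hδ, hop⟩ := approx_open τ (P : Set A) hv hp (half_pos (htol n))
    refine ⟨⟨(v, min (q.1.2 / 2) (δ / 2)), hv, lt_min (half_pos q.2.2) (half_pos hδ)⟩, hvq.le,
      min_le_left _ _, fun w hw hwv => ?_⟩
    obtain ⟨p', hp', hpp⟩ := hop w hw (hwv.trans_lt ((min_le_right _ _).trans_lt (half_lt_self hδ)))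
    exact ⟨p', hp', (τ.n2_triangle _ p _).trans_lt (by linarith)⟩
  choose f hf1 hf2 hf3 using step
  let q : ℕ → {q : A × ℝ // q.1 ∈ unitary A ∧ 0 < q.2} := fun n =>
    Nat.rec ⟨(u, ε / 2), hu, half_pos hε⟩ (fun n q => f n q) n
  have hq : ∀ n, q (n + 1) = f n (q n) := fun n => rfl
  have hdist : ∀ n k, τ.n2 ((q (n + k)).1.1 - (q n).1.1) ≤ (q n).1.2 - (q (n + k)).1.2 := by
    intro n k
    induction k with
    | zero => simp [τ.n2_zero]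
    | succ k ih =>
      have h1 := τ.n2_triangle (q (n + k + 1)).1.1 (q (n + k)).1.1 (q n).1.1
      have h2 := hf1 (n + k) (q (n + k))
      have h3 := hf2 (n + k) (q (n + k))
      rw [← hq] at h2 h3
      rw [← add_assoc]
      linarith
  have hdist' : ∀ n m, n ≤ m → τ.n2 ((q m).1.1 - (q n).1.1) ≤ (q n).1.2 := by
    intro n m hnm
    obtain ⟨k, rfl⟩ := Nat.exists_eq_add_of_le hnm
    have := hdist n k
    linarith [(q (n + k)).2.2]
  have hr : ∀ n, (q n).1.2 ≤ ε / 2 * (1 / 2) ^ n := by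
    intro n
    induction n with
    | zero => simp [q]
    | succ n ih =>
      have h3 := hf2 n (q n)
      rw [← hq] at h3
      rw [pow_succ]
      linarith
  obtain ⟨v, -, -, hv⟩ := h.top (fun n => (q n).1.1) 1 (fun _ => trivial)
    (fun n => (τ.norm_unitary (q n).2.1).le) (by
      intro η hη
      obtain ⟨n₀, hn₀⟩ := exists_pow_lt_of_lt_one (div_pos hη hε) (by norm_num : (1 / 2 : ℝ) < 1)
      refine ⟨n₀, fun m hm n hn => ?_⟩
      have h1 := τ.n2_triangle (q m).1.1 (q n₀).1.1 (q n).1.1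
      have h2 := hdist' n₀ m hm
      have h3 := hdist' n₀ n hn
      rw [τ.n2_sub_comm] at h3
      have h4 := hr n₀
      rw [lt_div_iff₀ hε] at hn₀
      linarith)
  have hvu : v ∈ unitary A := mem_unitary_of_tendsto h.faithful (fun n => (q n).2.1) hv
  have hvq : ∀ n, τ.n2 (v - (q n).1.1) ≤ (q n).1.2 := by
    intro n
    have h1 : Tendsto (fun m => τ.n2 ((q m).1.1 - v) + (q n).1.2) atTop (𝓝 (0 + (q n).1.2)) :=
      hv.add_const _
    rw [zero_add] at h1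
    refine ge_of_tendsto h1 (eventually_atTop.2 ⟨n, fun m hm => ?_⟩)
    have h2 := τ.n2_triangle v (q m).1.1 (q n).1.1
    rw [τ.n2_sub_comm v (q m).1.1] at h2
    linarith [hdist' n m hm]
  refine ⟨v, hvu, (hvq 0).trans_lt (half_lt_self hε), fun n => ?_⟩
  exact hf3 n (q n) v hvu (hvq (n + 1))

theorem Irr.dense_gen (h : Irr τ P) (hs : Sep τ) {u : A} (hu : u ∈ unitary A) {ε : ℝ}
    (hε : 0 < ε) : ∃ v ∈ unitary A, τ.n2 (v - u) < ε ∧ Gen τ ((P : Set A) ∪ {v}) := by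
  obtain ⟨D, hDc, hD⟩ := hs
  have hdec : ∀ d : A, ∃ (c : Fin 4 → ℂ) (w : Fin 4 → A), (∀ i, w i ∈ unitary A) ∧
      d = ∑ i, c i • w i := by
    intro d
    obtain ⟨c, w, h1, h2⟩ := exists_unitary_decomp (N := (⊤ : StarSubalgebra ℂ A))
      (by simp) (x := d) trivial
    exact ⟨c, w, fun i => (h1 i).2, h2⟩
  choose c w hw hcw using hdec
  have : Countable D := hDc.to_subtype
  have : Nonempty D := by
    obtain ⟨d, hd, -⟩ := hD 0 1 one_pos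
    exact ⟨⟨d, hd⟩⟩
  obtain ⟨e, he⟩ := exists_surjective_nat (D × Fin 4 × ℕ)
  obtain ⟨v, hv, hvu, hgen⟩ := h.exists_limit hu hε (fun n => w (e n).1 (e n).2.1)
    (fun n => hw _ _) (fun n => 1 / (((e n).2.2 : ℝ) + 1)) (fun n => by positivity)
  refine ⟨v, hv, hvu, fun z => ?_⟩
  have h1 : ∀ d ∈ D, ∀ i, w d i ∈ clo τ (StarAlgebra.adjoin ℂ ((P : Set A) ∪ {v})) := by
    intro d hd i η hη
    obtain ⟨k, hk⟩ := exists_nat_one_div_lt hη
    obtain ⟨n, hn⟩ := he (⟨d, hd⟩, i, k)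
    obtain ⟨p, hp, hlt⟩ := hgen n
    simp only [hn] at hlt
    exact ⟨p, hp, hlt.trans hk⟩
  have h2 : ∀ d ∈ D, d ∈ clo τ (StarAlgebra.adjoin ℂ ((P : Set A) ∪ {v})) := by
    intro d hd
    rw [hcw d]
    exact sum_mem fun i _ => SMulMemClass.smul_mem _ (h1 d hd i)
  refine clo_clo _ (fun η hη => ?_)
  obtain ⟨d, hd, hlt⟩ := hD z η hη
  exact ⟨d, h2 d hd, hlt⟩

end Crest.Agent.R95
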