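import Crest.Agent.R95.Single
import Crest.Agent.R95.Conc

/-! # Row 95: passage to the concrete statements -/

set_option autoImplicit false

namespace Crest.Agent.R95

open Crest.OpAlg

variable {H : Type*} [NormedAddCommGroup H] [InnerProductSpace ℂ H] [CompleteSpace H]

theorem res_self (M : VonNeumannAlgebra H) : res M M = ⊤ :=
  eq_top_iff.2 fun x _ => x.2

theorem irr_res {P M : VonNeumannAlgebra H} (hPM : P ≤ M) (hP : IsTypeIIOneFactor P)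
    (hPM' : ∀ x ∈ M, (∀ y ∈ P, x * y = y * x) → ∃ c : ℂ, x = c • (1 : H →L[ℂ] H))
    {ξ : ℕ → H} (hξ : IsFaithfulTracialVectorState M ξ) {τ : Tr M.toStarSubalgebra}
    (hτ : ∀ x, τ.n2 x ^ 2 = traceNormSq ξ x) (hf : τ.Faithful) : Irr τ (res M P) := by
  have hirr : ∀ x : M.toStarSubalgebra, (∀ y ∈ res M P, x * y = y * x) →
      ∃ c : ℂ, x = c • (1 : M.toStarSubalgebra) := by
    intro x hx
    obtain ⟨c, hc⟩ := hPM' x x.2 fun y hy => congrArg Subtype.val (hx ⟨y, hPM hy⟩ hy)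
    exact ⟨c, Subtype.ext hc⟩
  have hF : Fac τ (res M P) := ⟨hf, isW_res hξ hτ P, fun x _ hx => hirr x hx⟩
  refine ⟨hf, res_self M ▸ isW_res hξ hτ M, isW_res hξ hτ P, hirr, hF.diffuse fun hfin => hP.2.1 ?_⟩
  let f : res M P →ₗ[ℂ] P.toStarSubalgebra :=
    { toFun := fun x => ⟨x.1.1, x.2⟩, map_add' := fun _ _ => rfl, map_smul' := fun _ _ => rfl }
  exact Module.Finite.of_surjective f fun y => ⟨⟨⟨y.1, hPM y.2⟩, y.2⟩, rfl⟩

theorem unitary_coe {M : VonNeumannAlgebra H} {u : M.toStarSubalgebra} :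
    u ∈ unitary M.toStarSubalgebra ↔ (u : H →L[ℂ] H) ∈ unitary (H →L[ℂ] H) := by
  simp only [Unitary.mem_iff, Subtype.ext_iff]
  rfl

theorem main1 [TopologicalSpace.SeparableSpace H] (M : VonNeumannAlgebra H)
    (hM : IsTypeIIOneFactor M) : ∃ x ∈ M, ∀ N : VonNeumannAlgebra H, x ∈ N → M ≤ N := by
  obtain ⟨ξ, hξ⟩ := hM.2.2
  obtain ⟨τ, -, hτ, hf⟩ := exists_tr hξ
  have h := irr_res le_rfl hM hM.1 hξ hτ hf
  obtain ⟨x, hx⟩ := single_gen h.to_top (sep_of_separable hξ hτ)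
  refine ⟨x, x.2, fun N hN => (gen_iff hξ hτ hf _).1 hx N ?_⟩
  rintro s rfl; exact hN

theorem main2 [TopologicalSpace.SeparableSpace H] (P M : VonNeumannAlgebra H) (hPM : P ≤ M)
    (hP : IsTypeIIOneFactor P)
    (hPM' : ∀ x ∈ M, (∀ y ∈ P, x * y = y * x) → ∃ c : ℂ, x = c • (1 : H →L[ℂ] H))
    (ξ : ℕ → H) (hξ : IsFaithfulTracialVectorState M ξ) :
    (∃ O : ℕ → Set (H →L[ℂ] H),
      (∀ k : ℕ, ∀ u ∈ M, u ∈ unitary (H →L[ℂ] H) → u ∈ O k → ∃ δ : ℝ, 0 < δ ∧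
        ∀ v ∈ M, v ∈ unitary (H →L[ℂ] H) → traceNormSq ξ (v - u) < δ → v ∈ O k) ∧
      (∀ u ∈ M, u ∈ unitary (H →L[ℂ] H) →
        ((∀ N : VonNeumannAlgebra H, P ≤ N → u ∈ N → M ≤ N) ↔ ∀ k : ℕ, u ∈ O k))) ∧
    (∀ u ∈ M, u ∈ unitary (H →L[ℂ] H) → ∀ ε : ℝ, 0 < ε →
      ∃ v ∈ M, v ∈ unitary (H →L[ℂ] H) ∧ (∀ N : VonNeumannAlgebra H, P ≤ N → v ∈ N → M ≤ N) ∧
        traceNormSq ξ (v - u) < ε) := by
  obtain ⟨τ, -, hτ, hf⟩ := exists_tr hξ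
  have h := irr_res hPM hP hPM' hξ hτ hf
  have hs := sep_of_separable hξ hτ
  have hgen : ∀ u : M.toStarSubalgebra, Gen τ ((res M P : Set M.toStarSubalgebra) ∪ {u}) ↔
      ∀ N : VonNeumannAlgebra H, P ≤ N → (u : H →L[ℂ] H) ∈ N → M ≤ N := by
    intro u
    rw [gen_iff hξ hτ hf]
    refine forall_congr' fun N => ⟨fun h1 h2 h3 => h1 ?_, fun h1 h2 => h1 ?_ ?_⟩
    · rintro s (hs | rfl)
      exacts [h2 hs, h3]
    · intro y hy; exact h2 ⟨y, hPM hy⟩ (Or.inl hy)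
    · exact h2 u (Or.inr rfl)
  refine ⟨?_, fun u hu hu' ε hε => ?_⟩
  · obtain ⟨D, hD, hDd⟩ := hs
    obtain ⟨d₀, hd₀, -⟩ := hDd 0 1 one_pos
    obtain ⟨d, rfl⟩ := hD.exists_eq_range ⟨d₀, hd₀⟩
    refine ⟨fun k => {T | ∃ hT : T ∈ M, ∃ p ∈ StarAlgebra.adjoin ℂ
      ((res M P : Set M.toStarSubalgebra) ∪ {⟨T, hT⟩}),
        τ.n2 (d k.unpair.1 - p) < 1 / (k.unpair.2 + 1)}, ?_, ?_⟩
    · rintro k u hu hu' ⟨_, p, hp, hlt⟩
      obtain ⟨δ, hδ, hv⟩ := approx_open τ (res M P : Set M.toStarSubalgebra)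
        (u := ⟨u, hu⟩) (unitary_coe.2 hu') hp (sub_pos.2 hlt)
      refine ⟨δ ^ 2, by positivity, fun v hvM hv' hlt' => ⟨hvM, ?_⟩⟩
      obtain ⟨p', hp', h2⟩ := hv ⟨v, hvM⟩ (unitary_coe.2 hv') (by
        refine lt_of_pow_lt_pow_left₀ 2 hδ.le ?_
        rw [hτ]; exact hlt')
      exact ⟨p', hp', by linarith [τ.n2_triangle (d k.unpair.1) p p']⟩
    · intro u hu _
      rw [← hgen ⟨u, hu⟩]
      refine ⟨fun hg k => ⟨hu, hg _ _ (by positivity)⟩, fun hk x ε hε => ?_⟩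
      obtain ⟨_, ⟨j, rfl⟩, hj⟩ := hDd x (ε / 2) (by positivity)
      obtain ⟨n, hn⟩ := exists_nat_one_div_lt (half_pos hε)
      obtain ⟨_, p, hp, hlt⟩ := hk (Nat.pair j n)
      simp only [Nat.unpair_pair] at hlt
      exact ⟨p, hp, by linarith [τ.n2_triangle x (d j) p]⟩
  · obtain ⟨v, hv, hlt, hg⟩ := h.dense_gen hs (u := ⟨u, hu⟩) (unitary_coe.2 hu') (Real.sqrt_pos.2 hε)
    refine ⟨v, v.2, unitary_coe.1 hv, (hgen v).1 hg, ?_⟩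
    have := hτ (v - ⟨u, hu⟩)
    rw [← Real.sq_sqrt hε.le]
    refine lt_of_eq_of_lt this.symm (pow_lt_pow_left₀ hlt (τ.n2_nonneg _) two_ne_zero)

end Crest.Agent.R95
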