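import Crest.Agent.R95.Corner

/-!
# Row 95: local quantization

`δ = τ e`; `exists_copies` gives `v 1, …, v m` under `f`.  We build `V = ∑ v i u i` (`u i` unitaries of
`e P e`) one index at a time, controlling the potential
`∑_X ‖V⋆ X V - s e‖₂² + ‖r X V‖₂² + ‖V⋆ X r‖₂²` (`r` the range projection of the remaining copies):
`u = ζ w` with `w` from `dixmier_corner` and `ζ ∈ {±1, ±i}` by averaging.
-/

set_option autoImplicit false

namespace Crest.Agent.R95

open Filter Topology Finset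
open scoped ComplexConjugate

universe u

variable {A : Type u} [CStarAlgebra A] {τ : Tr A} {P N : StarSubalgebra ℂ A}

namespace LQ

theorem par (τ : Tr A) (x y : A) :
    τ.n2 (x + y) ^ 2 + τ.n2 (x - y) ^ 2 = 2 * τ.n2 x ^ 2 + 2 * τ.n2 y ^ 2 := by
  rw [τ.n2_add_sq, τ.n2_sub_sq]; ring

theorem phase (τ : Tr A) (z a b : A) :
    ∑ k : Fin 4, τ.n2 (z + conj (Complex.I ^ (k : ℕ)) • a + Complex.I ^ (k : ℕ) • b) ^ 2 =
      4 * (τ.n2 z ^ 2 + τ.n2 a ^ 2 + τ.n2 b ^ 2) := by
  have h1 := par τ z (a + b)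
  have h2 := par τ z (Complex.I • (b - a))
  have h3 := par τ b a
  rw [τ.n2_smul, Complex.norm_I, one_mul] at h2
  rw [add_comm b] at h3
  have e0 : z + conj (Complex.I ^ 0) • a + Complex.I ^ 0 • b = z + (a + b) := by simp [add_assoc]
  have e1 : z + conj (Complex.I ^ 1) • a + Complex.I ^ 1 • b = z + Complex.I • (b - a) := by
    simp [smul_sub]; abel
  have e2 : z + conj (Complex.I ^ 2) • a + Complex.I ^ 2 • b = z - (a + b) := by
    simp; abel
  have e3 : z + conj (Complex.I ^ 3) • a + Complex.I ^ 3 • b = z - Complex.I • (b - a) := by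
    simp [smul_sub]; abel
  simp only [Fin.sum_univ_four, Fin.val_zero, Fin.val_one, Fin.val_two, show ((3 : Fin 4) : ℕ) = 3
    from rfl, e0, e1, e2, e3]
  linarith

theorem norm_le_one {e v : A} (pe : IsStarProjection e) (hv : star v * v = e) : ‖v‖ ≤ 1 := by
  have h := pe.norm_le
  rw [← hv, CStarRing.norm_star_mul_self] at h
  nlinarith [norm_nonneg v]

theorem mul_eq {e v : A} (pe : IsStarProjection e) (hv : star v * v = e) : v * e = v := by
  have : star (v * e - v) * (v * e - v) = 0 := by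
    simp only [star_sub, star_mul, pe.isSelfAdjoint.star_eq, sub_mul, mul_sub, mul_assoc, hv,
      ← mul_assoc (star v) v, pe.isIdempotentElem.eq, sub_self]
  exact sub_eq_zero.1 ((CStarRing.star_mul_self_eq_zero_iff _).1 this)

theorem n2_eq {e v : A} (pe : IsStarProjection e) (hv : star v * v = e) : τ.n2 v = τ.n2 e := by
  simp only [Tr.n2, hv, pe.isSelfAdjoint.star_eq, pe.isIdempotentElem.eq]

theorem n2_split {e v r : A} (pe : IsStarProjection e) (hv : star v * v = e)
    (pr : IsStarProjection r) (hr : r * v = 0) (y : A) :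
    τ.n2 ((r + v * star v) * y) ^ 2 = τ.n2 (r * y) ^ 2 + τ.n2 (star v * y) ^ 2 := by
  rw [add_mul, τ.n2_add_sq, star_mul, pr.isSelfAdjoint.star_eq, mul_assoc, mul_assoc v,
    ← mul_assoc r, hr, τ.n2_sq (v * _), τ.n2_sq (star v * _)]
  simp only [star_mul, star_star, mul_assoc, ← mul_assoc (star v) v, hv, ← mul_assoc v e,
    mul_eq pe hv, zero_mul, mul_zero, map_zero, Complex.zero_re, add_zero]

/-- the potential -/
noncomputable def pot (τ : Tr A) {ι : Type*} [Fintype ι] (X : ι → A) (e V r : A) (s : ι → ℂ) : ℝ :=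
  ∑ i, (τ.n2 (star V * X i * V - s i • e) ^ 2 + τ.n2 (r * X i * V) ^ 2 +
    τ.n2 (star V * X i * r) ^ 2)

theorem step (h : Irr τ P) {ι : Type*} [Fintype ι] {X : ι → A} (hX : ∀ i, ‖X i‖ ≤ 2) {e v r : A}
    (he : e ∈ P) (pe : IsStarProjection e) (h0 : e ≠ 0) (hv : star v * v = e)
    (pr : IsStarProjection r) (hr : r * v = 0) (V : A) (s : ι → ℂ) :
    ∃ u ∈ P, star u * u = e ∧ e * u = u ∧
      pot τ X e (v * u + V) r (fun i => τ.φ (star v * X i * v) / τ.φ e + s i) ≤
        pot τ X e V (r + v * star v) s + (24 * Fintype.card ι + 2) * τ.n2 e ^ 2 := by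
  have hδ := τ.proj_pos h.faithful pe h0
  have hδ' : τ.φ e ≠ 0 := fun h => by simp [h] at hδ
  have hve := mul_eq pe hv
  have hev : e * star v = star v := by
    simpa [pe.isSelfAdjoint.star_eq] using congrArg star hve
  have hv1 := norm_le_one pe hv
  set t : ι → ℂ := fun i => τ.φ (star v * X i * v) / τ.φ e with ht
  set x : ι → A := fun i => star v * X i * v - t i • e with hx
  have hxe : ∀ i, e * x i * e = x i := fun i => by
    simp only [hx, mul_sub, sub_mul, mul_smul_comm, smul_mul_assoc, pe.isIdempotentElem.eq,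
      mul_assoc, hve, ← mul_assoc e (star v), hev]
  obtain ⟨w, hw, w1, w2, w3⟩ := h.dixmier_corner he pe h0 x (fun i => star V * X i * V - s i • e)
    (fun i => by simp [hx, ht, hδ']) hxe hδ
  have hw1 := norm_le_one pe w1
  have hew : e * w = w := by
    simpa [pe.isSelfAdjoint.star_eq] using congrArg star (mul_eq pe (v := star w) (by simpa))
  have n0 : ∀ i, ‖star v * X i * v‖ ≤ 2 := fun i => by
    refine (norm_mul₃_le).trans ?_
    rw [norm_star]
    have := hX i
    calc ‖v‖ * ‖X i‖ * ‖v‖ ≤ 1 * 2 * 1 := by gcongr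
      _ = _ := by norm_num
  have n1 : ∀ i, τ.n2 (star w * x i * w) ≤ 4 * τ.n2 e := fun i => by
    have a1 : ‖t i‖ ≤ 2 := by
      have := τ.norm_phi_proj_mul pe (star v * X i * v)
      rw [← mul_assoc, ← mul_assoc, hev] at this
      rw [ht, norm_div, τ.phi_proj pe, Complex.norm_real, Real.norm_of_nonneg hδ.le,
        div_le_iff₀ hδ]
      nlinarith [n0 i]
    have a2 : ‖x i‖ ≤ 4 := by
      refine (norm_sub_le _ _).trans ?_
      rw [norm_smul]
      nlinarith [n0 i, pe.norm_le, norm_nonneg (t i), norm_nonneg e]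
    rw [← n2_eq pe w1]
    refine (τ.n2_mul_le_left _ _).trans (mul_le_mul_of_nonneg_right ?_ (τ.n2_nonneg _))
    refine (norm_mul_le _ _).trans ?_
    rw [norm_star]
    nlinarith [norm_nonneg w, norm_nonneg (x i)]
  have hvw : star (v * w) * (v * w) = e := by
    rw [star_mul, mul_assoc, ← mul_assoc (star v), hv, hew, w1]
  have n2 : ∀ i, τ.n2 (r * X i * (v * w)) ≤ 2 * τ.n2 e := fun i => by
    refine (τ.n2_mul_le_left _ _).trans ?_
    rw [n2_eq pe hvw]
    refine mul_le_mul_of_nonneg_right ((norm_mul_le _ _).trans ?_) (τ.n2_nonneg _)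
    nlinarith [pr.norm_le, hX i, norm_nonneg r, norm_nonneg (X i)]
  have n3 : ∀ i, τ.n2 (star (v * w) * (X i * r)) ≤ 2 * τ.n2 e := fun i => by
    refine (τ.n2_mul_le_right _ _).trans ?_
    rw [τ.n2_star, n2_eq pe hvw, mul_comm]
    refine mul_le_mul_of_nonneg_right ((norm_mul_le _ _).trans ?_) (τ.n2_nonneg _)
    nlinarith [pr.norm_le, hX i, norm_nonneg r, norm_nonneg (X i)]
  have hI : ∀ k : ℕ, conj (Complex.I ^ k) * Complex.I ^ k = 1 := fun k => by
    rw [Complex.conj_mul']; simp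
  have key : ∑ k : Fin 4, pot τ X e (v * (Complex.I ^ (k : ℕ) • w) + V) r (fun i => t i + s i) ≤
      ∑ _k : Fin 4, (pot τ X e V (r + v * star v) s + (24 * Fintype.card ι + 2) * τ.n2 e ^ 2) := by
    have e1 : ∀ (i : ι) (ζ : ℂ), conj ζ * ζ = 1 →
        star (v * (ζ • w) + V) * X i * (v * (ζ • w) + V) - (t i + s i) • e =
        (star V * X i * V - s i • e + star w * x i * w) + conj ζ • (star w * (star v * (X i * V))) +
          ζ • (star V * X i * v * w) := by
      intro i ζ hζ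
      simp only [hx, star_add, star_mul, star_smul, mul_add, add_mul, mul_sub, sub_mul,
        mul_smul_comm, smul_mul_assoc, smul_smul, mul_assoc, hew, w1, add_smul, RCLike.star_def,
        mul_comm ζ, hζ, one_smul, smul_add]
      abel
    have e2 : ∀ (i : ι) (ζ : ℂ), r * X i * (v * (ζ • w) + V) =
        r * X i * V + conj ζ • (0 : A) + ζ • (r * X i * (v * w)) := by
      intro i ζ
      simp only [mul_add, mul_smul_comm, smul_zero]
      abel
    have e3 : ∀ (i : ι) (ζ : ℂ), star (v * (ζ • w) + V) * X i * r =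
        star V * X i * r + conj ζ • (star (v * w) * (X i * r)) + ζ • (0 : A) := by
      intro i ζ
      simp only [star_add, star_mul, star_smul, add_mul, smul_mul_assoc, smul_zero, mul_assoc,
        RCLike.star_def]
      abel
    simp only [pot, e1 _ _ (hI _), e2, e3]
    rw [sum_comm]
    simp only [sum_add_distrib, phase, sum_const, card_univ, Fintype.card_fin, nsmul_eq_mul,
      Nat.cast_ofNat, τ.n2_zero, τ.n2_add_sq (_ - _), ← mul_sum]
    have b1 : ∀ i, τ.n2 (star w * (star v * (X i * V))) ^ 2 + τ.n2 (r * X i * V) ^ 2 ≤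
        τ.n2 ((r + v * star v) * X i * V) ^ 2 := fun i => by
      rw [mul_assoc, mul_assoc, n2_split pe hv pr hr, add_comm]
      gcongr
      · exact τ.n2_nonneg _
      · exact (τ.n2_mul_le_left _ _).trans
          (mul_le_of_le_one_left (τ.n2_nonneg _) (by rwa [norm_star]))
    have b2 : ∀ i, τ.n2 (star V * X i * v * w) ^ 2 + τ.n2 (star V * X i * r) ^ 2 ≤
        τ.n2 (star V * X i * (r + v * star v)) ^ 2 := fun i => by
      have := n2_split (τ := τ) pe hv pr hr (star (star V * X i))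
      rw [← τ.n2_star, ← τ.n2_star (r * _), ← τ.n2_star (star v * _)] at this
      simp only [star_mul (_ + _), star_mul r, star_mul (star v), star_star, star_add, star_mul v,
        pr.isSelfAdjoint.star_eq] at this
      rw [this, add_comm]
      gcongr
      · exact τ.n2_nonneg _
      · exact (τ.n2_mul_le_right _ _).trans (mul_le_of_le_one_right (τ.n2_nonneg _) hw1)
    have b3 : ∀ i, τ.n2 (star w * x i * w) ^ 2 + τ.n2 (r * X i * (v * w)) ^ 2 +
        τ.n2 (star (v * w) * (X i * r)) ^ 2 ≤ 24 * τ.n2 e ^ 2 := fun i => by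
      have c1 := pow_le_pow_left₀ (τ.n2_nonneg _) (n1 i) 2
      have c2 := pow_le_pow_left₀ (τ.n2_nonneg _) (n2 i) 2
      have c3 := pow_le_pow_left₀ (τ.n2_nonneg _) (n3 i) 2
      linarith [mul_pow 4 (τ.n2 e) 2, mul_pow 2 (τ.n2 e) 2]
    have c1 := sum_le_sum fun i (_ : i ∈ univ) => b1 i
    have c2 := sum_le_sum fun i (_ : i ∈ univ) => b2 i
    have c3 := sum_le_sum fun i (_ : i ∈ univ) => b3 i
    simp only [sum_add_distrib, sum_const, card_univ, nsmul_eq_mul] at c1 c2 c3
    rw [← τ.n2_proj_sq pe] at w3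
    simp only [ne_eq, OfNat.ofNat_ne_zero, not_false_eq_true, zero_pow, mul_zero]
    linarith
  obtain ⟨k, -, hk⟩ := exists_le_of_sum_le univ_nonempty key
  refine ⟨_, P.smul_mem hw _, ?_, by rw [mul_smul_comm, hew], hk⟩
  rw [star_smul, smul_mul_smul_comm, RCLike.star_def, hI, w1, one_smul]

theorem build (h : Irr τ P) {ι : Type*} [Fintype ι] {X : ι → A} (hX : ∀ i, ‖X i‖ ≤ 2) {e : A}
    (he : e ∈ P) (pe : IsStarProjection e) (h0 : e ≠ 0) (m : ℕ) :
    ∀ (v : Fin m → A) (r : A), (∀ i j, star (v i) * v j = if i = j then e else 0) →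
      IsStarProjection r → (∀ i, r * v i = 0) →
      ∃ u : Fin m → A, (∀ j, u j ∈ P ∧ star (u j) * u j = e ∧ e * u j = u j) ∧
        pot τ X e (∑ j, v j * u j) r (fun i => ∑ j, τ.φ (star (v j) * X i * v j) / τ.φ e) ≤
          m * ((24 * Fintype.card ι + 2) * τ.n2 e ^ 2) := by
  induction m with
  | zero => exact fun v r _ _ _ => ⟨Fin.elim0, fun j => j.elim0, by simp [pot, τ.n2_zero]⟩
  | succ m ih =>
    intro v r hv pr hr
    have hv0 : star (v 0) * v 0 = e := by simpa using hv 0 0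
    have pv : IsStarProjection (v 0 * star (v 0)) :=
      ⟨by rw [IsIdempotentElem, mul_assoc, ← mul_assoc (star (v 0)), hv0, ← mul_assoc,
        mul_eq pe hv0], IsSelfAdjoint.mul_star_self _⟩
    obtain ⟨u, hu, hp⟩ := ih (fun j => v j.succ) (r + v 0 * star (v 0))
      (fun i j => by simpa using hv i.succ j.succ)
      (pr.add pv (by rw [← mul_assoc, hr, zero_mul]))
      (fun j => by rw [add_mul, hr, mul_assoc, hv, if_neg (Fin.succ_ne_zero j).symm]; simp)
    obtain ⟨u₀, p1, p2, p3, p4⟩ := step h hX he pe h0 hv0 pr (hr 0) (∑ j, v j.succ * u j)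
      fun i => ∑ j : Fin m, τ.φ (star (v j.succ) * X i * v j.succ) / τ.φ e
    refine ⟨Fin.cons u₀ u, Fin.cases ⟨p1, p2, p3⟩ hu, ?_⟩
    simp only [Fin.sum_univ_succ, Fin.cons_zero, Fin.cons_succ]
    push_cast
    linarith

end LQ

theorem Irr.lq (h : Irr τ P) (ι : Type*) [Fintype ι] {η θ : ℝ} (hη : 0 < η) (hθ : 0 < θ) :
    ∃ δ₀ > 0, ∀ e ∈ P, IsStarProjection e → e ≠ 0 → (τ.φ e).re ≤ δ₀ →
      ∀ f ∈ P, IsStarProjection f → η ≤ (τ.φ f).re → ∀ X : ι → A, (∀ i, ‖X i‖ ≤ 1) →
        ∃ q ∈ P, IsStarProjection q ∧ f * q = q ∧ τ.φ q = τ.φ e ∧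
          ∀ i, τ.n2 (q * X i * q - (τ.φ (f * X i) / τ.φ f) • q) ≤ θ * τ.n2 q := by
  set K : ℝ := 24 * Fintype.card ι + 2 with hK
  have hK0 : 0 < K := by positivity
  set M : ℝ := 4 * K / θ ^ 2 + 4 / θ with hM
  have hM0 : 0 < M := by positivity
  refine ⟨η / (M + 1), by positivity, fun e he pe h0 hδ f hf pf hη' X hX => ?_⟩
  obtain ⟨m, v, hvP, hv, hfv, hm⟩ := h.fac.exists_copies he hf pe pf h0
  have hδ0 := τ.proj_pos h.faithful pe h0
  have hf0 : 0 < (τ.φ f).re := hη.trans_le hη'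
  have hf' : τ.φ f ≠ 0 := fun h => by simp [h] at hf0
  have hMm : M < m := by
    rw [le_div_iff₀ (by positivity)] at hδ
    nlinarith
  have hm0 : (0 : ℝ) < m := hM0.trans hMm
  set c : ι → ℂ := fun i => τ.φ (f * X i) / τ.φ f with hc
  set Y : ι → A := fun i => X i - c i • 1 with hY
  have hY2 : ∀ i, ‖Y i‖ ≤ 2 := fun i => by
    have a1 : ‖c i‖ ≤ 1 := by
      rw [hc, norm_div, τ.phi_proj pf, Complex.norm_real, Real.norm_of_nonneg hf0.le,
        div_le_one hf0]
      nlinarith [τ.norm_phi_proj_mul pf (X i), hX i]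
    refine (norm_sub_le _ _).trans ?_
    rw [norm_smul, τ.norm_unitary (one_mem _)]
    linarith [hX i]
  obtain ⟨u, hu, hp⟩ := LQ.build h hY2 he pe h0 m v 0 hv (.zero A) fun _ => zero_mul _
  have hvv : ∀ j, star (v j) * v j = e := fun j => by simpa using hv j j
  set g : A := ∑ j, v j * star (v j) with hg
  have hgv : ∀ j, g * v j = v j := fun j => by
    simp [hg, sum_mul, mul_assoc, hv, LQ.mul_eq pe (hvv j)]
  have pg : IsStarProjection g :=
    ⟨by rw [IsIdempotentElem]; conv_lhs => rw [hg, mul_sum]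
        simp only [← mul_assoc, ← hg, hgv],
      by simp [IsSelfAdjoint, hg, star_sum]⟩
  have pfg : IsStarProjection (f - g) :=
    pg.sub_of_mul_eq_right pf (by simp only [hg, mul_sum, ← mul_assoc, hfv])
  have tg : (τ.φ (f - g)).re ≤ (τ.φ e).re := by
    simp only [hg, map_sub, map_sum, τ.comm (v _), hvv, sum_const, card_univ, Fintype.card_fin,
      nsmul_eq_mul, Complex.sub_re, Complex.mul_re, Complex.natCast_re, Complex.natCast_im]
    linarith
  have hs : ∀ i, ‖∑ j, τ.φ (star (v j) * Y i * v j) / τ.φ e‖ ≤ 2 := fun i => by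
    have a1 : ∑ j, τ.φ (star (v j) * Y i * v j) = -τ.φ ((f - g) * Y i) := by
      simp only [τ.comm _ (v _), ← mul_assoc, ← map_sum, ← sum_mul, ← hg, sub_mul, map_sub]
      simp [hY, hc, mul_sub, hf']
    rw [← sum_div, a1, norm_div, norm_neg, τ.phi_proj pe, Complex.norm_real,
      Real.norm_of_nonneg hδ0.le, div_le_iff₀ hδ0]
    refine (τ.norm_phi_proj_mul pfg _).trans ?_
    rw [mul_comm 2]
    exact mul_le_mul tg (hY2 i) (norm_nonneg _) hδ0.le
  set V : A := ∑ j, v j * u j with hV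
  have hVV : star V * V = (m : ℂ) • e := by
    simp only [hV, star_sum, star_mul, sum_mul, mul_sum, mul_assoc, ← mul_assoc (star (v _)), hv,
      ite_mul, zero_mul, mul_ite, mul_zero, sum_ite_eq', mem_univ, if_true, (hu _).2.2, (hu _).2.1]
    simp [Nat.cast_smul_eq_nsmul]
  set a : ℂ := (((√m)⁻¹ : ℝ) : ℂ) with ha
  have haa : conj a * a = ((m : ℝ)⁻¹ : ℝ) := by
    rw [ha, Complex.conj_ofReal, ← Complex.ofReal_mul, ← mul_inv, Real.mul_self_sqrt hm0.le]
  set W : A := a • V with hW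
  have hWW : star W * W = e := by
    rw [hW, star_smul, smul_mul_smul_comm, RCLike.star_def, haa, hVV, smul_smul]
    have : (m : ℂ) ≠ 0 := by exact_mod_cast hm0.ne'
    simp [this]
  have hWP : W ∈ P := P.smul_mem (P.sum_mem fun j _ => P.mul_mem (hvP j) (hu j).1) _
  have hW1 := LQ.norm_le_one pe hWW
  have pq : IsStarProjection (W * star W) :=
    ⟨by rw [IsIdempotentElem, mul_assoc, ← mul_assoc (star W), hWW, ← mul_assoc,
      LQ.mul_eq pe hWW], IsSelfAdjoint.mul_star_self _⟩
  have tq : τ.φ (W * star W) = τ.φ e := by rw [τ.comm, hWW]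
  refine ⟨W * star W, mul_mem hWP (star_mem hWP), pq, ?_, tq, fun i => ?_⟩
  · simp only [← mul_assoc, hW, hV, mul_smul_comm, mul_sum, hfv]
  have e1 : W * star W * X i * (W * star W) - c i • (W * star W) =
      W * ((((m : ℝ)⁻¹ : ℝ) : ℂ) • (star V * Y i * V)) * star W := by
    have : W * star W * Y i * (W * star W) = W * (star W * Y i * W) * star W := by
      simp only [mul_assoc]
    have h2 : star W * Y i * W = (conj a * a) • (star V * Y i * V) := by
      rw [hW, star_smul, smul_mul_assoc, smul_mul_smul_comm, RCLike.star_def]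
    rw [← haa, ← h2, ← this]
    simp only [hY, mul_sub, sub_mul, mul_smul_comm, smul_mul_assoc, mul_one,
      pq.isIdempotentElem.eq]
  have e2 : τ.n2 (W * star W) = τ.n2 e := by
    rw [← sq_eq_sq₀ (τ.n2_nonneg _) (τ.n2_nonneg _), τ.n2_proj_sq pq, τ.n2_proj_sq pe, tq]
  have e3 : τ.n2 (star V * Y i * V - (∑ j, τ.φ (star (v j) * Y i * v j) / τ.φ e) • e) ≤
      θ / 2 * m * τ.n2 e := by
    refine le_of_sq_le_sq ?_ (mul_nonneg (by positivity) (τ.n2_nonneg _))
    refine le_trans ?_ ((single_le_sum (fun i _ => by positivity) (mem_univ i)).trans (hp.trans ?_))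
    · nlinarith [sq_nonneg (τ.n2 (0 * Y i * V)), sq_nonneg (τ.n2 (star V * Y i * 0))]
    · have : 4 * K / θ ^ 2 ≤ m := by linarith [show 0 < 4 / θ by positivity]
      rw [div_le_iff₀ (by positivity)] at this
      rw [← mul_assoc, mul_pow]
      exact mul_le_mul_of_nonneg_right (by nlinarith) (sq_nonneg _)
  have e4 : τ.n2 (star V * Y i * V) ≤ θ * m * τ.n2 e := by
    have b1 := τ.n2_add_le (star V * Y i * V - (∑ j, τ.φ (star (v j) * Y i * v j) / τ.φ e) • e)
      ((∑ j, τ.φ (star (v j) * Y i * v j) / τ.φ e) • e)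
    rw [sub_add_cancel, τ.n2_smul] at b1
    have b2 : 4 / θ ≤ m := by linarith [show 0 < 4 * K / θ ^ 2 by positivity]
    rw [div_le_iff₀ hθ] at b2
    nlinarith [hs i, τ.n2_nonneg e]
  rw [e1, e2]
  refine (τ.n2_mul_le_right _ _).trans ((mul_le_of_le_one_right (τ.n2_nonneg _)
    (by rwa [norm_star])).trans ((τ.n2_mul_le_left _ _).trans
    ((mul_le_of_le_one_left (τ.n2_nonneg _) hW1).trans ?_)))
  rw [τ.n2_smul, Complex.norm_real, Real.norm_of_nonneg (by positivity), inv_mul_le_iff₀ hm0]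
  linarith

end Crest.Agent.R95
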