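import Crest.Agent.R95.W

/-!
# Row 95: comparison of projections in a finite factor

PLANS.
* Key step: for nonzero projections `e', g' ∈ P` there is a nonzero partial isometry `w ∈ P` with
  `w e' = w`, `g' w = w`.  Indeed `g' P e' ≠ 0` (otherwise the kernel projection `s` of all of
  `g' P` ... simpler: let `s` be a projection in `P` of maximal trace with `g' y s = 0` for all
  `y ∈ P` [`exists_maximal`, or argue with `exists_ker` applied to sums]; it is invariant under the
  unitaries of `P`, hence central, hence `0` or `1`).  One way: consider the set `J` of `z ∈ P` with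
  `g' y z = 0 ∀ y ∈ P` (a two-sided ideal, weakly closed); for projections `s₁, s₂ ∈ J` the support
  `1 - ker (s₁ + s₂)` is in `J` and dominates both; a projection `s ∈ J` of maximal trace
  satisfies `u s u⋆ ≤ s` for every unitary `u`, so it is central.
  Given `x = g' y e' ≠ 0`, put `a = x⋆x`, `0 < c < ‖a‖`, `s` = kernel projection of
  `cfc (fun t => max (c - t) 0) a` (nonzero because `cfc (fun t => max (t - c) 0) a ≠ 0` is killed),
  `w = x * cfc (fun t => (max t c)^(-1/2)) a * s`; then `w⋆ w = s`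
  (`t / max t c - 1 = -max (c - t) 0 / c`), and `s ≤ e'`.
* `comparison`: maximal partial isometry `v` with `v e = v`, `g v = v` for the order
  `v ≤ v' :⇔ v' (v⋆v) = v`, potential `τ (v⋆v)`; chains are `‖·‖₂`-Cauchy.  At the maximum
  `e - v⋆v = 0` or `g - v v⋆ = 0`, and traces decide.
* `diffuse`: otherwise take a nonzero projection `e` with `τ e < 2 inf`; it is minimal, so
  `e P e = ℂ e` (a non-scalar self-adjoint element of `e P e` yields a proper subprojection via
  `exists_ker` and cfc), and `exists_copies` with `f = 1` has zero remainder: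
  `P = span {v i v j⋆}`.
* `exists_subproj`: maximal subprojection of trace `≤ t`; add a small projection by `comparison`.
-/

set_option autoImplicit false

namespace Crest.Agent.R95

open Filter Topology Finset
open scoped ComplexConjugate

universe u

variable {A : Type u} [CStarAlgebra A] {τ : Tr A} {P N : StarSubalgebra ℂ A}

namespace ProjAux

/-- algebraic partial isometries -/
def PI (v : A) : Prop := v * star v * v = v

theorem PI.star {v : A} (h : PI v) : PI (star v) := by
  unfold PI at *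
  have := congrArg Star.star h
  simpa [mul_assoc] using this

theorem PI.left {v : A} (h : PI v) : IsStarProjection (Star.star v * v) :=
  ⟨by unfold PI at h; rw [IsIdempotentElem, mul_assoc, ← mul_assoc v, h],
    IsSelfAdjoint.star_mul_self v⟩

theorem PI.right {v : A} (h : PI v) : IsStarProjection (v * Star.star v) := by
  simpa using h.star.left

theorem PI.mul_left {v : A} (h : PI v) : v * (Star.star v * v) = v := by
  rw [← mul_assoc]; exact h

theorem PI.of_left {v : A} (h : IsStarProjection (Star.star v * v)) : PI v := by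
  have h1 := h.isIdempotentElem.eq
  have : Star.star (v * Star.star v * v - v) * (v * Star.star v * v - v) = 0 := by
    have e : Star.star (v * Star.star v * v - v) * (v * Star.star v * v - v) =
        (Star.star v * v) * (Star.star v * v) * (Star.star v * v) -
          (Star.star v * v) * (Star.star v * v) - (Star.star v * v) * (Star.star v * v) +
          Star.star v * v := by
      simp only [star_sub, star_mul, star_star]; noncomm_ring
    rw [e, h1, h1]; simp
  exact sub_eq_zero.mp (CStarRing.star_mul_self_eq_zero_iff _ |>.mp this)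

theorem PI.norm_le {v : A} (h : PI v) : ‖v‖ ≤ 1 := by
  have := h.left.norm_le
  rw [CStarRing.norm_star_mul_self] at this
  nlinarith [norm_nonneg v]

theorem PI.of_proj {e : A} (h : IsStarProjection e) : PI e := by
  unfold PI; rw [h.isSelfAdjoint.star_eq, h.isIdempotentElem.eq, h.isIdempotentElem.eq]

theorem proj_eq_zero (hτ : τ.Faithful) {e : A} (he : IsStarProjection e) (h : (τ.φ e).re ≤ 0) :
    e = 0 := by
  by_contra h0
  exact absurd (τ.proj_pos hτ he h0) (not_lt.mpr h)

theorem star_eq_of {x y z : A} (h : x * y = z) : star y * star x = star z := by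
  rw [← h, star_mul]

/-- `p q = p` for projections gives `q p = p` -/
theorem proj_comm {p q : A} (hp : IsStarProjection p) (hq : IsStarProjection q) (h : p * q = p) :
    q * p = p := by
  have := star_eq_of h
  rwa [hp.isSelfAdjoint.star_eq, hq.isSelfAdjoint.star_eq] at this

theorem proj_comm0 {p q : A} (hp : IsStarProjection p) (hq : IsStarProjection q) (h : p * q = 0) :
    q * p = 0 := by
  have := star_eq_of h
  rwa [hp.isSelfAdjoint.star_eq, hq.isSelfAdjoint.star_eq, star_zero] at this

theorem proj_mono {p q : A} (hp : IsStarProjection p) (hq : IsStarProjection q) (h : q * p = p) :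
    (τ.φ p).re ≤ (τ.φ q).re := by
  have := τ.proj_nonneg (hp.sub_of_mul_eq_right hq h)
  rw [map_sub, Complex.sub_re] at this
  linarith

theorem proj_eq_of_le (hτ : τ.Faithful) {p q : A} (hp : IsStarProjection p)
    (hq : IsStarProjection q) (h : q * p = p) (hle : (τ.φ q).re ≤ (τ.φ p).re) : q = p := by
  have := proj_eq_zero hτ (hp.sub_of_mul_eq_right hq h) (by
    rw [map_sub, Complex.sub_re]; linarith)
  exact sub_eq_zero.mp this

/-- the order on partial isometries -/
def Le (v w : A) : Prop := w * (star v * v) = v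

theorem Le.proj {v w : A} (hv : PI v) (hw : PI w) (h : Le v w) :
    (star w * w) * (star v * v) = star v * v := by
  unfold Le at h
  set p := star v * v with hp
  set q := star w * w with hq
  have pp := hv.left
  have pq := hw.left
  rw [← hp] at pp
  rw [← hq] at pq
  have h1 : p * q * p = p := by
    have : star v * v = star (w * p) * (w * p) := by rw [h]
    rw [star_mul, pp.isSelfAdjoint.star_eq] at this
    calc p * q * p = p * star w * (w * p) := by rw [hq]; noncomm_ring
      _ = p := by rw [← this]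
  have : star (p - q * p) * (p - q * p) = 0 := by
    have e : star (p - q * p) * (p - q * p) = p * p - p * q * p - p * q * p + p * (q * q) * p := by
      simp only [star_sub, star_mul, pp.isSelfAdjoint.star_eq, pq.isSelfAdjoint.star_eq]
      noncomm_ring
    rw [e, pq.isIdempotentElem.eq, pp.isIdempotentElem.eq, h1]; simp
  exact (sub_eq_zero.mp (CStarRing.star_mul_self_eq_zero_iff _ |>.mp this)).symm

theorem Le.trans {u v w : A} (hu : PI u) (hv : PI v) (h : Le u v) (h' : Le v w) : Le u w := by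
  have := h.proj hu hv
  unfold Le at *
  rw [← this, ← mul_assoc, h', h]

theorem Le.tr_le {v w : A} (hv : PI v) (hw : PI w) (h : Le v w) :
    (τ.φ (star v * v)).re ≤ (τ.φ (star w * w)).re :=
  proj_mono hv.left hw.left (h.proj hv hw)

theorem Le.n2_sq {v w : A} (hv : PI v) (hw : PI w) (h : Le v w) :
    τ.n2 (w - v) ^ 2 = (τ.φ (star w * w)).re - (τ.φ (star v * v)).re := by
  have h1 : star w * v = star v * v := by
    conv_lhs => rw [← h, ← mul_assoc]
    exact h.proj hv hw
  rw [τ.n2_sub_sq, h1, τ.n2_sq, τ.n2_sq]; ring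

theorem lim_eq (hτ : τ.Faithful) {x : ℕ → A} {y a b c : A}
    (hx : Tendsto (fun n => τ.n2 (x n - y)) atTop (𝓝 0)) (h : ∀ᶠ n in atTop, a * x n * b = c) :
    a * y * b = c := by
  refine sub_eq_zero.mp (hτ _ (le_antisymm ?_ (τ.n2_nonneg _)))
  have : Tendsto (fun n => ‖a‖ * τ.n2 (x n - y) * ‖b‖) atTop (𝓝 0) := by
    simpa using (hx.const_mul ‖a‖).mul_const ‖b‖
  refine ge_of_tendsto this (h.mono fun n hn => ?_)
  rw [← hn, τ.n2_sub_comm, ← sub_mul, ← mul_sub]
  exact (τ.n2_mul_le_right _ _).trans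
    (mul_le_mul_of_nonneg_right (τ.n2_mul_le_left _ _) (norm_nonneg _))

theorem chain_lim (hτ : τ.Faithful) (hW : IsW τ P) (v : ℕ → A) (hP : ∀ n, v n ∈ P)
    (hv : ∀ n, PI (v n)) (hle : ∀ n, Le (v n) (v (n + 1))) :
    ∃ w ∈ P, PI w ∧ (∀ n, Le (v n) w) ∧ Tendsto (fun n => τ.n2 (v n - w)) atTop (𝓝 0) := by
  have hmono : ∀ m n, m ≤ n → Le (v m) (v n) := by
    intro m n hmn
    induction n, hmn using Nat.le_induction with
    | base => exact (hv m).mul_left
    | succ n _ ih => exact ih.trans (hv m) (hv n) (hle n)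
  set t : ℕ → ℝ := fun n => (τ.φ (star (v n) * v n)).re with ht
  have tmono : Monotone t := fun m n hmn => (hmono m n hmn).tr_le (hv m) (hv n)
  have tbdd : BddAbove (Set.range t) := ⟨1, by
    rintro _ ⟨n, rfl⟩; exact τ.proj_le_one (hv n).left⟩
  have tc : CauchySeq t := (tendsto_atTop_ciSup tmono tbdd).cauchySeq
  obtain ⟨w, hwP, -, hw⟩ := hW v 1 hP (fun n => (hv n).norm_le) (by
    intro ε hε
    obtain ⟨n₀, hn₀⟩ := Metric.cauchySeq_iff.mp tc (ε ^ 2) (by positivity)
    refine ⟨n₀, fun m hm n hn => ?_⟩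
    have hd := hn₀ m hm n hn
    rw [Real.dist_eq] at hd
    refine lt_of_pow_lt_pow_left₀ 2 hε.le ?_
    rcases le_total m n with hmn | hmn
    · rw [τ.n2_sub_comm, (hmono m n hmn).n2_sq (hv m) (hv n)]
      exact lt_of_le_of_lt ((neg_sub (t m) (t n)).symm.le.trans (neg_le_abs _)) hd
    · rw [(hmono n m hmn).n2_sq (hv n) (hv m)]
      exact lt_of_le_of_lt (le_abs_self _) hd)
  refine ⟨w, hwP, ?_, fun n => ?_, hw⟩
  · have h1 := tendsto_n2_mul (C := 1) (fun n => (hv n).right.norm_le)
      (tendsto_n2_mul (C := 1) (fun n => (hv n).norm_le) hw (tendsto_n2_star hw)) hw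
    refine hτ.eq_of_tendsto (x := v) ?_ hw
    refine h1.congr fun n => ?_
    rw [hv n]
  · have := lim_eq hτ (a := 1) (b := star (v n) * v n) (c := v n) hw
      ((eventually_ge_atTop n).mono fun m hm => by rw [one_mul]; exact hmono n m hm)
    rwa [one_mul] at this

theorem chain_lim_proj (hτ : τ.Faithful) (hW : IsW τ P) (v : ℕ → A) (hP : ∀ n, v n ∈ P)
    (hv : ∀ n, IsStarProjection (v n)) (hle : ∀ n, v (n + 1) * v n = v n) :
    ∃ w ∈ P, IsStarProjection w ∧ (∀ n, w * v n = v n) ∧
      Tendsto (fun n => τ.n2 (v n - w)) atTop (𝓝 0) := by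
  have e : ∀ n, star (v n) * v n = v n := fun n => by
    rw [(hv n).isSelfAdjoint.star_eq, (hv n).isIdempotentElem.eq]
  obtain ⟨w, hwP, hw, hle', ht⟩ := chain_lim hτ hW v hP (fun n => .of_proj (hv n))
    (fun n => by unfold Le; rw [e, hle])
  have h1 := tendsto_n2_mul (C := 1) (fun n => by rw [norm_star]; exact (hv n).norm_le)
    (tendsto_n2_star ht) ht
  simp only [e] at h1
  have h2 : star w * w = w := hτ.eq_of_tendsto h1 ht
  refine ⟨w, hwP, h2 ▸ hw.left, fun n => ?_, ht⟩
  have := hle' n
  unfold Le at this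
  rwa [e] at this

/-- in a factor, `g P e ≠ 0` for nonzero projections -/
theorem exists_mul_ne (h : Fac τ P) {e g : A} (he : e ∈ P) (pe : IsStarProjection e)
    (e0 : e ≠ 0) (g0 : g ≠ 0) : ∃ y ∈ P, g * y * e ≠ 0 := by
  by_contra! hcon
  let X := {s : A // s ∈ P ∧ IsStarProjection s ∧ ∀ y ∈ P, g * y * s = 0}
  obtain ⟨⟨s, hsP, ps, hs⟩, hes, hmax⟩ := exists_maximal (X := X) (fun s s' => s'.1 * s.1 = s.1)
    (fun s => (τ.φ s.1).re) 1 ⟨e, he, pe, hcon⟩ (fun s => s.2.2.1.isIdempotentElem.eq)
    (fun x y z hxy hyz => by rw [← hxy, ← mul_assoc, hyz]) (fun s => τ.proj_le_one s.2.2.1)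
    (fun x y hxy => proj_mono x.2.2.1 y.2.2.1 hxy)
    (fun x hx => by
      obtain ⟨w, hwP, pw, hle, ht⟩ := chain_lim_proj h.faithful h.W (fun n => (x n).1)
        (fun n => (x n).2.1) (fun n => (x n).2.2.1) hx
      refine ⟨⟨w, hwP, pw, fun y hy => ?_⟩, hle⟩
      have := lim_eq h.faithful (a := g * y) (b := 1) (c := 0) ht
        (Eventually.of_forall fun n => by rw [mul_one]; exact (x n).2.2.2 y hy)
      rwa [mul_one] at this)
  simp only at hes hmax
  have key : ∀ x ∈ P, s * x * s = x * s := by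
    intro x hx
    set a := s + (x * s) * star (x * s) with ha
    have haP : a ∈ P := add_mem hsP (mul_mem (mul_mem hx hsP) (star_mem (mul_mem hx hsP)))
    have sa : star a = a := by rw [ha, star_add, star_mul, star_star, ps.isSelfAdjoint.star_eq]
    obtain ⟨k, hkP, pk, hk⟩ := h.W.exists_ker h.faithful haP
    have hak : a * k = 0 := (hk k).mpr pk.isIdempotentElem.eq
    have h0 : star (s * k) * (s * k) + star (star (x * s) * k) * (star (x * s) * k) = 0 := by
      have : k * (a * k) = 0 := by rw [hak, mul_zero]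
      rw [← this, ha]
      simp only [star_mul, star_star, pk.isSelfAdjoint.star_eq, ps.isSelfAdjoint.star_eq]
      have e : k * s * (s * k) = k * (s * s) * k := by noncomm_ring
      rw [e, ps.isIdempotentElem.eq]; noncomm_ring
    have h1 := congrArg (fun z => (τ.φ z).re) h0
    simp only [map_add, Complex.add_re, map_zero, Complex.zero_re, ← τ.n2_sq] at h1
    have h2 : s * k = 0 := h.faithful _ (by nlinarith [sq_nonneg (τ.n2 (s * k)), sq_nonneg (τ.n2 (star (x * s) * k))])
    have h3 : star (x * s) * k = 0 := h.faithful _ (by nlinarith [sq_nonneg (τ.n2 (s * k)), sq_nonneg (τ.n2 (star (x * s) * k))])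
    have h4 : k * s = 0 := proj_comm0 ps pk h2
    have h5 : k * (x * s) = 0 := by
      have := star_eq_of h3
      rwa [star_star, pk.isSelfAdjoint.star_eq, star_zero] at this
    have hq : (1 - k) * s = s := by rw [sub_mul, one_mul, h4, sub_zero]
    have hJ : ∀ y ∈ P, g * y * (1 - k) = 0 := by
      intro y hy
      have h6 : g * y * a = 0 := by
        have e : g * y * a = g * y * s + g * (y * x) * s * star (x * s) := by
          rw [ha]; noncomm_ring
        rw [e, hs y hy, hs _ (mul_mem hy hx)]; simp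
      have h7 : a * star (g * y) = 0 := by
        have := star_eq_of h6
        rwa [sa, star_zero] at this
      have h8 := star_eq_of ((hk _).mp h7)
      rw [star_star, pk.isSelfAdjoint.star_eq] at h8
      rw [mul_sub, mul_one, h8, sub_self]
    have hle := hmax ⟨1 - k, sub_mem (one_mem _) hkP, pk.one_sub, hJ⟩ hq
    have heq : 1 - k = s := proj_eq_of_le h.faithful ps pk.one_sub hq hle
    rw [mul_assoc]
    conv_lhs => rw [← heq]
    rw [heq] at hq
    rw [show (1 - k) * (x * (1 - k)) = (1 - k) * (x * s) by rw [heq], sub_mul, one_mul, h5,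
      sub_zero]
  obtain ⟨c, hc⟩ := h.fac s hsP (fun y hy => by
    have h1 := star_eq_of (key _ (star_mem hy))
    rw [star_mul, star_mul, star_star, ps.isSelfAdjoint.star_eq, ← mul_assoc] at h1
    rw [← h1, key y hy])
  have hc0 : c ≠ 0 := by
    rintro rfl
    rw [hc] at hes
    exact e0 (by simpa using hes.symm)
  have := hs 1 (one_mem _)
  rw [hc] at this
  simp only [mul_one, mul_smul_comm, smul_eq_zero, hc0, false_or] at this
  exact g0 this

/-- a nonzero element gives a nonzero partial isometry with smaller supports -/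
theorem exists_pi (hτ : τ.Faithful) (hW : IsW τ P) {x : A} (hx : x ∈ P) (x0 : x ≠ 0) :
    ∃ w ∈ P, PI w ∧ w ≠ 0 ∧ (∀ g, g * x = x → g * w = w) ∧
      (∀ e, IsSelfAdjoint e → x * e = x → w * e = w) := by
  have := τ.nontrivial
  have hcl : IsClosed (P : Set A) := hW.isClosed hτ
  set a := star x * x with ha
  have sa : IsSelfAdjoint a := IsSelfAdjoint.star_mul_self x
  have haP : a ∈ P := mul_mem (star_mem hx) hx
  have a0 : 0 < ‖a‖ := norm_pos_iff.mpr fun h => x0 ((CStarRing.star_mul_self_eq_zero_iff _).mp h)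
  have hsp : ‖a‖ ∈ spectrum ℝ a := by
    rcases CStarAlgebra.norm_or_neg_norm_mem_spectrum sa with h | h
    · exact h
    · have := spectrum_star_mul_self_nonneg _ h
      linarith
  set c := ‖a‖ / 2 with hc
  have c0 : 0 < c := by positivity
  set h := cfc (fun t : ℝ => max (c - t) 0) a with hh
  obtain ⟨s, hsP, ps, hs⟩ := hW.exists_ker hτ (cfc_mem (𝕜' := ℂ) (fun t : ℝ => max (c - t) 0) haP)
  rw [← hh] at hs
  have hhs : h * s = 0 := (hs s).mpr ps.isIdempotentElem.eq
  have s0 : s ≠ 0 := by
    rintro rfl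
    have h1 : h * cfc (fun t : ℝ => max (t - c) 0) a = 0 := by
      rw [hh, ← cfc_mul .., ← cfc_const_zero ℝ a]
      refine cfc_congr fun t _ => ?_
      rcases le_total t c with h | h
      · simp [max_eq_right (sub_nonpos.mpr h)]
      · simp [max_eq_right (sub_nonpos.mpr h)]
    have h2 := (hs _).mp h1
    rw [zero_mul, ← cfc_const_zero ℝ a] at h2
    have h3 : (0 : ℝ) = max (‖a‖ - c) 0 :=
      eqOn_of_cfc_eq_cfc h2 (by fun_prop) (by fun_prop) sa hsp
    have : 0 < max (‖a‖ - c) 0 := lt_max_of_lt_left (by rw [hc]; linarith)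
    linarith
  have hpos : ∀ t : ℝ, 0 < max t c := fun t => lt_max_of_lt_right c0
  have fc : Continuous fun t : ℝ => (√(max t c))⁻¹ :=
    Continuous.inv₀ (by fun_prop) fun t => (Real.sqrt_pos.mpr (hpos t)).ne'
  set b := cfc (fun t : ℝ => (√(max t c))⁻¹) a with hb
  have hbP : b ∈ P := cfc_mem (𝕜' := ℂ) _ haP
  have sb : IsSelfAdjoint b := cfc_predicate _ _
  have hfun : ∀ t : ℝ, (√(max t c))⁻¹ * t * (√(max t c))⁻¹ = 1 - c⁻¹ * max (c - t) 0 := by
    intro t
    have e : (√(max t c))⁻¹ * t * (√(max t c))⁻¹ = t / max t c := by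
      rw [mul_comm _ t, mul_assoc, ← mul_inv, Real.mul_self_sqrt (hpos t).le, div_eq_mul_inv]
    rw [e]
    rcases le_total t c with h | h
    · rw [max_eq_right h, max_eq_left (sub_nonneg.mpr h)]; field_simp; ring
    · rw [max_eq_left h, max_eq_right (sub_nonpos.mpr h), div_self (by linarith)]; simp
  have hrhs : cfc (fun t : ℝ => 1 - c⁻¹ * max (c - t) 0) a = 1 - c⁻¹ • h := by
    rw [cfc_sub .., cfc_const_one ℝ a, cfc_const_mul ..]
  have hbab : b * a * b = 1 - c⁻¹ • h := by
    rw [← hrhs, hb]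
    conv_lhs => rw [show cfc (fun t : ℝ => (√(max t c))⁻¹) a * a =
      cfc (fun t : ℝ => (√(max t c))⁻¹) a * cfc (fun t : ℝ => t) a by rw [cfc_id' ℝ a]]
    have fc' : Continuous fun t : ℝ => (√(max t c))⁻¹ * t := fc.mul continuous_id'
    rw [← cfc_mul _ _ a fc.continuousOn, ← cfc_mul _ _ a fc'.continuousOn fc.continuousOn]
    exact cfc_congr fun t _ => hfun t
  have hcomm : b * a = a * b := (Commute.cfc_real (Commute.refl a) _).eq
  have hbs : b * a * b * s = s := by rw [hbab, sub_mul, one_mul, smul_mul_assoc, hhs]; simp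
  have hww : star (x * b * s) * (x * b * s) = s := by
    have e : star (x * b * s) * (x * b * s) = s * (b * a * b * s) := by
      simp only [star_mul, sb.star_eq, ps.isSelfAdjoint.star_eq, ha]; noncomm_ring
    rw [e, hbs, ps.isIdempotentElem.eq]
  refine ⟨x * b * s, mul_mem (mul_mem hx hbP) hsP, .of_left (by rw [hww]; exact ps), fun h0 => s0 ?_,
    fun g hg => ?_, fun e se he => ?_⟩
  · rw [← hww, h0, mul_zero]
  · rw [← mul_assoc, ← mul_assoc, hg]
  · have h1 : e * star x = star x := by
      have := star_eq_of he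
      rwa [se.star_eq] at this
    have h2 : e * s = s := by
      conv_lhs => rw [← hbs, hcomm, ha]
      conv_rhs => rw [← hbs, hcomm, ha, ← h1]
      noncomm_ring
    have h3 := star_eq_of h2
    rw [se.star_eq, ps.isSelfAdjoint.star_eq] at h3
    rw [mul_assoc, h3]

theorem exists_pi' (h : Fac τ P) {e g : A} (he : e ∈ P) (hg : g ∈ P) (pe : IsStarProjection e)
    (pg : IsStarProjection g) (e0 : e ≠ 0) (g0 : g ≠ 0) :
    ∃ w ∈ P, PI w ∧ w ≠ 0 ∧ g * w = w ∧ w * e = w := by
  obtain ⟨y, hy, h0⟩ := exists_mul_ne h he pe e0 g0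
  obtain ⟨w, hwP, pw, w0, h1, h2⟩ := exists_pi h.faithful h.W (mul_mem (mul_mem hg hy) he) h0
  refine ⟨w, hwP, pw, w0, h1 g ?_, h2 e pe.isSelfAdjoint ?_⟩
  · rw [← mul_assoc, ← mul_assoc, pg.isIdempotentElem.eq]
  · rw [mul_assoc, pe.isIdempotentElem.eq]

end ProjAux

open ProjAux

theorem Fac.comparison (h : Fac τ P) {e g : A} (he : e ∈ P) (hg : g ∈ P)
    (pe : IsStarProjection e) (pg : IsStarProjection g) (hle : (τ.φ e).re ≤ (τ.φ g).re) :
    ∃ v ∈ P, star v * v = e ∧ g * v = v := by
  let X := {v : A // v ∈ P ∧ PI v ∧ v * e = v ∧ g * v = v}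
  obtain ⟨⟨v, hvP, pv, hve, hgv⟩, -, hmax⟩ := exists_maximal (X := X) (fun v w => Le v.1 w.1)
    (fun v => (τ.φ (star v.1 * v.1)).re) 1 ⟨0, zero_mem _, by simp [PI], by simp, by simp⟩
    (fun v => v.2.2.1.mul_left) (fun x y z hxy hyz => hxy.trans x.2.2.1 y.2.2.1 hyz)
    (fun v => τ.proj_le_one v.2.2.1.left) (fun x y hxy => hxy.tr_le x.2.2.1 y.2.2.1)
    (fun x hx => by
      obtain ⟨w, hwP, pw, hle, ht⟩ := chain_lim h.faithful h.W (fun n => (x n).1)
        (fun n => (x n).2.1) (fun n => (x n).2.2.1) hx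
      refine ⟨⟨w, hwP, pw, ?_, ?_⟩, hle⟩
      · have := lim_eq h.faithful (a := 1) (b := 1 - e) (c := 0) ht
          (Eventually.of_forall fun n => by
            rw [one_mul, mul_sub, mul_one, (x n).2.2.2.1, sub_self])
        rw [one_mul, mul_sub, mul_one] at this
        exact (sub_eq_zero.mp this).symm
      · have := lim_eq h.faithful (a := 1 - g) (b := 1) (c := 0) ht
          (Eventually.of_forall fun n => by
            rw [mul_one, sub_mul, one_mul, (x n).2.2.2.2, sub_self])
        rw [mul_one, sub_mul, one_mul] at this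
        exact (sub_eq_zero.mp this).symm)
  simp only at hmax
  have h1 : star v * v * e = star v * v := by rw [mul_assoc, hve]
  have h2 : g * (v * star v) = v * star v := by rw [← mul_assoc, hgv]
  have pe' := pv.left.sub_of_mul_eq_left pe h1
  have pg' := pv.right.sub_of_mul_eq_right pg h2
  refine ⟨v, hvP, ?_, hgv⟩
  by_contra hne
  have e0 : e - star v * v ≠ 0 := fun h0 => hne (sub_eq_zero.mp h0).symm
  have g0 : g - v * star v ≠ 0 := by
    intro h0
    have := τ.proj_pos h.faithful pe' e0
    rw [map_sub, Complex.sub_re, τ.comm, ← sub_eq_zero.mp h0] at this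
    linarith
  obtain ⟨w, hwP, pw, w0, hgw, hwe⟩ := exists_pi' h (sub_mem he (mul_mem (star_mem hvP) hvP))
    (sub_mem hg (mul_mem hvP (star_mem hvP))) pe' pg' e0 g0
  have hvg : star v * g = star v := by
    have := star_eq_of hgv
    rwa [pg.isSelfAdjoint.star_eq] at this
  have hvw : star v * w = 0 := by
    have := pv.star
    unfold PI at this
    rw [star_star] at this
    rw [← hgw, ← mul_assoc, mul_sub, hvg, ← mul_assoc, this, sub_self, zero_mul]
  have hwv : star w * v = 0 := by simpa using star_eq_of hvw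
  have hwp : w * (star v * v) = 0 := by
    rw [← hwe, mul_assoc, sub_mul, proj_comm pv.left pe h1, pv.left.isIdempotentElem.eq, sub_self,
      mul_zero]
  have hsum : star (v + w) * (v + w) = star v * v + star w * w := by
    rw [star_add, add_mul, mul_add, mul_add, hvw, hwv]; simp
  have pvw : PI (v + w) := by
    refine .of_left ?_
    rw [hsum]
    refine pv.left.add pw.left (proj_comm0 pw.left pv.left ?_)
    rw [mul_assoc, hwp, mul_zero]
  have hwe' : w * e = w := by
    conv_lhs => rw [← hwe, mul_assoc, sub_mul, pe.isIdempotentElem.eq, h1]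
    exact hwe
  have hgw' : g * w = w := by
    conv_lhs => rw [← hgw, ← mul_assoc, mul_sub, pg.isIdempotentElem.eq, h2]
    exact hgw
  have := hmax ⟨v + w, add_mem hvP hwP, pvw, by rw [add_mul, hve, hwe'], by rw [mul_add, hgv, hgw']⟩
    (by unfold Le; simp only; rw [add_mul, hwp, add_zero, pv.mul_left])
  simp only [hsum, map_add, Complex.add_re] at this
  have h3 := τ.proj_pos h.faithful pw.left fun h0 =>
    w0 ((CStarRing.star_mul_self_eq_zero_iff _).mp h0)
  linarith

namespace ProjAux

/-- one step: split off a copy of `e` from `f` -/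
theorem split (h : Fac τ P) {e f : A} (he : e ∈ P) (hf : f ∈ P)
    (pe : IsStarProjection e) (pf : IsStarProjection f) (hle : (τ.φ e).re ≤ (τ.φ f).re) :
    ∃ v ∈ P, star v * v = e ∧ f * v = v ∧ v * e = v ∧ IsStarProjection (f - v * star v) ∧
      (τ.φ (f - v * star v)).re = (τ.φ f).re - (τ.φ e).re ∧
      ∀ w, (f - v * star v) * w = w → star v * w = 0 ∧ star w * v = 0 ∧ f * w = w := by
  obtain ⟨v, hvP, hv, hfv⟩ := h.comparison he hf pe pf hle
  have pv : PI v := .of_left (hv ▸ pe)
  have h2 : f * (v * star v) = v * star v := by rw [← mul_assoc, hfv]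
  refine ⟨v, hvP, hv, hfv, hv ▸ pv.mul_left, pv.right.sub_of_mul_eq_right pf h2, ?_,
    fun w hw => ?_⟩
  · rw [map_sub, Complex.sub_re, τ.comm, hv]
  · have hvf : star v * f = star v := by
      have := star_eq_of hfv
      rwa [pf.isSelfAdjoint.star_eq] at this
    have hvw : star v * w = 0 := by
      have := pv.star
      unfold PI at this
      rw [star_star] at this
      rw [← hw, ← mul_assoc, mul_sub, hvf, ← mul_assoc, this, sub_self, zero_mul]
    refine ⟨hvw, by simpa using star_eq_of hvw, ?_⟩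
    conv_lhs => rw [← hw, ← mul_assoc, mul_sub, pf.isIdempotentElem.eq, h2]
    exact hw

theorem exists_nat_bound (h : Fac τ P) {e f : A} (pe : IsStarProjection e) (h0 : e ≠ 0) :
    ∃ n : ℕ, (τ.φ f).re ≤ n * (τ.φ e).re := by
  have := τ.proj_pos h.faithful pe h0
  obtain ⟨n, hn⟩ := exists_nat_ge ((τ.φ f).re / (τ.φ e).re)
  exact ⟨n, by rwa [div_le_iff₀ this] at hn⟩

theorem cover_aux (h : Fac τ P) {e : A} (he : e ∈ P) (pe : IsStarProjection e) (n : ℕ) :
    ∀ f ∈ P, IsStarProjection f → (τ.φ f).re ≤ n * (τ.φ e).re →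
    ∃ (m : ℕ) (v : Fin m → A), (∀ i, v i ∈ P) ∧ (∀ i, v i * e = v i) ∧ (∀ i, f * v i = v i) ∧
      (∀ i j, i ≠ j → star (v i) * v j = 0) ∧ ∑ i, v i * star (v i) = f := by
  induction n with
  | zero =>
    intro f hf pf hle
    have : f = 0 := proj_eq_zero h.faithful pf (by simpa using hle)
    exact ⟨0, Fin.elim0, by simp, by simp, by simp, by simp, by simp [this]⟩
  | succ n ih =>
    intro f hf pf hle
    rcases le_total (τ.φ f).re (τ.φ e).re with hfe | hfe
    · obtain ⟨w, hwP, hw, hew⟩ := h.comparison hf he pf pe hfe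
      have pw : PI w := .of_left (hw ▸ pf)
      refine ⟨1, fun _ => star w, fun _ => star_mem hwP, fun _ => ?_, fun _ => ?_,
        fun i j hij => (hij (Subsingleton.elim i j)).elim, by simp [hw]⟩
      · have := star_eq_of hew
        rwa [pe.isSelfAdjoint.star_eq] at this
      · have := pw.star
        unfold PI at this
        rwa [star_star, hw] at this
    · obtain ⟨v₀, hP₀, hv₀, hf₀, he₀, pf', htr, hw⟩ := split h he hf pe pf hfe
      obtain ⟨m, v, hvP, hve, hfv, horth, hsum⟩ := ih _
        (sub_mem hf (mul_mem hP₀ (star_mem hP₀))) pf' (by rw [htr]; push_cast at hle; linarith)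
      refine ⟨m + 1, Fin.cons v₀ v, fun i => ?_, fun i => ?_, fun i => ?_, fun i j hij => ?_, ?_⟩
      · refine Fin.cases ?_ (fun i => ?_) i <;> simp [*]
      · refine Fin.cases ?_ (fun i => ?_) i <;> simp [*]
      · refine Fin.cases ?_ (fun i => ?_) i
        · simpa using hf₀
        · simpa using (hw _ (hfv i)).2.2
      · induction i using Fin.cases <;> induction j using Fin.cases
        · exact (hij rfl).elim
        · simpa using (hw _ (hfv _)).1
        · simpa using (hw _ (hfv _)).2.1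
        · simpa using horth _ _ fun h => hij (by rw [h])
      · simp [Fin.sum_univ_succ, hsum]

theorem copies_aux (h : Fac τ P) {e : A} (he : e ∈ P) (pe : IsStarProjection e) (h0 : e ≠ 0)
    (n : ℕ) : ∀ f ∈ P, IsStarProjection f → (τ.φ f).re ≤ n * (τ.φ e).re →
    ∃ (m : ℕ) (v : Fin m → A), (∀ i, v i ∈ P) ∧
      (∀ i j, star (v i) * v j = if i = j then e else 0) ∧ (∀ i, f * v i = v i) ∧
      (τ.φ f).re < (m + 1) * (τ.φ e).re := by
  have epos := τ.proj_pos h.faithful pe h0
  induction n with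
  | zero =>
    intro f hf pf hle
    exact ⟨0, Fin.elim0, by simp, by simp, by simp, by simp at hle ⊢; linarith⟩
  | succ n ih =>
    intro f hf pf hle
    rcases lt_or_ge (τ.φ f).re (τ.φ e).re with hfe | hfe
    · exact ⟨0, Fin.elim0, by simp, by simp, by simp, by simpa using hfe⟩
    · obtain ⟨v₀, hP₀, hv₀, hf₀, he₀, pf', htr, hw⟩ := split h he hf pe pf hfe
      obtain ⟨m, v, hvP, horth, hfv, hlt⟩ := ih _
        (sub_mem hf (mul_mem hP₀ (star_mem hP₀))) pf' (by rw [htr]; push_cast at hle; linarith)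
      refine ⟨m + 1, Fin.cons v₀ v, fun i => ?_, fun i j => ?_, fun i => ?_, ?_⟩
      · refine Fin.cases ?_ (fun i => ?_) i <;> simp [*]
      · induction i using Fin.cases <;> induction j using Fin.cases
        · simpa using hv₀
        · simpa [(Fin.succ_ne_zero _).symm] using (hw _ (hfv _)).1
        · simpa using (hw _ (hfv _)).2.1
        · simpa using horth _ _
      · refine Fin.cases ?_ (fun i => ?_) i
        · simpa using hf₀
        · simpa using (hw _ (hfv i)).2.2
      · rw [htr] at hlt; push_cast; linarith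

/-- decomposition of a self-adjoint element -/
theorem posneg (hcl : IsClosed (P : Set A)) {b : A} (hb : b ∈ P) (sb : IsSelfAdjoint b) :
    ∃ y ∈ P, ∃ z ∈ P, IsSelfAdjoint y ∧ IsSelfAdjoint z ∧ y * y - z * z = b ∧ y * z = 0 := by
  refine ⟨cfc (fun t : ℝ => √t) b, cfc_mem (𝕜' := ℂ) _ hb, cfc (fun t : ℝ => √(-t)) b,
    cfc_mem (𝕜' := ℂ) _ hb, cfc_predicate _ _, cfc_predicate _ _, ?_, ?_⟩
  · rw [← cfc_mul .., ← cfc_mul .., ← cfc_sub ..]
    conv_rhs => rw [← cfc_id' ℝ b]
    refine cfc_congr fun t _ => ?_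
    rcases le_total 0 t with h | h
    · simp [Real.mul_self_sqrt h, Real.sqrt_eq_zero_of_nonpos (neg_nonpos.mpr h)]
    · simp [Real.mul_self_sqrt (neg_nonneg.mpr h), Real.sqrt_eq_zero_of_nonpos h]
  · rw [← cfc_mul .., ← cfc_const_zero ℝ b]
    refine cfc_congr fun t _ => ?_
    rcases le_total 0 t with h | h
    · simp [Real.sqrt_eq_zero_of_nonpos (neg_nonpos.mpr h)]
    · simp [Real.sqrt_eq_zero_of_nonpos h]

theorem sq_eq_zero_of_cube {y : A} (sy : IsSelfAdjoint y) (h : y * (y * y) = 0) : y * y = 0 := by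
  refine (CStarRing.star_mul_self_eq_zero_iff _).mp ?_
  rw [star_mul, sy.star_eq, mul_assoc, h, mul_zero]

/-- a minimal projection has a one-dimensional corner -/
theorem corner_sa (h : Fac τ P) {e : A} (he : e ∈ P) (pe : IsStarProjection e) (h0 : e ≠ 0)
    (hmin : ∀ q ∈ P, IsStarProjection q → q * e = q → q = 0 ∨ q = e) {a : A} (ha : a ∈ P)
    (sa : IsSelfAdjoint a) (hae : a * e = a) : ∃ c : ℂ, a = c • e := by
  have epos := τ.proj_pos h.faithful pe h0
  set c : ℝ := (τ.φ a).re / (τ.φ e).re with hc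
  refine ⟨c, sub_eq_zero.mp ?_⟩
  set b := a - (c : ℂ) • e with hb
  have hbP : b ∈ P := sub_mem ha (SMulMemClass.smul_mem _ he)
  have sb : IsSelfAdjoint b := by
    rw [IsSelfAdjoint, hb, star_sub, star_smul, sa.star_eq, pe.isSelfAdjoint.star_eq]; simp
  have hbe : b * e = b := by rw [hb, sub_mul, hae, smul_mul_assoc, pe.isIdempotentElem.eq]
  have heb : e * b = b := by
    have := star_eq_of hbe
    rwa [sb.star_eq, pe.isSelfAdjoint.star_eq] at this
  have htr : (τ.φ b).re = 0 := by
    rw [hb, map_sub, map_smul, Complex.sub_re, smul_eq_mul, Complex.re_ofReal_mul, hc]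
    field_simp; ring
  obtain ⟨y, hyP, z, hzP, sy, sz, hyz, h1⟩ := posneg (h.W.isClosed h.faithful) hbP sb
  have h2 : z * y = 0 := by
    have := star_eq_of h1
    rwa [sy.star_eq, sz.star_eq, star_zero] at this
  have hyb : y * b = y * (y * y) := by rw [← hyz, mul_sub, ← mul_assoc y z, h1]; simp
  have hbz : b * z = -(z * (z * z)) := by
    rw [← hyz, sub_mul, mul_assoc y, h1, mul_assoc]; simp
  have hy2 : τ.n2 y ^ 2 = (τ.φ (y * y)).re := by rw [τ.n2_sq, sy.star_eq]
  have hz2 : τ.n2 z ^ 2 = (τ.φ (z * z)).re := by rw [τ.n2_sq, sz.star_eq]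
  obtain ⟨k, hkP, pk, hk⟩ := h.W.exists_ker h.faithful (mul_mem hyP hbP)
  have h3 : k * (1 - e) = 1 - e := (hk _).mp (by rw [mul_assoc, mul_sub, mul_one, hbe]; simp)
  have h4 : (1 - k) * e = 1 - k := by
    have : (1 - k) * (1 - e) = 0 := by rw [sub_mul, one_mul, h3, sub_self]
    rw [mul_sub, mul_one] at this
    exact (sub_eq_zero.mp this).symm
  rcases hmin _ (sub_mem (one_mem _) hkP) pk.one_sub h4 with h5 | h5
  · have h6 := (hk 1).mpr (by rw [← sub_eq_zero.mp h5, one_mul])
    rw [mul_one, hyb] at h6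
    have h7 := sq_eq_zero_of_cube sy h6
    rw [h7, zero_sub] at hyz
    rw [← hyz, map_neg, Complex.neg_re, ← hz2] at htr
    have : z = 0 := h.faithful _ (by nlinarith)
    rw [← hyz, this]; simp
  · have h6 : k * (b * z) = b * z := (hk _).mp (by
      rw [hyb, hbz, mul_neg, mul_assoc, mul_assoc, ← mul_assoc y z, h1]; simp)
    have h7 : e * (b * z) = 0 := by rw [← h5, sub_mul, one_mul, h6, sub_self]
    rw [← mul_assoc, heb, hbz, neg_eq_zero] at h7
    have h8 := sq_eq_zero_of_cube sz h7
    rw [h8, sub_zero] at hyz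
    rw [← hyz, ← hy2] at htr
    have : y = 0 := h.faithful _ (by nlinarith)
    rw [← hyz, this]; simp

theorem corner (h : Fac τ P) {e : A} (he : e ∈ P) (pe : IsStarProjection e) (h0 : e ≠ 0)
    (hmin : ∀ q ∈ P, IsStarProjection q → q * e = q → q = 0 ∨ q = e) {x : A} (hx : x ∈ P)
    (hxe : x * e = x) (hex : e * x = x) : ∃ c : ℂ, x = c • e := by
  have hxe' : star x * e = star x := by
    have := star_eq_of hex
    rwa [pe.isSelfAdjoint.star_eq] at this
  obtain ⟨c, hc⟩ := corner_sa h he pe h0 hmin (add_mem hx (star_mem hx))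
    (IsSelfAdjoint.add_star_self x) (by rw [add_mul, hxe, hxe'])
  obtain ⟨d, hd⟩ := corner_sa h he pe h0 hmin
    (a := Complex.I • (x - star x)) (SMulMemClass.smul_mem _ (sub_mem hx (star_mem hx)))
    (by rw [IsSelfAdjoint, star_smul, star_sub, star_star, ← neg_sub x, smul_neg, ← neg_smul]; simp)
    (by rw [smul_mul_assoc, sub_mul, hxe, hxe'])
  refine ⟨(1 / 2) * c - (Complex.I / 2) * d, ?_⟩
  rw [sub_smul, mul_smul, mul_smul, ← hc, ← hd, smul_smul,
    show Complex.I / 2 * Complex.I = -(1 / 2) by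
      rw [div_mul_eq_mul_div, Complex.I_mul_I]; ring]
  module

end ProjAux

theorem Fac.exists_copies (h : Fac τ P) {e f : A} (he : e ∈ P) (hf : f ∈ P)
    (pe : IsStarProjection e) (pf : IsStarProjection f) (h0 : e ≠ 0) :
    ∃ (m : ℕ) (v : Fin m → A), (∀ i, v i ∈ P) ∧
      (∀ i j, star (v i) * v j = if i = j then e else 0) ∧ (∀ i, f * v i = v i) ∧
      (τ.φ f).re < (m + 1) * (τ.φ e).re := by
  obtain ⟨n, hn⟩ := exists_nat_bound (f := f) h pe h0
  exact copies_aux h he pe h0 n f hf pf hn

theorem Fac.exists_cover (h : Fac τ P) {e : A} (he : e ∈ P) (pe : IsStarProjection e)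
    (h0 : e ≠ 0) :
    ∃ (m : ℕ) (v : Fin m → A), (∀ i, v i ∈ P) ∧ (∀ i, v i * e = v i) ∧
      (∀ i j, i ≠ j → star (v i) * v j = 0) ∧ (∃ i, star (v i) * v i = e) ∧
      ∑ i, v i * star (v i) = 1 := by
  obtain ⟨n, hn⟩ := exists_nat_bound (f := 1 - e) h pe h0
  obtain ⟨m, v, hvP, hve, hfv, horth, hsum⟩ := cover_aux h he pe n _ (sub_mem (one_mem _) he)
    pe.one_sub hn
  have hev : ∀ i, star e * v i = 0 := fun i => by
    rw [pe.isSelfAdjoint.star_eq, ← hfv i, ← mul_assoc, pe.mul_one_sub_self, zero_mul]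
  refine ⟨m + 1, Fin.cons e v, fun i => ?_, fun i => ?_, fun i j hij => ?_, ⟨0, ?_⟩, ?_⟩
  · refine Fin.cases ?_ (fun i => ?_) i <;> simp [*]
  · refine Fin.cases ?_ (fun i => ?_) i
    · simpa using pe.isIdempotentElem.eq
    · simpa using hve i
  · induction i using Fin.cases <;> induction j using Fin.cases
    · exact (hij rfl).elim
    · simpa using hev _
    · simpa using star_eq_of (hev _)
    · simpa using horth _ _ fun h => hij (by rw [h])
  · simp [pe.isSelfAdjoint.star_eq, pe.isIdempotentElem.eq]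
  · simp [Fin.sum_univ_succ, hsum, pe.isSelfAdjoint.star_eq, pe.isIdempotentElem.eq]

theorem Fac.diffuse (h : Fac τ P) (hinf : ¬ FiniteDimensional ℂ P) : Diffuse τ P := by
  by_contra hcon
  unfold Diffuse at hcon
  push Not at hcon
  obtain ⟨δ, hδ, hcon⟩ := hcon
  have := τ.nontrivial
  let S : Set ℝ := {r | ∃ e ∈ P, IsStarProjection e ∧ e ≠ 0 ∧ (τ.φ e).re = r}
  have Sne : S.Nonempty := ⟨_, 1, one_mem _, IsStarProjection.one A, one_ne_zero, rfl⟩
  have Sbd : BddBelow S := ⟨0, by rintro _ ⟨e, -, pe, -, rfl⟩; exact τ.proj_nonneg pe⟩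
  obtain ⟨_, ⟨e, he, pe, h0, rfl⟩, hlt⟩ := exists_lt_of_csInf_lt Sne (lt_add_of_pos_right _ hδ)
  have hmin : ∀ q ∈ P, IsStarProjection q → q * e = q → q = 0 ∨ q = e := by
    intro q hq pq hqe
    by_contra! hne
    have h1 : sInf S ≤ (τ.φ q).re := csInf_le Sbd ⟨q, hq, pq, hne.1, rfl⟩
    have h2 := hcon _ (sub_mem he hq) (pq.sub_of_mul_eq_left pe hqe)
      (fun h0 => hne.2 (sub_eq_zero.mp h0).symm)
    rw [map_sub, Complex.sub_re] at h2
    linarith
  obtain ⟨m, v, hvP, hve, -, -, hsum⟩ := h.exists_cover he pe h0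
  apply hinf
  have hle : P.toSubalgebra.toSubmodule ≤
      Submodule.span ℂ (Set.range fun p : Fin m × Fin m => v p.1 * star (v p.2)) := by
    intro x hx
    have hx' : x ∈ P := hx
    have e1 : x = ∑ i, ∑ j, v i * (star (v i) * x * v j) * star (v j) := by
      calc x = (∑ i, v i * star (v i)) * x * ∑ j, v j * star (v j) := by rw [hsum]; simp
        _ = _ := by
          rw [Finset.sum_mul, Finset.sum_mul]
          refine Finset.sum_congr rfl fun i _ => ?_
          rw [Finset.mul_sum]
          refine Finset.sum_congr rfl fun j _ => ?_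
          noncomm_ring
    rw [e1]
    refine Submodule.sum_mem _ fun i _ => Submodule.sum_mem _ fun j _ => ?_
    obtain ⟨c, hc⟩ := corner h he pe h0 hmin (x := star (v i) * x * v j)
      (mul_mem (mul_mem (star_mem (hvP i)) hx') (hvP j)) (by rw [mul_assoc, hve])
      (by
        have := star_eq_of (hve i)
        rw [pe.isSelfAdjoint.star_eq] at this
        rw [← mul_assoc, ← mul_assoc, this])
    rw [hc, mul_smul_comm, hve, smul_mul_assoc]
    exact Submodule.smul_mem _ _ (Submodule.subset_span ⟨(i, j), rfl⟩)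
  have : FiniteDimensional ℂ
      (Submodule.span ℂ (Set.range fun p : Fin m × Fin m => v p.1 * star (v p.2))) :=
    FiniteDimensional.span_of_finite ℂ (Set.finite_range _)
  exact Submodule.finiteDimensional_of_le hle

theorem Fac.exists_subproj (h : Fac τ P) (hd : Diffuse τ P) {f : A} (hf : f ∈ P)
    (pf : IsStarProjection f) {t : ℝ} (h0 : 0 ≤ t) (ht : t ≤ (τ.φ f).re) :
    ∃ g ∈ P, IsStarProjection g ∧ f * g = g ∧ (τ.φ g).re = t := by
  let X := {g : A // g ∈ P ∧ IsStarProjection g ∧ f * g = g ∧ (τ.φ g).re ≤ t}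
  obtain ⟨⟨g, hgP, pg, hfg, hgt⟩, -, hmax⟩ := exists_maximal (X := X)
    (fun s s' => s'.1 * s.1 = s.1) (fun s => (τ.φ s.1).re) 1
    ⟨0, zero_mem _, IsStarProjection.zero A, by simp, by simpa using h0⟩
    (fun s => s.2.2.1.isIdempotentElem.eq)
    (fun x y z hxy hyz => by rw [← hxy, ← mul_assoc, hyz]) (fun s => τ.proj_le_one s.2.2.1)
    (fun x y hxy => proj_mono x.2.2.1 y.2.2.1 hxy)
    (fun x hx => by
      obtain ⟨w, hwP, pw, hle, hlim⟩ := chain_lim_proj h.faithful h.W (fun n => (x n).1)
        (fun n => (x n).2.1) (fun n => (x n).2.2.1) hx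
      refine ⟨⟨w, hwP, pw, ?_, ?_⟩, hle⟩
      · have := lim_eq h.faithful (a := 1 - f) (b := 1) (c := 0) hlim
          (Eventually.of_forall fun n => by
            rw [mul_one, sub_mul, one_mul, (x n).2.2.2.1, sub_self])
        rw [mul_one, sub_mul, one_mul] at this
        exact (sub_eq_zero.mp this).symm
      · exact le_of_tendsto' ((Complex.continuous_re.tendsto _).comp (tendsto_phi hlim))
          fun n => (x n).2.2.2.2)
  simp only at hmax
  refine ⟨g, hgP, pg, hfg, le_antisymm hgt ?_⟩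
  by_contra! hlt
  obtain ⟨e, he, pe, e0, hle⟩ := hd (t - (τ.φ g).re) (sub_pos.mpr hlt)
  have pf' := pg.sub_of_mul_eq_right pf hfg
  obtain ⟨v, hvP, hv, hfv⟩ := h.comparison he (sub_mem hf hgP) pe pf'
    (by rw [map_sub, Complex.sub_re]; linarith)
  have pv : PI v := .of_left (hv ▸ pe)
  have hgf : g * f = g := by
    have := star_eq_of hfg
    rwa [pf.isSelfAdjoint.star_eq, pg.isSelfAdjoint.star_eq] at this
  have hgv : g * v = 0 := by
    rw [← hfv, ← mul_assoc, mul_sub, hgf, pg.isIdempotentElem.eq, sub_self, zero_mul]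
  have hfv' : f * v = v := by
    rw [sub_mul, hgv, sub_zero] at hfv; exact hfv
  have h1 : g * (v * star v) = 0 := by rw [← mul_assoc, hgv, zero_mul]
  have htr : (τ.φ (g + v * star v)).re = (τ.φ g).re + (τ.φ e).re := by
    rw [map_add, Complex.add_re, τ.comm, hv]
  have := hmax ⟨g + v * star v, add_mem hgP (mul_mem hvP (star_mem hvP)), pg.add pv.right h1,
    by rw [mul_add, hfg, ← mul_assoc, hfv'], by rw [htr]; linarith⟩
    (by simp only; rw [add_mul, pg.isIdempotentElem.eq, proj_comm0 pg pv.right h1, add_zero])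
  simp only [htr] at this
  have := τ.proj_pos h.faithful pe e0
  linarith

end Crest.Agent.R95
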