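import Crest.Agent.R95.Corner

/-! # Row 95: dyadic towers of projections and the encoding of countably many elements -/

set_option autoImplicit false

namespace Crest.Agent.R95.SG

open Filter Topology Finset
open scoped ComplexConjugate

universe u

variable {A : Type u} [CStarAlgebra A] {τ : Tr A}

theorem pi_mul {a e : A} (he : IsStarProjection e) (h : star a * a = e) : a * e = a := by
  have h1 : star (a * e - a) * (a * e - a) = 0 := by
    have s := he.isSelfAdjoint.star_eq
    have i := he.isIdempotentElem.eq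
    rw [star_sub, star_mul, s, sub_mul, mul_sub, mul_sub, mul_assoc e, ← mul_assoc (star a), h, i,
      mul_assoc e, h, i]
    simp
  exact sub_eq_zero.mp ((CStarRing.star_mul_self_eq_zero_iff _).mp h1)

theorem pi_norm {a e : A} (he : IsStarProjection e) (h : star a * a = e) : ‖a‖ ≤ 1 := by
  have h1 := he.norm_le
  rw [← h, CStarRing.norm_star_mul_self] at h1
  nlinarith [norm_nonneg a]

/-- a dyadic tower -/
structure Tw (τ : Tr A) (f w : ℕ → A) : Prop where
  f0 : f 0 = 1
  proj : ∀ n, IsStarProjection (f n)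
  le : ∀ n, f n * f (n + 1) = f (n + 1)
  tr : ∀ n, (τ.φ (f n)).re = (1 / 2) ^ n
  ww : ∀ n, star (w n) * w n = f (n + 1)
  ww' : ∀ n, w n * star (w n) = f n - f (n + 1)

theorem halve (h : Irr τ ⊤) {e : A} (he : IsStarProjection e) :
    ∃ g v : A, IsStarProjection g ∧ e * g = g ∧ (τ.φ g).re = (τ.φ e).re / 2 ∧
      star v * v = g ∧ v * star v = e - g := by
  have h0 := τ.proj_nonneg he
  obtain ⟨g, -, pg, eg, tg⟩ := h.fac.exists_subproj h.diffuse (f := e) trivial he
    (t := (τ.φ e).re / 2) (by positivity) (by linarith)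
  have ge : g * e = g := by
    simpa [he.isSelfAdjoint.star_eq, pg.isSelfAdjoint.star_eq] using congrArg star eg
  have pq : IsStarProjection (e - g) := pg.sub_of_mul_eq_left he ge
  have tq : (τ.φ (e - g)).re = (τ.φ e).re / 2 := by
    rw [map_sub, Complex.sub_re, tg]; ring
  obtain ⟨v, -, v1, v2⟩ := h.fac.comparison (e := g) (g := e - g) trivial trivial pg pq
    (by rw [tg, tq])
  refine ⟨g, v, pg, eg, tg, v1, ?_⟩
  have pv : IsStarProjection (v * star v) := ⟨by
    rw [IsIdempotentElem, mul_assoc, ← mul_assoc (star v), v1, ← mul_assoc, pi_mul pg v1],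
    IsSelfAdjoint.mul_star_self v⟩
  have pr : IsStarProjection (e - g - v * star v) :=
    pv.sub_of_mul_eq_right pq (by rw [← mul_assoc, v2])
  by_contra hne
  have := τ.proj_pos h.faithful pr fun h => hne (sub_eq_zero.mp h).symm
  rw [map_sub, Complex.sub_re, tq, τ.comm, v1, tg] at this
  linarith

theorem exists_tw (h : Irr τ ⊤) : ∃ f w : ℕ → A, Tw τ f w := by
  choose g v h1 h2 h3 h4 h5 using fun e : {e : A // IsStarProjection e} => halve h e.2
  let F : ℕ → {e : A // IsStarProjection e} := fun n =>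
    Nat.rec ⟨1, IsStarProjection.one A⟩ (fun _ e => ⟨g e, h1 e⟩) n
  refine ⟨fun n => (F n).1, fun n => v (F n), rfl, fun n => (F n).2, fun n => h2 (F n), ?_,
    fun n => h4 (F n), fun n => h5 (F n)⟩
  intro n
  induction n with
  | zero => simp [F, τ.one]
  | succ n ih =>
    change (τ.φ (g (F n))).re = _
    rw [h3, ih]; ring

namespace Tw

variable {f w : ℕ → A} (T : Tw τ f w)
include T

theorem sf (n : ℕ) : star (f n) = f n := (T.proj n).isSelfAdjoint.star_eq

theorem ff {m n : ℕ} (h : m ≤ n) : f m * f n = f n := by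
  induction n, h using Nat.le_induction with
  | base => exact (T.proj m).isIdempotentElem.eq
  | succ n _ ih => rw [← T.le n, ← mul_assoc, ih]

theorem ff' {m n : ℕ} (h : m ≤ n) : f n * f m = f n := by
  simpa [T.sf] using congrArg star (T.ff h)

theorem pq (n : ℕ) : IsStarProjection (f n - f (n + 1)) :=
  (T.proj (n + 1)).sub_of_mul_eq_right (T.proj n) (T.le n)

theorem qf {m n : ℕ} (h : m < n) : (f m - f (m + 1)) * f n = 0 := by
  rw [sub_mul, T.ff h.le, T.ff h, sub_self]

theorem fq {m n : ℕ} (h : m < n) : f n * (f m - f (m + 1)) = 0 := by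
  rw [mul_sub, T.ff' h.le, T.ff' h, sub_self]

theorem qq {m n : ℕ} (h : m ≠ n) : (f m - f (m + 1)) * (f n - f (n + 1)) = 0 := by
  rcases lt_or_gt_of_ne h with h | h
  · rw [mul_sub, T.qf h, T.qf (by omega), sub_self]
  · rw [sub_mul, T.fq h, T.fq (by omega), sub_self]

theorem wf (n : ℕ) : w n * f (n + 1) = w n := pi_mul (T.proj _) (T.ww n)

theorem qw (n : ℕ) : (f n - f (n + 1)) * w n = w n := by
  rw [← T.ww', mul_assoc, T.ww, T.wf]

theorem fw (n : ℕ) : f n * w n = w n := by
  rw [← T.qw n, ← mul_assoc, mul_sub, T.ff le_rfl, T.le]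

theorem fw' (n : ℕ) : f (n + 1) * star (w n) = star (w n) := by
  simpa [T.sf] using congrArg star (T.wf n)

theorem wq' (n : ℕ) : star (w n) * (f n - f (n + 1)) = star (w n) := by
  simpa [T.sf] using congrArg star (T.qw n)

theorem nw (n : ℕ) : ‖w n‖ ≤ 1 := pi_norm (T.proj _) (T.ww n)

theorem ne_zero (n : ℕ) : f n ≠ 0 := by
  intro h
  have := T.tr n
  rw [h, map_zero] at this
  exact absurd this.symm (by simp)

end Tw

theorem sandwich {g : ℕ → A} (hg : Summable g) (l r : A) (m : ℕ)
    (h : ∀ n, n ≠ m → l * g n * r = 0) : l * (∑' n, g n) * r = l * g m * r := by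
  rw [← hg.tsum_mul_left, ← (hg.mul_left l).tsum_mul_right, tsum_eq_single m h]

theorem geom_summable {g : ℕ → A} {K : ℝ} (hg : ∀ n, ‖g n‖ ≤ K) :
    Summable (fun n => ((1 / 4 : ℂ) ^ n) • g n) ∧
      ‖∑' n, ((1 / 4 : ℂ) ^ n) • g n‖ ≤ 4 / 3 * K := by
  have h1 : HasSum (fun n : ℕ => (1 / 4 : ℝ) ^ n * K) (4 / 3 * K) := by
    have := (hasSum_geometric_of_lt_one (r := (1 / 4 : ℝ)) (by norm_num) (by norm_num)).mul_right K
    rwa [show (1 - 1 / 4 : ℝ)⁻¹ = 4 / 3 by norm_num] at this
  have h2 : ∀ n, ‖((1 / 4 : ℂ) ^ n) • g n‖ ≤ (1 / 4 : ℝ) ^ n * K := by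
    intro n
    rw [norm_smul, norm_pow]
    have : ‖(1 / 4 : ℂ)‖ = 1 / 4 := by simp
    rw [this]
    exact mul_le_mul_of_nonneg_left (hg n) (by positivity)
  exact ⟨Summable.of_norm_bounded h1.summable h2, tsum_of_norm_bounded h1 h2⟩

theorem top_mem {C : StarSubalgebra ℂ A} (hC : IsClosed (C : Set A)) {q S : A} (hq : q * q = q)
    (h1 : q * S = 0) (h2 : S * q = 0) (hS : ‖S‖ < 1) (hm : q + S ∈ C) : q ∈ C := by
  have e : ∀ k : ℕ, (q + S) ^ (k + 1) = q + S ^ (k + 1) := by
    intro k
    induction k with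
    | zero => simp
    | succ k ih =>
      rw [pow_succ, ih, add_mul, mul_add, mul_add, hq, h1, pow_succ S k, mul_assoc, h2]
      simp [pow_succ]
  have t : Tendsto (fun k : ℕ => (q + S) ^ (k + 1)) atTop (𝓝 q) := by
    simp only [e]
    have := (tendsto_pow_atTop_nhds_zero_of_norm_lt_one hS).comp (tendsto_add_atTop_nat 1)
    simpa using tendsto_const_nhds.add this
  exact hC.mem_of_tendsto t (Eventually.of_forall fun k => pow_mem hm _)

theorem smul_cancel {C : StarSubalgebra ℂ A} {c : ℂ} (hc : c ≠ 0) {x : A} (h : c • x ∈ C) :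
    x ∈ C := by
  have := SMulMemClass.smul_mem c⁻¹ h
  rwa [smul_smul, inv_mul_cancel₀ hc, one_smul] at this

theorem encode {f w : ℕ → A} (T : Tw τ f w) {a : ℕ → A} (ha : ∀ n, star (a n) * a n = f n)
    (ha' : ∀ n, a n * star (a n) = f n) :
    ∃ x : A, ∀ C : StarSubalgebra ℂ A, IsClosed (C : Set A) → x ∈ C →
      ∀ n, w n ∈ C ∧ a (n + 2) ∈ C := by
  have af : ∀ n, a n * f n = a n := fun n => pi_mul (T.proj n) (ha n)
  have fa : ∀ n, f n * a n = a n := fun n => by rw [← ha', mul_assoc, ha, af]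
  have na : ∀ n, ‖a n‖ ≤ 1 := fun n => pi_norm (T.proj n) (ha n)
  set q : ℕ → A := fun n => f n - f (n + 1) with hq
  set H : ℕ → A := fun n => w (n + 1) * a (n + 2) + star (w (n + 1) * a (n + 2)) with hH
  set D : ℕ → A := fun n => w n * H n * star (w n) with hD
  set g : ℕ → A := fun n => w n + star (w n) + D n with hg
  have ng : ∀ n, ‖g n‖ ≤ 4 := by
    intro n
    have h1 : ‖w (n + 1) * a (n + 2)‖ ≤ 1 :=
      (norm_mul_le _ _).trans (mul_le_one₀ (T.nw _) (norm_nonneg _) (na _))
    have h2 : ‖H n‖ ≤ 2 := (norm_add_le _ _).trans (by rw [norm_star]; linarith)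
    have h3 : ‖D n‖ ≤ 2 := by
      refine (norm_mul_le _ _).trans ?_
      rw [norm_star]
      have h4 := norm_mul_le (w n) (H n)
      have h5 := T.nw n
      have h6 := norm_nonneg (w n)
      have h7 := norm_nonneg (H n)
      have h8 : ‖w n * H n‖ ≤ 2 := by nlinarith
      nlinarith [norm_nonneg (w n * H n)]
    have h4 := norm_add_le (w n) (star (w n))
    rw [norm_star] at h4
    exact (norm_add_le _ _).trans (by linarith [T.nw n])
  have sg : ∀ n, star (g n) = g n := by
    intro n
    simp only [hg, hD, hH, star_add, star_mul, star_star, mul_add, add_mul, mul_assoc]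
    abel
  have sq : ∀ n, star (q n) = q n := fun n => (T.pq n).isSelfAdjoint.star_eq
  set Tn : ℕ → A := fun n => ∑' m, ((1 / 4 : ℂ) ^ m) • q (n + m) with hTn
  have sT := fun n => geom_summable (g := fun m => q (n + m)) (K := 1) fun m => (T.pq _).norm_le
  have sB := geom_summable ng
  set B₁ : A := ∑' m, ((1 / 4 : ℂ) ^ m) • g m with hB
  have sa1 : star (Tn 0) = Tn 0 := by
    simp only [hTn]
    rw [tsum_star]
    simp [sq]
  have sa2 : star B₁ = B₁ := by
    simp only [hB]
    rw [tsum_star]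
    simp [sg]
  refine ⟨Tn 0 + Complex.I • B₁, fun C hC hx => ?_⟩
  have hx' : Tn 0 - Complex.I • B₁ ∈ C := by
    have := star_mem hx
    simpa [sa1, sa2, sub_eq_add_neg] using this
  have m1 : Tn 0 ∈ C := smul_cancel (c := 2) two_ne_zero (by
    convert add_mem hx hx' using 1
    module)
  have m2 : B₁ ∈ C := smul_cancel (c := 2 * Complex.I) (by simp) (by
    convert sub_mem hx hx' using 1
    module)
  have rec1 : ∀ n, Tn n = q n + (1 / 4 : ℂ) • Tn (n + 1) := by
    intro n
    simp only [hTn]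
    rw [(sT n).1.tsum_eq_zero_add, ← (sT (n + 1)).1.tsum_const_smul]
    simp only [pow_zero, one_smul, add_zero, smul_smul, pow_succ', add_assoc, add_comm 1]
  have mq : ∀ n, Tn n ∈ C → q n ∈ C := by
    intro n hn
    rw [rec1] at hn
    refine top_mem hC (T.pq n).isIdempotentElem.eq ?_ ?_ ?_ hn
    · rw [mul_smul_comm]
      simp only [hTn]
      rw [← (sT (n + 1)).1.tsum_mul_left]
      have z : ∀ i, q n * q (n + 1 + i) = 0 := fun i => T.qq (by omega)
      simp only [mul_smul_comm, z, smul_zero, tsum_zero]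
    · rw [smul_mul_assoc]
      simp only [hTn]
      rw [← (sT (n + 1)).1.tsum_mul_right]
      have z : ∀ i, q (n + 1 + i) * q n = 0 := fun i => T.qq (by omega)
      simp only [smul_mul_assoc, z, smul_zero, tsum_zero]
    · rw [norm_smul]
      have h1 := (sT (n + 1)).2
      have : ‖(1 / 4 : ℂ)‖ = 1 / 4 := by simp
      rw [this]
      simp only [hTn]
      linarith
  have mT : ∀ n, Tn n ∈ C := by
    intro n
    induction n with
    | zero => exact m1
    | succ n ih =>
      refine smul_cancel (c := 1 / 4) (by norm_num) ?_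
      have := sub_mem ih (mq n ih)
      rwa [rec1 n, add_sub_cancel_left] at this
  have mf : ∀ n, f n ∈ C := by
    intro n
    induction n with
    | zero => rw [T.f0]; exact one_mem _
    | succ n ih => simpa [hq] using sub_mem ih (mq n (mT n))
  have qw0 : ∀ n m, m ≠ n → q n * w m = 0 := fun n m h => by
    rw [← T.qw m, ← mul_assoc, T.qq h.symm, zero_mul]
  have wq0 : ∀ n m, m ≠ n → star (w m) * q n = 0 := fun n m h => by
    simpa [sq] using congrArg star (qw0 n m h)
  have wq1 : ∀ n, w n * q n = 0 := fun n => by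
    rw [← T.wf n, mul_assoc, T.fq (Nat.lt_succ_self n), mul_zero]
  have qw1 : ∀ n, q n * star (w n) = 0 := fun n => by
    simpa [sq] using congrArg star (wq1 n)
  have qwf : ∀ n m, q n * star (w m) * f (n + 1) = 0 := fun n m => by
    rcases le_or_gt n m with h | h
    · rw [← T.fw' m, ← mul_assoc, T.qf (by omega), zero_mul, zero_mul]
    · rw [← T.wq' m, mul_assoc, mul_assoc, T.qf (by omega), mul_zero, mul_zero]
  have mw : ∀ n, w n ∈ C := by
    intro n
    have h1 := mul_mem (mul_mem (mq n (mT n)) m2) (mf (n + 1))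
    rw [hB, sandwich sB.1 _ _ n fun m hm => by
      simp only [hg, hD, mul_smul_comm, smul_mul_assoc, mul_add, add_mul, qwf, ← mul_assoc,
        qw0 n m hm, zero_mul, add_zero, smul_zero]] at h1
    have e : q n * g n * f (n + 1) = w n := by
      have e1 : star (w n) * f (n + 1) = 0 := by
        rw [← T.wq' n, mul_assoc, T.qf (Nat.lt_succ_self n), mul_zero]
      simp only [hg, hD, mul_add, add_mul, qwf, mul_assoc, e1, mul_zero, add_zero, T.wf]
      exact T.qw n
    rw [mul_smul_comm, smul_mul_assoc, e] at h1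
    exact smul_cancel (by simp) h1
  refine fun n => ⟨mw n, ?_⟩
  have h1 := mul_mem (mul_mem (mq n (mT n)) m2) (mq n (mT n))
  rw [hB, sandwich sB.1 _ _ n fun m hm => by
    simp only [hg, hD, mul_smul_comm, smul_mul_assoc, mul_add, ← mul_assoc,
      qw0 n m hm, zero_mul, add_zero, zero_add]
    rw [mul_assoc, wq0 n m hm, mul_zero, smul_zero]] at h1
  have e : star (w (n + 1)) * (star (w n) * (q n * g n * q n) * w n) = a (n + 2) := by
    have e1 : q n * g n * q n = q n * D n * q n := by
      simp only [hg, mul_add, add_mul, qw1, add_zero]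
      rw [mul_assoc, wq1, mul_zero, zero_add]
    have e2 : star (w n) * (q n * D n * q n) * w n = f (n + 1) * H n * f (n + 1) := by
      rw [← T.ww n, ← mul_assoc, ← mul_assoc, T.wq', mul_assoc _ (q n), T.qw]
      simp only [hD, mul_assoc]
    have e3 : star (w (n + 1)) * f (n + 1) = star (w (n + 1)) := by
      simpa [T.sf] using congrArg star (T.fw (n + 1))
    have e4 : star (w (n + 1)) * star (a (n + 2)) = 0 := by
      rw [← star_mul, ← af, ← T.qw (n + 1), mul_assoc, ← mul_assoc (f _),
        T.fq (Nat.lt_succ_self _), zero_mul, mul_zero, star_zero]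
    rw [e1, e2, ← mul_assoc, ← mul_assoc, e3]
    simp only [hH, mul_add, star_mul, ← mul_assoc, e4, zero_mul, add_zero, T.ww, fa]
    rw [← af, mul_assoc, T.ff' (Nat.le_succ _)]
  rw [mul_smul_comm, smul_mul_assoc] at h1
  rw [← e]
  exact mul_mem (star_mem (mw _)) (mul_mem (mul_mem (star_mem (mw _))
    (smul_cancel (by simp) h1)) (mw _))

end Crest.Agent.R95.SG
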