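import Crest.Agent.R95.Dense
import Crest.Agent.R95.Single_A

/-!
# Row 95: a single generator

PLAN.  By `exists_subproj` and `comparison` build projections `1 = f 0 ≥ f 1 ≥ ⋯` with
`τ (f n) = 2^{-n}` and `w n` with `(w n)⋆ w n = f (n+1)`, `w n (w n)⋆ = q n := f n - f (n+1)`.
`Θ 0 x = x`, `Θ (n+1) x = (f (n+1) Θ n x f (n+1) + (w n)⋆ (Θ n x) (w n)) / 2 ∈ f (n+1) A f (n+1)`:
`τ (Θ n x) = 2^{-n} τ x`, `‖Θ n x‖₂² ≤ 2^{-n} ‖x‖₂²`, and `Θ n x = x f n` if `x` commutes with all
`w j`, `(w j)⋆`.  Let `d j` enumerate a dense set.  In the corner `f n A f n` (`exists_corner` for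
`P = ⊤`, `af` with words `[(y⋆, false), (y, true)]`, `y` centred) choose a unitary `a n` of the
corner with `|τ (y⋆ (a n)⋆ y (a n))| ≤ 2^{-n}/(n+1)` for `y = Θ n (d j - τ (d j))`, `j ≤ n`.
`P₀ = clo (adjoin ({w n} ∪ {a n | n ≥ 3}))` is weakly closed, diffuse (`f n ∈ P₀`) and irreducible:
a centred `x` commuting with `P₀` has `2^{-n} ‖x‖₂² = τ ((x f n)⋆ (a n)⋆ (x f n) (a n))`, which is
close to the corresponding expression for `d j ≈ x`.
`dense_gen` in the corner `f 2 A f 2` for `f 2 P₀ f 2` gives `a 2` such that `P₀ ∪ {a 2}` generates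
(`1 = ∑ v v⋆` with `v ∈ P₀`, `v⋆ v = f 2`).  Finally
`A₁ = ∑ 2^{-n} q n`, `B₁ = ∑ 2^{-n} (w n + (w n)⋆ + w n (w (n+1) a (n+2) + (a (n+2))⋆ (w (n+1))⋆) (w n)⋆)`,
`x = A₁ + i B₁`.  In `C = clo (adjoin {x})` (norm closed): `q n ∈ C` (`q 0 = lim A₁^k`, then subtract
and rescale), `f n ∈ C`, `w n = 2^n q n B₁ f (n+1)`, `a (n+2) = 2^n (w (n+1))⋆ (w n)⋆ q n B₁ q n (w n) f (n+2)`.
-/

set_option autoImplicit false

namespace Crest.Agent.R95

open Filter Topology Finset
open scoped ComplexConjugate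

universe u

variable {A : Type u} [CStarAlgebra A] {τ : Tr A} {P N : StarSubalgebra ℂ A}

namespace SG

/-- compression to the corner `f n A f n` -/
noncomputable def Th (f w : ℕ → A) : ℕ → A → A
  | 0, x => x
  | n + 1, x => (1 / 2 : ℂ) • (f (n + 1) * Th f w n x * f (n + 1) + star (w n) * Th f w n x * w n)

theorem Th_sub (f w : ℕ → A) (n : ℕ) (x y : A) : Th f w n (x - y) = Th f w n x - Th f w n y := by
  induction n with
  | zero => rfl
  | succ n ih =>
    simp only [Th, ih, mul_sub, sub_mul]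
    module

variable {f w : ℕ → A}

theorem Th_left (T : Tw τ f w) (n : ℕ) (x : A) : f n * Th f w n x = Th f w n x := by
  cases n with
  | zero => rw [T.f0, one_mul]
  | succ n => simp only [Th, mul_smul_comm, mul_add, ← mul_assoc, T.ff le_rfl, T.fw']

theorem Th_right (T : Tw τ f w) (n : ℕ) (x : A) : Th f w n x * f n = Th f w n x := by
  cases n with
  | zero => rw [T.f0, mul_one]
  | succ n => simp only [Th, smul_mul_assoc, add_mul, mul_assoc, T.ff le_rfl, T.wf]

theorem Th_tr (T : Tw τ f w) (n : ℕ) (x : A) : τ.φ (Th f w n x) = (1 / 2) ^ n * τ.φ x := by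
  induction n with
  | zero => simp [Th]
  | succ n ih =>
    simp only [Th, map_smul, map_add, smul_eq_mul]
    rw [τ.comm _ (f (n + 1)), τ.comm _ (w n), ← mul_assoc, ← mul_assoc, T.ff le_rfl, T.ww',
      ← map_add, ← add_mul, add_sub_cancel, Th_left T, ih]
    ring

theorem Th_n2 (T : Tw τ f w) (n : ℕ) (x : A) :
    τ.n2 (Th f w n x) ^ 2 ≤ (1 / 2) ^ n * τ.n2 x ^ 2 := by
  induction n with
  | zero => simp [Th]
  | succ n ih =>
    set y := Th f w n x with hy
    have h1 : τ.n2 (f (n + 1) * y * f (n + 1)) ≤ τ.n2 (f (n + 1) * y) :=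
      (τ.n2_mul_le_right _ _).trans (mul_le_of_le_one_right (τ.n2_nonneg _) (T.proj _).norm_le)
    have h2 : τ.n2 (star (w n) * y * w n) ≤ τ.n2 (star (w n) * y) :=
      (τ.n2_mul_le_right _ _).trans (mul_le_of_le_one_right (τ.n2_nonneg _) (T.nw _))
    have h3 : τ.n2 (f (n + 1) * y) ^ 2 + τ.n2 (star (w n) * y) ^ 2 = τ.n2 y ^ 2 := by
      rw [τ.n2_sq, τ.n2_sq, τ.n2_sq, ← Complex.add_re, ← map_add, star_mul, star_mul, star_star,
        T.sf, mul_assoc, mul_assoc, ← mul_add, ← mul_assoc (f _), ← mul_assoc (w _), T.ff le_rfl,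
        T.ww', ← add_mul, add_sub_cancel, hy, Th_left T]
    have h4 := τ.n2_add_le (f (n + 1) * y * f (n + 1)) (star (w n) * y * w n)
    have h5 : τ.n2 (Th f w (n + 1) x) =
        1 / 2 * τ.n2 (f (n + 1) * y * f (n + 1) + star (w n) * y * w n) := by
      simp only [Th]
      rw [τ.n2_smul]
      simp [hy]
    have h6 : τ.n2 (Th f w (n + 1) x) ≤
        1 / 2 * (τ.n2 (f (n + 1) * y) + τ.n2 (star (w n) * y)) := by linarith
    have h7 := pow_le_pow_left₀ (τ.n2_nonneg _) h6 2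
    rw [pow_succ (1 / 2 : ℝ)]
    nlinarith [sq_nonneg (τ.n2 (f (n + 1) * y) - τ.n2 (star (w n) * y))]

theorem Th_comm (T : Tw τ f w) {x : A} (h1 : ∀ n, x * w n = w n * x)
    (h2 : ∀ n, x * star (w n) = star (w n) * x) (n : ℕ) : Th f w n x = x * f n := by
  induction n with
  | zero => simp [Th, T.f0]
  | succ n ih =>
    have h3 : f (n + 1) * x = x * f (n + 1) := by
      rw [← T.ww, mul_assoc, ← h1, ← mul_assoc, ← h2, mul_assoc]
    simp only [Th, ih]
    rw [← mul_assoc, h3, ← mul_assoc (star _), ← h2]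
    simp only [mul_assoc, T.le, T.ff le_rfl, T.fw, T.ww]
    module

theorem exists_irr (h : Irr τ ⊤) (hs : Sep τ) (T : Tw τ f w) :
    ∃ a : ℕ → A, (∀ n, star (a n) * a n = f n) ∧ (∀ n, a n * star (a n) = f n) ∧
      Irr τ (clo τ (StarAlgebra.adjoin ℂ (Set.range w ∪ Set.range fun n => a (n + 3)))) := by
  obtain ⟨D, hD, hDd⟩ := hs
  obtain ⟨d₀, hd₀, -⟩ := hDd 0 1 one_pos
  obtain ⟨d, rfl⟩ := hD.exists_eq_range ⟨d₀, hd₀⟩
  set y : ℕ → A := fun n => Th f w n (d n.unpair.1 - τ.φ (d n.unpair.1) • 1) with hy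
  have ex : ∀ n : ℕ, ∃ a : A, star a * a = f n ∧ a * star a = f n ∧
      (τ.φ (star (y n) * (star a * y n * a))).re ≤ (1 / 2) ^ n / ((n : ℝ) + 1) := by
    intro n
    obtain ⟨a, -, h1, h2, h3⟩ := h.dixmier_corner (e := f n) trivial (T.proj n) (T.ne_zero n)
      (ι := Unit) (fun _ => y n) (fun _ => y n) (fun _ => by simp [hy, Th_tr T, τ.one])
      (fun _ => by simp only [hy, Th_left T, Th_right T])
      (ε := (1 / 2) ^ n / ((n : ℝ) + 1)) (by positivity)
    exact ⟨a, h1, h2, by simpa using h3⟩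
  choose a a1 a2 a3 using ex
  refine ⟨a, a1, a2, h.faithful, h.top, isW_clo h.top _, ?_, ?_⟩
  · set P₀ := clo τ (StarAlgebra.adjoin ℂ (Set.range w ∪ Set.range fun n => a (n + 3)))
    have mw : ∀ n, w n ∈ P₀ := fun n =>
      le_clo _ (StarAlgebra.subset_adjoin ℂ _ (Or.inl ⟨n, rfl⟩))
    have ma : ∀ n, 3 ≤ n → a n ∈ P₀ := fun n hn =>
      le_clo _ (StarAlgebra.subset_adjoin ℂ _ (Or.inr ⟨n - 3, by simp [hn]⟩))
    intro x₀ hx₀
    refine ⟨τ.φ x₀, sub_eq_zero.mp (h.faithful _ ?_)⟩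
    set x := x₀ - τ.φ x₀ • 1 with hxd
    have hx : ∀ z ∈ P₀, x * z = z * x := fun z hz => by
      simp [hxd, sub_mul, mul_sub, hx₀ z hz]
    have hx' : ∀ z ∈ P₀, star x * x * z = z * (star x * x) := fun z hz => by
      have := congrArg star (hx _ (star_mem hz))
      rw [star_mul, star_mul, star_star] at this
      rw [mul_assoc, hx z hz, ← mul_assoc, ← this, mul_assoc]
    have key : ∀ ε > 0, τ.n2 x ^ 2 ≤ 44 * ε := by
      intro ε hε
      obtain ⟨_, ⟨j, rfl⟩, hj⟩ := hDd x₀ √ε (Real.sqrt_pos.mpr hε)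
      obtain ⟨m, hm⟩ := exists_nat_one_div_lt hε
      set n := Nat.pair j (m + 3) with hn
      have hmn : m + 3 ≤ n := Nat.right_le_pair _ _
      have hyn : y n = Th f w n (d j - τ.φ (d j) • 1) := by simp [hy, hn]
      have e1 : τ.n2 (x - (d j - τ.φ (d j) • 1)) ≤ 2 * √ε := by
        have e : x - (d j - τ.φ (d j) • 1) = (x₀ - d j) - τ.φ (x₀ - d j) • 1 := by
          rw [hxd, map_sub, sub_smul]; abel
        rw [e]
        refine (τ.n2_sub_le _ _).trans ?_
        rw [τ.n2_smul, τ.n2_one, mul_one]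
        linarith [τ.norm_phi_le_n2 (x₀ - d j)]
      have e2 : τ.n2 (x - (d j - τ.φ (d j) • 1)) ^ 2 ≤ 4 * ε := by
        have := pow_le_pow_left₀ (τ.n2_nonneg _) e1 2
        rwa [mul_pow, Real.sq_sqrt hε.le, show (2 : ℝ) ^ 2 = 4 by norm_num] at this
      have hz : Th f w n x = x * f n :=
        Th_comm T (fun k => hx _ (mw k)) (fun k => hx _ (star_mem (mw k))) n
      have hz' : Th f w n (star x * x) = star x * x * f n :=
        Th_comm T (fun k => hx' _ (mw k)) (fun k => hx' _ (star_mem (mw k))) n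
      set s : ℝ := (1 / 2) ^ n with hs
      have hs0 : 0 < s := by positivity
      have e3 : τ.n2 (x * f n - y n) ^ 2 ≤ s * (4 * ε) := by
        rw [← hz, hyn, ← Th_sub]
        exact (Th_n2 T n _).trans (mul_le_mul_of_nonneg_left e2 hs0.le)
      have e4 : τ.n2 (x * f n) ^ 2 = s * τ.n2 x ^ 2 := by
        rw [τ.n2_sq, τ.n2_sq, star_mul, T.sf, mul_assoc, τ.comm, mul_assoc, mul_assoc, T.ff le_rfl,
          ← mul_assoc, ← hz', Th_tr T, hs]
        rw [show ((1 / 2 : ℂ)) ^ n = (((1 / 2 : ℝ) ^ n : ℝ) : ℂ) by push_cast; rfl,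
          Complex.re_ofReal_mul]
      have af : a n * f n = a n := pi_mul (T.proj n) (a1 n)
      have fa : f n * a n = a n := by rw [← a2, mul_assoc, a1, af]
      have e5 : star (a n) * (x * f n) * a n = x * f n := by
        rw [mul_assoc, mul_assoc, fa, ← mul_assoc, ← hx _ (star_mem (ma n (by omega))), mul_assoc,
          a1]
      have na := pi_norm (T.proj n) (a1 n)
      have e6 : τ.n2 (y n - star (a n) * y n * a n) ≤ 2 * τ.n2 (x * f n - y n) := by
        have t := τ.n2_triangle (y n) (x * f n) (star (a n) * y n * a n)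
        rw [τ.n2_sub_comm (y n) (x * f n)] at t
        have e : x * f n - star (a n) * y n * a n = star (a n) * (x * f n - y n) * a n := by
          rw [mul_sub, sub_mul _ _ (a n), e5]
        rw [e] at t
        have u1 := τ.n2_mul_le_right (star (a n) * (x * f n - y n)) (a n)
        have u2 := τ.n2_mul_le_left (star (a n)) (x * f n - y n)
        rw [norm_star] at u2
        have u3 := mul_le_of_le_one_right (τ.n2_nonneg (star (a n) * (x * f n - y n))) na
        have u4 := mul_le_of_le_one_left (τ.n2_nonneg (x * f n - y n)) na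
        linarith
      have e7 := pow_le_pow_left₀ (τ.n2_nonneg _) e6 2
      rw [τ.n2_sub_sq] at e7
      have e8 : (τ.φ (star (y n) * (star (a n) * y n * a n))).re ≤ s * ε := by
        refine (a3 n).trans ?_
        rw [div_eq_mul_one_div]
        refine mul_le_mul_of_nonneg_left (le_trans ?_ hm.le) hs0.le
        refine one_div_le_one_div_of_le (by positivity) ?_
        have : (m : ℝ) ≤ n := by exact_mod_cast (by omega : m ≤ n)
        linarith
      have e9 : τ.n2 (x * f n) ≤ τ.n2 (x * f n - y n) + τ.n2 (y n) := by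
        simpa using τ.n2_add_le (x * f n - y n) (y n)
      have e10 := pow_le_pow_left₀ (τ.n2_nonneg _) e9 2
      refine le_of_mul_le_mul_left ?_ hs0
      nlinarith [sq_nonneg (τ.n2 (x * f n - y n) - τ.n2 (y n)),
        sq_nonneg (τ.n2 (star (a n) * y n * a n))]
    have : τ.n2 x ^ 2 ≤ 0 := le_of_forall_pos_le_add fun ε hε => by
      have := key (ε / 44) (by positivity)
      linarith
    exact pow_eq_zero_iff (two_ne_zero) |>.mp (le_antisymm this (by positivity))
  · intro δ hδ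
    obtain ⟨n, hn⟩ := exists_pow_lt_of_lt_one hδ (show (1 / 2 : ℝ) < 1 by norm_num)
    refine ⟨f (n + 1), ?_, T.proj _, T.ne_zero _, ?_⟩
    · have : w n ∈ clo τ (StarAlgebra.adjoin ℂ (Set.range w ∪ Set.range fun n => a (n + 3))) :=
        le_clo _ (StarAlgebra.subset_adjoin ℂ _ (Or.inl ⟨n, rfl⟩))
      rw [← T.ww]
      exact mul_mem (star_mem this) this
    · rw [T.tr, pow_succ]
      have : (0 : ℝ) < (1 / 2) ^ n := by positivity
      linarith

theorem corner_gen (h : Irr τ P) (hs : Sep τ) {e : A} (he : e ∈ P) (pe : IsStarProjection e)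
    (h0 : e ≠ 0) : ∃ v : A, star v * v = e ∧ v * star v = e ∧
      ∀ B : StarSubalgebra ℂ A, P ≤ clo τ B → v ∈ clo τ B → ∀ x, x ∈ clo τ B := by
  obtain ⟨B', _, σ, Q, ι, hI, i1, -, i3, i4, i5, i6⟩ := h.exists_corner he pe h0
  obtain ⟨v, hv, -, hg⟩ := hI.dense_gen (i6 hs) (one_mem _) one_pos
  refine ⟨ι v, by rw [← map_star, ← map_mul, Unitary.star_mul_self_of_mem hv, i1],
    by rw [← map_star, ← map_mul, Unitary.mul_star_self_of_mem hv, i1], fun B hP hvB => ?_⟩
  have k1 : ∀ b ∈ StarAlgebra.adjoin ℂ ((Q : Set B') ∪ {v}), ι b ∈ clo τ B := by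
    intro b hb
    induction hb using StarAlgebra.adjoin_induction with
    | mem x hx =>
      rcases hx with hx | rfl
      · exact hP ((i5 x).mp hx)
      · exact hvB
    | algebraMap r =>
      rw [Algebra.algebraMap_eq_smul_one, map_smul, i1]
      exact SMulMemClass.smul_mem _ (hP he)
    | add x y _ _ hx hy => rw [map_add]; exact add_mem hx hy
    | mul x y _ _ hx hy => rw [map_mul]; exact mul_mem hx hy
    | star x _ hx => rw [map_star]; exact star_mem hx
  have k2 : ∀ b, τ.n2 (ι b) ≤ σ.n2 b := by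
    intro b
    refine le_of_sq_le_sq ?_ (σ.n2_nonneg _)
    rw [τ.n2_sq, ← map_star, ← map_mul, i3, τ.phi_proj pe, Complex.re_ofReal_mul, ← σ.n2_sq]
    exact mul_le_of_le_one_left (by positivity) (τ.proj_le_one pe)
  have k3 : ∀ x, e * x * e = x → x ∈ clo τ B := by
    intro x hx
    obtain ⟨b, rfl⟩ := i4 x hx
    refine clo_clo B fun ε hε => ?_
    obtain ⟨b', hb', hlt⟩ := hg b ε hε
    exact ⟨ι b', k1 b' hb', by rw [← map_sub]; exact (k2 _).trans_lt hlt⟩
  obtain ⟨m, u, u1, u2, -, -, u5⟩ := h.fac.exists_cover he pe h0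
  intro x
  have e1 : x = ∑ i, ∑ j, u i * (star (u i) * x * u j) * star (u j) := by
    calc x = (∑ i, u i * star (u i)) * x * ∑ j, u j * star (u j) := by rw [u5]; simp
      _ = _ := by
        simp only [Finset.sum_mul, Finset.mul_sum, mul_assoc]
        exact Finset.sum_comm
  rw [e1]
  refine sum_mem fun i _ => sum_mem fun j _ =>
    mul_mem (mul_mem (hP (u1 i)) (k3 _ ?_)) (star_mem (hP (u1 j)))
  have : e * star (u i) = star (u i) := by
    simpa [pe.isSelfAdjoint.star_eq] using congrArg star (u2 i)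
  rw [← mul_assoc, ← mul_assoc, this, mul_assoc, u2]

end SG

theorem single_gen (h : Irr τ ⊤) (hs : Sep τ) : ∃ x : A, Gen τ {x} := by
  obtain ⟨f, w, T⟩ := SG.exists_tw h
  obtain ⟨a, a1, a2, hI⟩ := SG.exists_irr h hs T
  have hw : w 1 ∈ clo τ (StarAlgebra.adjoin ℂ (Set.range w ∪ Set.range fun n => a (n + 3))) :=
    le_clo _ (StarAlgebra.subset_adjoin ℂ _ (Or.inl ⟨1, rfl⟩))
  obtain ⟨v, v1, v2, hv⟩ := SG.corner_gen hI hs (e := f 2)
    (by rw [← T.ww]; exact mul_mem (star_mem hw) hw) (T.proj 2) (T.ne_zero 2)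
  obtain ⟨x, hx⟩ := SG.encode T (a := fun n => if n = 2 then v else a n)
    (fun n => by split_ifs with hn; exacts [hn ▸ v1, a1 n])
    (fun n => by split_ifs with hn; exacts [hn ▸ v2, a2 n])
  have hx' := hx (clo τ (StarAlgebra.adjoin ℂ {x})) (isClosed_clo _)
    (le_clo _ (StarAlgebra.subset_adjoin ℂ _ rfl))
  refine ⟨x, hv (StarAlgebra.adjoin ℂ {x}) ((clo_mono (StarAlgebra.adjoin_le ?_)).trans
    (clo_clo _)) (by simpa using (hx' 0).2)⟩
  rintro _ (⟨n, rfl⟩ | ⟨n, rfl⟩)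
  · exact (hx' n).1
  · simpa using (hx' (n + 1)).2

end Crest.Agent.R95
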