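import Crest.Agent.R95.Tr

/-!
# Row 95: weakly closed subalgebras

PLANS.
* `isClosed`: a norm-convergent sequence is bounded and `‖·‖₂`-Cauchy; uniqueness of limits by
  faithfulness.
* `exists_ker`: `r n = (1 + n a⋆a)⁻¹ = cfc (fun t => (1 + n t)⁻¹) (a⋆a) ∈ N` (`cfc_mem`, `N` is norm
  closed).  For `m ≤ n`, `d = r m - r n` is `cfc` of a function with values in `[0,1]` on the
  spectrum, so `‖d‖₂² = τ(d²) ≤ τ d` and `τ (r n)` is decreasing, bounded: Cauchy.  For the limit `s`: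
  `a z = 0 → r n z = z → s z = z`; `‖a r n‖² = ‖r n a⋆a r n‖ ≤ 1/(4n)` gives `a s = 0`, hence
  `s s = s`, and `s z = z → a z = a s z = 0`.
* `clo`: if `x, x'` are in the closure: `x x' ≈ x b' ≈ b b'` (choose `b'` first).
* `mem_of_inCl` (Kaplansky): reduce to self-adjoint `x`, `‖x‖ ≤ 1`; `y = cfc (fun t => t/(1+√(1-t²))) x`
  lies in the norm-closed algebra `clo τ N`, `x = (y+i)⁻¹ + (y-i)⁻¹`; for self-adjoint `b n ∈ N`
  with `‖b n - y‖₂ → 0` the elements `(b n+i)⁻¹ + (b n-i)⁻¹ ∈ N` are bounded by 2 and converge to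
  `x` in `‖·‖₂` (resolvent identity).
* `exists_unitary_decomp`: `a = Re (a + i √(1-a²))` for self-adjoint `‖a‖ ≤ 1` (cfc).
* `exists_maximal`: choose `x (n+1) ≥ x n` with `t (x (n+1)) ≥ sup - 1/(n+1)`.
-/

set_option autoImplicit false

namespace Crest.Agent.R95

open Filter Topology Finset
open scoped ComplexConjugate

universe u

variable {A : Type u} [CStarAlgebra A] {τ : Tr A} {P N : StarSubalgebra ℂ A}

theorem Tr.Faithful.eq_of_tendsto (hτ : τ.Faithful) {x : ℕ → A} {y z : A}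
    (hy : Tendsto (fun n => τ.n2 (x n - y)) atTop (𝓝 0))
    (hz : Tendsto (fun n => τ.n2 (x n - z)) atTop (𝓝 0)) : y = z := by
  have h := hy.add hz
  rw [add_zero] at h
  have h1 : τ.n2 (y - z) ≤ 0 := ge_of_tendsto' h fun n => by
    have := τ.n2_triangle y (x n) z
    rwa [τ.n2_sub_comm y (x n)] at this
  exact sub_eq_zero.1 (hτ _ (le_antisymm h1 (τ.n2_nonneg _)))

theorem tendsto_n2_mul {x y : ℕ → A} {x' y' : A} {C : ℝ} (hC : ∀ n, ‖x n‖ ≤ C)
    (hx : Tendsto (fun n => τ.n2 (x n - x')) atTop (𝓝 0))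
    (hy : Tendsto (fun n => τ.n2 (y n - y')) atTop (𝓝 0)) :
    Tendsto (fun n => τ.n2 (x n * y n - x' * y')) atTop (𝓝 0) := by
  have h := (hy.const_mul C).add (hx.mul_const ‖y'‖)
  simp only [mul_zero, zero_mul, add_zero] at h
  refine squeeze_zero (fun n => τ.n2_nonneg _) (fun n => ?_) h
  have e : x n * y n - x' * y' = x n * (y n - y') + (x n - x') * y' := by
    rw [mul_sub, sub_mul]; abel
  rw [e]
  refine (τ.n2_add_le _ _).trans (add_le_add ((τ.n2_mul_le_left _ _).trans ?_)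
    (τ.n2_mul_le_right _ _))
  exact mul_le_mul_of_nonneg_right (hC n) (τ.n2_nonneg _)

theorem tendsto_n2_star {x : ℕ → A} {x' : A}
    (hx : Tendsto (fun n => τ.n2 (x n - x')) atTop (𝓝 0)) :
    Tendsto (fun n => τ.n2 (star (x n) - star x')) atTop (𝓝 0) := by
  refine hx.congr fun n => ?_
  rw [← star_sub, τ.n2_star]

theorem tendsto_phi {x : ℕ → A} {x' : A}
    (hx : Tendsto (fun n => τ.n2 (x n - x')) atTop (𝓝 0)) :
    Tendsto (fun n => τ.φ (x n)) atTop (𝓝 (τ.φ x')) := by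
  rw [tendsto_iff_norm_sub_tendsto_zero]
  refine squeeze_zero (fun n => norm_nonneg _) (fun n => ?_) hx
  rw [← map_sub]
  exact τ.norm_phi_le_n2 _

theorem mem_unitary_of_tendsto (hτ : τ.Faithful) {x : ℕ → A} {y : A} (hx : ∀ n, x n ∈ unitary A)
    (h : Tendsto (fun n => τ.n2 (x n - y)) atTop (𝓝 0)) : y ∈ unitary A := by
  have h1 : ∀ n, ‖x n‖ ≤ 1 := fun n => (τ.norm_unitary (hx n)).le
  have h2 : ∀ n, ‖star (x n)‖ ≤ 1 := fun n => by rw [norm_star]; exact h1 n
  rw [Unitary.mem_iff]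
  constructor
  · refine hτ.eq_of_tendsto (tendsto_n2_mul h2 (tendsto_n2_star h) h) ?_
    simp [Unitary.star_mul_self_of_mem (hx _), τ.n2_zero]
  · refine hτ.eq_of_tendsto (tendsto_n2_mul h1 h (tendsto_n2_star h)) ?_
    simp [Unitary.mul_star_self_of_mem (hx _), τ.n2_zero]

theorem cauchy_of_tendsto {x : ℕ → A} {y : A}
    (h : Tendsto (fun n => τ.n2 (x n - y)) atTop (𝓝 0)) :
    ∀ ε > 0, ∃ n₀, ∀ m ≥ n₀, ∀ n ≥ n₀, τ.n2 (x m - x n) < ε := by
  intro ε hε
  obtain ⟨n₀, hn₀⟩ := eventually_atTop.1 (h.eventually (gt_mem_nhds (half_pos hε)))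
  refine ⟨n₀, fun m hm n hn => ?_⟩
  have h1 := τ.n2_triangle (x m) y (x n)
  rw [τ.n2_sub_comm y] at h1
  have h2 := hn₀ m hm
  have h3 := hn₀ n hn
  linarith

theorem IsW.mem_of_tendsto (hτ : τ.Faithful) (h : IsW τ N) {x : ℕ → A} {y : A} {C : ℝ}
    (hx : ∀ n, x n ∈ N) (hC : ∀ n, ‖x n‖ ≤ C)
    (hy : Tendsto (fun n => τ.n2 (x n - y)) atTop (𝓝 0)) : y ∈ N := by
  obtain ⟨z, hz, -, hz'⟩ := h x C hx hC (cauchy_of_tendsto hy)
  rwa [hτ.eq_of_tendsto hy hz']

theorem tendsto_n2_of_tendsto {x : ℕ → A} {y : A} (h : Tendsto x atTop (𝓝 y)) :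
    Tendsto (fun n => τ.n2 (x n - y)) atTop (𝓝 0) :=
  squeeze_zero (fun _ => τ.n2_nonneg _) (fun _ => τ.n2_le_norm _)
    (tendsto_iff_norm_sub_tendsto_zero.1 h)

theorem IsW.isClosed (hτ : τ.Faithful) (h : IsW τ N) : IsClosed (N : Set A) := by
  refine isClosed_of_closure_subset fun y hy => ?_
  obtain ⟨x, hx, hxy⟩ := mem_closure_iff_seq_limit.1 hy
  obtain ⟨C, hC⟩ := hxy.norm.bddAbove_range
  exact h.mem_of_tendsto hτ hx (fun n => hC ⟨n, rfl⟩) (tendsto_n2_of_tendsto hxy)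

namespace Wk

theorem cont_res (c : ℝ) : Continuous fun t : ℝ => (1 + (c * t) ^ 2)⁻¹ :=
  Continuous.inv₀ (by fun_prop) fun t => by positivity

/-- `(1 + (c b)²)⁻¹` -/
noncomputable def res (c : ℝ) (b : A) : A := cfc (fun t : ℝ => (1 + (c * t) ^ 2)⁻¹) b

theorem res_sa (c : ℝ) (b : A) : IsSelfAdjoint (res c b) := IsSelfAdjoint.cfc

theorem norm_res_le (c : ℝ) (b : A) : ‖res c b‖ ≤ 1 := by
  refine norm_cfc_le zero_le_one fun t _ => ?_
  rw [Real.norm_eq_abs, abs_of_nonneg (by positivity)]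
  exact inv_le_one_of_one_le₀ (by nlinarith [sq_nonneg (c * t)])

theorem res_mul {b : A} (hb : IsSelfAdjoint b) (c : ℝ) :
    res c b * (1 + (c ^ 2 : ℝ) • (b * b)) = 1 := by
  have h1 : 1 + (c ^ 2 : ℝ) • (b * b) = cfc (fun t : ℝ => 1 + c ^ 2 * (t * t)) b := by
    rw [cfc_const_add 1 _ b, cfc_const_mul _ _ b, cfc_mul _ _ b, cfc_id' ℝ b, map_one]
  rw [h1, res, ← cfc_mul _ _ b (cont_res c).continuousOn, ← cfc_const_one ℝ b]
  congr 1
  funext t
  have : 1 + (c * t) ^ 2 ≠ 0 := by positivity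
  field_simp

theorem mul_res {b : A} (hb : IsSelfAdjoint b) (c : ℝ) :
    (1 + (c ^ 2 : ℝ) • (b * b)) * res c b = 1 := by
  have := congrArg star (res_mul hb c)
  simpa [(res_sa c b).star_eq, hb.star_eq] using this

theorem mul_res_eq {b : A} (hb : IsSelfAdjoint b) (c : ℝ) :
    b * res c b = cfc (fun t : ℝ => t * (1 + (c * t) ^ 2)⁻¹) b := by
  rw [cfc_mul _ _ b (by fun_prop) (cont_res c).continuousOn, cfc_id' ℝ b, res]

theorem res_comm {b : A} (hb : IsSelfAdjoint b) (c : ℝ) : res c b * b = b * res c b := by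
  have h : IsSelfAdjoint (b * res c b) := by rw [mul_res_eq hb]; exact IsSelfAdjoint.cfc
  rw [← h.star_eq, star_mul, hb.star_eq, (res_sa c b).star_eq]

theorem norm_mul_res_le {b : A} (hb : IsSelfAdjoint b) {c : ℝ} (hc : 0 < c) :
    ‖b * res c b‖ ≤ c⁻¹ := by
  rw [mul_res_eq hb]
  refine norm_cfc_le (by positivity) fun t _ => ?_
  rw [Real.norm_eq_abs, abs_mul, abs_of_nonneg (a := _⁻¹) (by positivity), ← div_eq_mul_inv,
    div_le_iff₀ (by positivity), le_inv_mul_iff₀ hc, mul_pow, ← sq_abs t]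
  nlinarith [sq_nonneg (c * |t| - 1), mul_nonneg hc.le (abs_nonneg t)]

theorem phi_cfc_nonneg (τ : Tr A) {g : ℝ → ℝ} (hg : Continuous g) (h0 : ∀ t, 0 ≤ g t) (b : A) :
    0 ≤ (τ.φ (cfc g b)).re := by
  have h := τ.pos (cfc (fun t => √(g t)) b)
  rw [(IsSelfAdjoint.cfc (f := fun t => √(g t)) (a := b)).star_eq, ← cfc_mul _ _ b] at h
  convert h using 4
  funext t
  rw [Real.mul_self_sqrt (h0 t)]

theorem n2_res_sub (τ : Tr A) (b : A) {c d : ℝ} (hc : 0 ≤ c) (hcd : c ≤ d) :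
    τ.n2 (res c b - res d b) ^ 2 ≤ (τ.φ (res c b)).re - (τ.φ (res d b)).re := by
  set g : ℝ → ℝ := fun t => (1 + (c * t) ^ 2)⁻¹ - (1 + (d * t) ^ 2)⁻¹ with hg
  have hgc : Continuous g := (cont_res c).sub (cont_res d)
  have h1 : res c b - res d b = cfc g b := by
    rw [hg, cfc_sub _ _ b (cont_res c).continuousOn (cont_res d).continuousOn]; rfl
  have h2 := phi_cfc_nonneg τ (g := fun t => g t - g t * g t) (by fun_prop) (fun t => by
    have h3 : 0 ≤ g t := by
      refine sub_nonneg.2 (inv_anti₀ (by positivity) ?_)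
      rw [mul_pow, mul_pow]
      gcongr
    have h4 : g t ≤ 1 := by
      have : (1 + (c * t) ^ 2)⁻¹ ≤ 1 := inv_le_one_of_one_le₀ (by nlinarith [sq_nonneg (c * t)])
      have : 0 ≤ (1 + (d * t) ^ 2)⁻¹ := by positivity
      simp only [hg]; linarith
    nlinarith) b
  rw [cfc_sub _ _ b, cfc_mul _ _ b, map_sub, Complex.sub_re] at h2
  rw [← Complex.sub_re, ← map_sub, h1, τ.n2_sq, (IsSelfAdjoint.cfc (f := g) (a := b)).star_eq]
  linarith

theorem n2_F_sub (τ : Tr A) {b y : A} (hb : IsSelfAdjoint b) (hy : IsSelfAdjoint y) :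
    τ.n2 (b * res 1 b - y * res 1 y) ≤ 2 * τ.n2 (b - y) := by
  have h1 := res_mul hb 1
  have h2 := mul_res hy 1
  rw [one_pow, one_smul] at h1 h2
  have e : b * res 1 b - y * res 1 y =
      res 1 b * (b - y) * res 1 y - (b * res 1 b) * (b - y) * (y * res 1 y) := by
    calc b * res 1 b - y * res 1 y
        = res 1 b * b * ((1 + y * y) * res 1 y) - (res 1 b * (1 + b * b)) * (y * res 1 y) := by
          rw [h1, h2, mul_one, one_mul, res_comm hb]
      _ = _ := by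
          rw [← res_comm hb]
          simp only [mul_add, add_mul, mul_sub, sub_mul, mul_one, one_mul, mul_assoc]
          abel
  have key : ∀ p q z : A, ‖p‖ ≤ 1 → ‖q‖ ≤ 1 → τ.n2 (p * z * q) ≤ τ.n2 z := by
    intro p q z hp hq
    calc τ.n2 (p * z * q) ≤ τ.n2 (p * z) * ‖q‖ := τ.n2_mul_le_right _ _
      _ ≤ τ.n2 (p * z) := mul_le_of_le_one_right (τ.n2_nonneg _) hq
      _ ≤ ‖p‖ * τ.n2 z := τ.n2_mul_le_left _ _
      _ ≤ _ := mul_le_of_le_one_left (τ.n2_nonneg _) hp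
  rw [e]
  have h3 := key _ _ (b - y) (norm_res_le 1 b) (norm_res_le 1 y)
  have h4 := key _ _ (b - y) (by simpa using norm_mul_res_le hb one_pos)
    (by simpa using norm_mul_res_le hy one_pos)
  exact (τ.n2_sub_le _ _).trans (by linarith)

theorem exists_F {x : A} (hx : IsSelfAdjoint x) (h1 : ‖x‖ ≤ 1) :
    ∃ G : ℝ → ℝ, x = (2 : ℂ) • (cfc G x * res 1 (cfc G x)) := by
  let G : ℝ → ℝ := fun t => t * (1 + √(1 - t ^ 2))⁻¹
  have hG : Continuous G := continuous_id.mul (Continuous.inv₀ (by fun_prop) fun t => by positivity)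
  refine ⟨G, ?_⟩
  have hy : IsSelfAdjoint (cfc G x) := IsSelfAdjoint.cfc
  have h2 := mul_res hy 1
  rw [one_pow, one_smul] at h2
  have h3 : x * (1 + cfc G x * cfc G x) = (2 : ℝ) • cfc G x := by
    have e1 : x * (1 + cfc G x * cfc G x) = cfc (fun t : ℝ => t * (1 + G t * G t)) x := by
      rw [cfc_mul (fun t : ℝ => t) (fun t => 1 + G t * G t) x, cfc_const_add (1 : ℝ) _ x,
        cfc_mul G G x, cfc_id' ℝ x, map_one]
    rw [e1, ← cfc_const_mul _ _ x]
    refine cfc_congr fun t ht => ?_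
    have ht1 : |t| ≤ 1 := by
      rcases subsingleton_or_nontrivial A with hA | hA
      · simp [spectrum.of_subsingleton] at ht
      · exact (spectrum.norm_le_norm_of_mem ht).trans h1
    have ht2 : 0 ≤ 1 - t ^ 2 := by
      rw [← sq_abs]; nlinarith [abs_nonneg t]
    have hs := Real.sq_sqrt ht2
    have hs0 : 1 + √(1 - t ^ 2) ≠ 0 := by positivity
    simp only [G]
    set s := √(1 - t ^ 2)
    field_simp
    linear_combination t * hs
  calc x = x * (1 + cfc G x * cfc G x) * res 1 (cfc G x) := by rw [mul_assoc, h2, mul_one]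
    _ = _ := by
      rw [h3, smul_mul_assoc, ← Complex.coe_smul]
      norm_num

end Wk

open Wk in
theorem IsW.exists_ker (hτ : τ.Faithful) (h : IsW τ N) {a : A} (ha : a ∈ N) :
    ∃ s ∈ N, IsStarProjection s ∧ ∀ z, a * z = 0 ↔ s * z = z := by
  have hN := h.isClosed hτ
  set b := star a * a with hb'
  have hb : IsSelfAdjoint b := IsSelfAdjoint.star_mul_self a
  let r : ℕ → A := fun n => res (n : ℝ) b
  have hr : ∀ n, r n ∈ N := fun n => cfc_mem _ (mul_mem (star_mem ha) ha)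
  let t : ℕ → ℝ := fun n => (τ.φ (r n)).re
  have hrt : ∀ m n, m ≤ n → τ.n2 (r m - r n) ^ 2 ≤ t m - t n := fun m n hmn =>
    n2_res_sub τ b (Nat.cast_nonneg m) (Nat.cast_le.2 hmn)
  have hanti : Antitone t := fun m n hmn => by
    have := hrt m n hmn
    have := sq_nonneg (τ.n2 (r m - r n))
    linarith
  have hbd : BddBelow (Set.range t) := ⟨0, by
    rintro _ ⟨n, rfl⟩
    exact phi_cfc_nonneg τ (cont_res _) (fun t => by positivity) b⟩
  have htc := (tendsto_atTop_ciInf hanti hbd).cauchySeq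
  obtain ⟨s, hs, -, hrs⟩ := h r 1 hr (fun n => norm_res_le _ _) (by
    intro ε hε
    obtain ⟨n₀, hn₀⟩ := Metric.cauchySeq_iff.1 htc (ε ^ 2) (by positivity)
    refine ⟨n₀, fun m hm n hn => ?_⟩
    have h1 := hn₀ m hm n hn
    rw [Real.dist_eq, abs_lt] at h1
    refine lt_of_pow_lt_pow_left₀ 2 hε.le ?_
    rcases le_total m n with hmn | hmn
    · linarith [hrt m n hmn]
    · rw [τ.n2_sub_comm]; linarith [hrt n m hmn])
  have hconst : ∀ z : A, Tendsto (fun n : ℕ => τ.n2 (z - z)) atTop (𝓝 0) := fun z => by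
    simp [τ.n2_zero]
  have h1 : ∀ z, a * z = 0 → s * z = z := by
    intro z hz
    have h2 : ∀ n, r n * z = z := fun n => by
      have := congrArg (· * z) (res_mul hb n)
      simp only [mul_assoc, add_mul, one_mul, smul_mul_assoc] at this
      have hbz : b * z = 0 := by rw [hb', mul_assoc, hz, mul_zero]
      rwa [hbz, mul_zero, smul_zero, add_zero] at this
    refine hτ.eq_of_tendsto (tendsto_n2_mul (x := r) (fun n => norm_res_le _ _) hrs (hconst z)) ?_
    simp only [h2]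
    exact hconst z
  have hsa : star s = s := by
    refine hτ.eq_of_tendsto (tendsto_n2_star hrs) (hrs.congr fun n => ?_)
    rw [(res_sa _ _).star_eq]
  have h2 : b * s = 0 := by
    refine hτ.eq_of_tendsto (tendsto_n2_mul (fun n => le_rfl) (hconst b) hrs) ?_
    refine tendsto_n2_of_tendsto ?_
    rw [tendsto_zero_iff_norm_tendsto_zero]
    refine squeeze_zero' (Eventually.of_forall fun n => norm_nonneg _) ?_
      tendsto_inv_atTop_nhds_zero_nat
    filter_upwards [eventually_gt_atTop 0] with n hn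
    exact norm_mul_res_le hb (Nat.cast_pos.2 hn)
  have h3 : a * s = 0 := by
    rw [← CStarRing.star_mul_self_eq_zero_iff, star_mul, mul_assoc, ← mul_assoc (star a), ← hb',
      h2, mul_zero]
  refine ⟨s, hs, ⟨h1 s h3, hsa⟩, fun z => ⟨h1 z, fun hz => ?_⟩⟩
  rw [← hz, ← mul_assoc, h3, zero_mul]

/-- the `‖·‖₂`-closure of a ⋆-subalgebra -/
def clo (τ : Tr A) (B : StarSubalgebra ℂ A) : StarSubalgebra ℂ A where
  carrier := {x | InCl τ B x}
  mul_mem' := by 
    intro x x' hx hx' ε hε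
    obtain ⟨b', hb', h'⟩ := hx' (ε / 2 / (‖x‖ + 1)) (by positivity)
    obtain ⟨b, hb, h⟩ := hx (ε / 2 / (‖b'‖ + 1)) (by positivity)
    refine ⟨b * b', mul_mem hb hb', ?_⟩
    have e : x * x' - b * b' = x * (x' - b') + (x - b) * b' := by
      rw [mul_sub, sub_mul]; abel
    rw [lt_div_iff₀ (by positivity)] at h h'
    have h1 := τ.n2_mul_le_left x (x' - b')
    have h2 := τ.n2_mul_le_right (x - b) b'
    have h3 := τ.n2_nonneg (x' - b')
    have h4 := τ.n2_nonneg (x - b)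
    rw [e]
    refine (τ.n2_add_le _ _).trans_lt ?_
    nlinarith
  add_mem' := by 
    intro x x' hx hx' ε hε
    obtain ⟨b', hb', h'⟩ := hx' (ε / 2) (by positivity)
    obtain ⟨b, hb, h⟩ := hx (ε / 2) (by positivity)
    refine ⟨b + b', add_mem hb hb', ?_⟩
    rw [add_sub_add_comm]
    exact (τ.n2_add_le _ _).trans_lt (by linarith)
  algebraMap_mem' := by 
    intro c ε hε
    exact ⟨_, B.algebraMap_mem c, by simpa [τ.n2_zero] using hε⟩
  star_mem' := by 
    intro x hx ε hε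
    obtain ⟨b, hb, h⟩ := hx ε hε
    exact ⟨star b, star_mem hb, by rwa [← star_sub, τ.n2_star]⟩

theorem mem_clo {B : StarSubalgebra ℂ A} {x : A} : x ∈ clo τ B ↔ InCl τ B x := Iff.rfl

theorem le_clo (B : StarSubalgebra ℂ A) : B ≤ clo τ B := fun x hx ε hε =>
  ⟨x, hx, by simpa [τ.n2_zero] using hε⟩

theorem clo_mono {B B' : StarSubalgebra ℂ A} (h : B ≤ B') : clo τ B ≤ clo τ B' :=
  fun _ hx ε hε => let ⟨b, hb, h'⟩ := hx ε hε; ⟨b, h hb, h'⟩

theorem clo_clo (B : StarSubalgebra ℂ A) : clo τ (clo τ B) ≤ clo τ B := by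
  intro x hx ε hε
  obtain ⟨y, hy, h⟩ := hx (ε / 2) (by positivity)
  obtain ⟨b, hb, h'⟩ := hy (ε / 2) (by positivity)
  exact ⟨b, hb, (τ.n2_triangle x y b).trans_lt (by linarith)⟩

theorem mem_clo_of_tendsto {B : StarSubalgebra ℂ A} {x : ℕ → A} {y : A} (hx : ∀ n, x n ∈ B)
    (h : Tendsto (fun n => τ.n2 (x n - y)) atTop (𝓝 0)) : y ∈ clo τ B := by
  intro ε hε
  obtain ⟨n, hn⟩ := (h.eventually (gt_mem_nhds hε)).exists
  exact ⟨x n, hx n, by rwa [τ.n2_sub_comm]⟩

theorem exists_tendsto_of_inCl {B : StarSubalgebra ℂ A} {y : A} (hy : InCl τ B y) :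
    ∃ x : ℕ → A, (∀ n, x n ∈ B) ∧ Tendsto (fun n => τ.n2 (x n - y)) atTop (𝓝 0) := by
  choose x hx h using fun n : ℕ => hy (1 / ((n : ℝ) + 1)) (by positivity)
  refine ⟨x, hx, squeeze_zero (fun n => τ.n2_nonneg _) (fun n => ?_)
    tendsto_one_div_add_atTop_nhds_zero_nat⟩
  rw [τ.n2_sub_comm]
  exact (h n).le

theorem isClosed_clo (B : StarSubalgebra ℂ A) : IsClosed (clo τ B : Set A) := by
  refine isClosed_of_closure_subset fun y hy => ?_
  obtain ⟨x, hx, hxy⟩ := mem_closure_iff_seq_limit.1 hy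
  exact clo_clo B (mem_clo_of_tendsto hx (tendsto_n2_of_tendsto hxy))

theorem isW_clo (top : IsW τ ⊤) (B : StarSubalgebra ℂ A) : IsW τ (clo τ B) := by
  intro x C hx hC hc
  obtain ⟨y, -, h1, h2⟩ := top x C (fun _ => trivial) hC hc
  exact ⟨y, clo_clo B (mem_clo_of_tendsto hx h2), h1, h2⟩

open Wk in
theorem IsW.mem_of_inCl_sa (hτ : τ.Faithful) (h : IsW τ N) {x : A} (hx : x ∈ clo τ N)
    (hsa : IsSelfAdjoint x) (h1 : ‖x‖ ≤ 1) : x ∈ N := by
  have hN := h.isClosed hτ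
  have hc := isClosed_clo (τ := τ) N
  obtain ⟨G, hG⟩ := exists_F hsa h1
  have hy : cfc G x ∈ clo τ N := cfc_mem _ hx
  have hys : IsSelfAdjoint (cfc G x) := IsSelfAdjoint.cfc
  set y := cfc G x
  obtain ⟨b, hb, hby⟩ := exists_tendsto_of_inCl hy
  let b' : ℕ → A := fun n => (1 / 2 : ℂ) • (b n + star (b n))
  have hb' : ∀ n, b' n ∈ N := fun n => SMulMemClass.smul_mem _ (add_mem (hb n) (star_mem (hb n)))
  have hbs : ∀ n, IsSelfAdjoint (b' n) := fun n => by
    simp [b', IsSelfAdjoint, add_comm]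
  have h2 : ∀ n, τ.n2 (b' n - y) ≤ τ.n2 (b n - y) := fun n => by
    have e : b' n - y = (1 / 2 : ℂ) • ((b n - y) + star (b n - y)) := by
      rw [star_sub, hys.star_eq]
      simp only [b']
      module
    rw [e, τ.n2_smul]
    have := τ.n2_add_le (b n - y) (star (b n - y))
    rw [τ.n2_star] at this
    simp only [one_div, norm_inv, Complex.norm_ofNat]
    linarith
  rw [hG]
  refine SMulMemClass.smul_mem _ (h.mem_of_tendsto hτ (x := fun n => b' n * res 1 (b' n)) (C := 1)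
    (fun n => mul_mem (hb' n) (cfc_mem _ (hb' n)))
    (fun n => by simpa using norm_mul_res_le (hbs n) one_pos) ?_)
  have h3 := hby.const_mul 2
  rw [mul_zero] at h3
  refine squeeze_zero (fun n => τ.n2_nonneg _) (fun n => (n2_F_sub τ (hbs n) hys).trans ?_) h3
  linarith [h2 n]

/-- Kaplansky's density theorem -/
theorem IsW.mem_of_inCl (hτ : τ.Faithful) (h : IsW τ N) {x : A} (hx : InCl τ N x) : x ∈ N := by
  have key : ∀ y ∈ clo τ N, IsSelfAdjoint y → y ∈ N := by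
    intro y hy hys
    have h0 : (0 : ℝ) < ‖y‖ + 1 := by positivity
    have h1 := h.mem_of_inCl_sa hτ (x := (((‖y‖ + 1)⁻¹ : ℝ) : ℂ) • y) (SMulMemClass.smul_mem _ hy)
      (by simp [IsSelfAdjoint, hys.star_eq]) (by
        rw [norm_smul, Complex.norm_real, Real.norm_eq_abs, abs_of_nonneg (by positivity),
          inv_mul_le_iff₀ h0]
        linarith)
    have h2 := SMulMemClass.smul_mem (((‖y‖ + 1) : ℝ) : ℂ) h1
    rwa [smul_smul, ← Complex.ofReal_mul, mul_inv_cancel₀ h0.ne', Complex.ofReal_one,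
      one_smul] at h2
  have hx' : x ∈ clo τ N := hx
  have h1 := key (x + star x) (add_mem hx' (star_mem hx')) (by simp [IsSelfAdjoint, add_comm])
  have h2 := key (Complex.I • (x - star x)) (SMulMemClass.smul_mem _ (sub_mem hx' (star_mem hx')))
    (by simp [IsSelfAdjoint, smul_sub, neg_add_eq_sub])
  have e : x = (1 / 2 : ℂ) • ((x + star x) - Complex.I • Complex.I • (x - star x)) := by
    rw [smul_smul, Complex.I_mul_I]
    module
  rw [e]
  exact SMulMemClass.smul_mem _ (sub_mem h1 (SMulMemClass.smul_mem _ h2))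

theorem exists_unitary_decomp (hN : IsClosed (N : Set A)) {x : A} (hx : x ∈ N) :
    ∃ (c : Fin 4 → ℂ) (u : Fin 4 → A), (∀ i, u i ∈ N ∧ u i ∈ unitary A) ∧ x = ∑ i, c i • u i := by
  letI : CStarAlgebra N := StarSubalgebra.cstarAlgebra N
  obtain ⟨u, c, h, -⟩ := CStarAlgebra.exists_sum_four_unitary (⟨x, hx⟩ : N)
  refine ⟨c, fun i => ((u i : N) : A), fun i => ⟨(u i : N).2, ?_⟩, ?_⟩
  · have := (u i).2
    rw [Unitary.mem_iff] at this ⊢
    exact ⟨congrArg Subtype.val this.1, congrArg Subtype.val this.2⟩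
  · simpa using congrArg Subtype.val h

/-- exhaustion principle -/
theorem exists_maximal {X : Type*} (r : X → X → Prop) (t : X → ℝ) (C : ℝ) (x₀ : X)
    (refl : ∀ x, r x x) (trans : ∀ x y z, r x y → r y z → r x z) (hC : ∀ x, t x ≤ C)
    (mono : ∀ x y, r x y → t x ≤ t y)
    (chain : ∀ x : ℕ → X, (∀ n, r (x n) (x (n + 1))) → ∃ y, ∀ n, r (x n) y) :
    ∃ x, r x₀ x ∧ ∀ y, r x y → t y ≤ t x := by
  have step : ∀ (n : ℕ) (x : X), ∃ y, r x y ∧ ∀ z, r x z → t z ≤ t y + 1 / ((n : ℝ) + 1) := by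
    intro n x
    have hbd : BddAbove (t '' {z | r x z}) := ⟨C, by rintro _ ⟨z, -, rfl⟩; exact hC z⟩
    have hne : (t '' {z | r x z}).Nonempty := ⟨_, x, refl x, rfl⟩
    obtain ⟨_, ⟨y, hy, rfl⟩, h⟩ := exists_lt_of_lt_csSup hne
      (show sSup (t '' {z | r x z}) - 1 / ((n : ℝ) + 1) < _ from sub_lt_self _ (by positivity))
    refine ⟨y, hy, fun z hz => ?_⟩
    have := le_csSup hbd ⟨z, hz, rfl⟩
    linarith
  choose f hf hf' using step
  let x : ℕ → X := fun n => Nat.rec x₀ f n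
  obtain ⟨y, hy⟩ := chain x fun n => hf n (x n)
  refine ⟨y, hy 0, fun z hz => ?_⟩
  have h1 : ∀ n : ℕ, t z ≤ t y + 1 / ((n : ℝ) + 1) := fun n =>
    (hf' n (x n) z (trans _ _ _ (hy n) hz)).trans (by
      have := mono _ _ (hy (n + 1))
      exact add_le_add this le_rfl)
  have h2 := (tendsto_one_div_add_atTop_nhds_zero_nat (𝕜 := ℝ)).const_add (t y)
  rw [add_zero] at h2
  exact ge_of_tendsto' h2 h1

end Crest.Agent.R95
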